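import Vale.Agent.Lib.P154.Defs
import Vale.Agent.Lib.P154Q.Four

/-!
# The `d`-ary tree as a Galton-Watson tree

The quantity `reconDist q d lam n`, defined with finite sums over the spins at depth `n` of the `d`-ary tree, is the
quantity `advantage (dirac d) q lam n` of the Galton-Watson tree whose vertices have exactly `d` children.
-/

namespace Vale.Agent.Lib.P154R

open Vale.Agent.Lib.P154GW Vale.Agent.Lib.P154Q

noncomputable section

/-- The complete `d`-ary tree. -/
def cbd (d : ℕ) : (n : ℕ) → Tr n
  | 0 => ()
  | n + 1 => ⟨d, fun _ => cbd d n⟩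

lemma treeProb_cbd (d n : ℕ) : treeProb (dirac d) n (cbd d n) = 1 := by
  induction n with
  | zero => rfl
  | succ n ih =>
    have e : treeProb (dirac d) (n + 1) (cbd d (n + 1)) = dirac d d * ∏ _c : Fin d, treeProb (dirac d) n (cbd d n) := rfl
    rw [e, ih]
    simp [dirac]

lemma treeProb_ne_cbd (d n : ℕ) (T : Tr n) (h : T ≠ cbd d n) : treeProb (dirac d) n T = 0 := by
  induction n with
  | zero => exact absurd rfl h
  | succ n ih =>
    obtain ⟨k, T'⟩ := T
    have e : treeProb (dirac d) (n + 1) ⟨k, T'⟩ = dirac d k * ∏ c : Fin k, treeProb (dirac d) n (T' c) := rfl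
    rw [e]
    by_cases hk : k = d
    · subst hk
      have : ∃ c, T' c ≠ cbd k n := by
        by_contra hall
        push Not at hall
        apply h
        have : T' = fun _ => cbd k n := funext hall
        rw [this]
        rfl
      obtain ⟨c, hc⟩ := this
      rw [Finset.prod_eq_zero (Finset.mem_univ c) (ih _ hc), mul_zero]
    · simp [dirac, hk]

lemma advantage_dirac (d q : ℕ) (lam : ℝ) (n : ℕ) :
    advantage (dirac d) q lam n = advTree q lam n (cbd d n) := by
  unfold advantage
  rw [tsum_eq_single (cbd d n)]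
  · rw [treeProb_cbd, one_mul]
  · intro T hT
    rw [treeProb_ne_cbd d n T hT, zero_mul]

/-- The configurations at depth `n + 1` are tuples of configurations at depth `n`. -/
def splitQ (q d n : ℕ) : ((Fin (n + 1) → Fin d) → Fin q) ≃ (Fin d → (Fin n → Fin d) → Fin q) where
  toFun ξ := fun c w => ξ (Fin.cons c w)
  invFun f := fun v => f (v 0) (Fin.tail v)
  left_inv ξ := by
    funext v
    simp [Fin.cons_self_tail]
  right_inv f := by
    funext c w
    simp

/-- The spins at depth `n` of the complete tree, as a map from the words. -/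
def leafEquiv (q d : ℕ) : (n : ℕ) → Leaves q n (cbd d n) ≃ ((Fin n → Fin d) → Fin q)
  | 0 => (Equiv.funUnique (Fin 0 → Fin d) (Fin q)).symm
  | n + 1 => (Equiv.piCongrRight fun _ => leafEquiv q d n).trans (splitQ q d n).symm

lemma lik_cbd (q d : ℕ) (lam : ℝ) :
    ∀ (n : ℕ) (ω : Leaves q n (cbd d n)) (i : Fin q),
      lik q lam n (cbd d n) ω i = Vale.Agent.Lib.P154.leafLaw q d lam n i (leafEquiv q d n ω)
  | 0, ω, i => by
    show (if i = (show Fin q from ω) then (1 : ℝ) else 0) =
      if (show Fin q from ω) = i then 1 else 0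
    simp only [eq_comm]
  | n + 1, ω, i => by
    show (∏ c : Fin d, ∑ j : Fin q, chan q lam i j * lik q lam n (cbd d n) (ω c) j) =
      ∏ c : Fin d, ∑ k : Fin q, Vale.Agent.Lib.P154.potts q lam i k *
        Vale.Agent.Lib.P154.leafLaw q d lam n k (fun w => leafEquiv q d (n + 1) ω (Fin.cons c w))
    apply Finset.prod_congr rfl
    intro c _
    apply Finset.sum_congr rfl
    intro j _
    have e : (fun w => leafEquiv q d (n + 1) ω (Fin.cons c w)) = leafEquiv q d n (ω c) := by
      funext w
      show leafEquiv q d n (ω ((Fin.cons c w : Fin (n + 1) → Fin d) 0))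
        (Fin.tail (Fin.cons c w : Fin (n + 1) → Fin d)) = _
      rw [Fin.tail_cons]
      rfl
    rw [e, lik_cbd q d lam n (ω c) j]
    rfl

/-- The two definitions of `a_n` on the `d`-ary tree agree. -/
theorem advantage_dirac_eq (d q : ℕ) (lam : ℝ) (n : ℕ) :
    advantage (dirac d) q lam n = Vale.Agent.Lib.P154.reconDist q d lam n := by
  rw [advantage_dirac]
  unfold advTree Vale.Agent.Lib.P154.reconDist
  rw [← Equiv.sum_comp (leafEquiv q d n)]
  apply Finset.sum_congr rfl
  intro ω _
  have hm : marg q lam n (cbd d n) ω = Vale.Agent.Lib.P154.leafMarginal q d lam n (leafEquiv q d n ω) := by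
    unfold marg Vale.Agent.Lib.P154.leafMarginal
    simp only [lik_cbd]
  have hp : ∀ i, post q lam n (cbd d n) ω i =
      Vale.Agent.Lib.P154.rootPosterior q d lam n (leafEquiv q d n ω) i := by
    intro i
    unfold post Vale.Agent.Lib.P154.rootPosterior
    rw [hm, lik_cbd]
  simp only [hm, hp]

/-- The limit statement on the `d`-ary tree, in either form. -/
theorem tendsto_dirac_iff (d q : ℕ) (lam : ℝ) :
    Filter.Tendsto (advantage (dirac d) q lam) Filter.atTop (nhds 0) ↔
      Filter.Tendsto (Vale.Agent.Lib.P154.reconDist q d lam) Filter.atTop (nhds 0) := by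
  have e : advantage (dirac d) q lam = Vale.Agent.Lib.P154.reconDist q d lam := by
    funext n
    exact advantage_dirac_eq d q lam n
  rw [e]

end

end Vale.Agent.Lib.P154R
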