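import Vale.Agent.Lib.P154R.OneP

/-!
# The columns of a certificate

A certificate is given by two tables.  The symmetric table holds the terms `c_k μ_k(x) μ_k(x')`, which by the
rank one identity are the averages of a symmetric polynomial of the weights of a merge.  The bilinear table
holds the terms in the power sums of the two arguments.
-/

open Finset

namespace Vale.Agent.Lib.P154R

open Ex Vale.Agent.Lib.P154Q

noncomputable section

/-- The upper bound of the Mellin invariant. -/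
def Xf (c : Fin 4 → ℝ) : ℝ :=
  tauF c + 13 / 25 * rhoF c ^ 2 - 411 / 500 * kapF c + 439 / 500 * (rhoF c * tauF c) - 649 / 1000 * rhoF c ^ 3
    - 43 / 1000 * tauF c ^ 2 + 191 / 1000 * (rhoF c * kapF c)

/-- The exponents of a table entry. -/
def kOf (t : ℕ × ℕ × ℕ × ℕ) : Fin 4 → ℕ := ![t.1, t.2.1, t.2.2.1, t.2.2.2]

/-- The columns of the two tables. -/
def csOf (n : ℕ) (sy : List ((ℕ × ℕ × ℕ × ℕ) × ℤ)) (bl : List ((ℕ × ℕ × ℕ) × List ((ℕ × ℕ × ℕ) × ℤ))) :
    List (Ex × Ex) :=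
  sy.map (fun t => (Ex.mul (Ex.c t.2) (muEl n (kOf t.1)), muEl n (kOf t.1))) ++
  bl.map (fun t => (mnEl n t.1.1 t.1.2.1 t.1.2.2,
    sumE (t.2.map (fun u => Ex.mul (Ex.c u.2) (mnEl n u.1.1 u.1.2.1 u.1.2.2)))))

/-- The symmetric part of the form. -/
def symV (sy : List ((ℕ × ℕ × ℕ × ℕ) × ℤ)) (x x' : Fin 4 → ℝ) : ℝ :=
  (sy.map fun t => (t.2 : ℝ) * (muV (kOf t.1) x * muV (kOf t.1) x')).sum

/-- A monomial in the power sums. -/
def mnV (m : ℕ × ℕ × ℕ) (c : Fin 4 → ℝ) : ℝ :=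
  (4 * rhoF c) ^ m.1 * (4 * tauF c) ^ m.2.1 * (4 * kapF c) ^ m.2.2

/-- A linear combination of monomials. -/
def linV (l : List ((ℕ × ℕ × ℕ) × ℤ)) (c : Fin 4 → ℝ) : ℝ :=
  (l.map fun u => (u.2 : ℝ) * mnV u.1 c).sum

/-- The bilinear part of the form. -/
def bilV (bl : List ((ℕ × ℕ × ℕ) × List ((ℕ × ℕ × ℕ) × ℤ))) (a b : Fin 4 → ℝ) : ℝ :=
  (bl.map fun t => mnV t.1 a * linV t.2 b).sum

lemma sumV_append (α β : Fin 4 → ℝ) : ∀ l l' : List (Ex × Ex),
    sumV α β (l ++ l') = sumV α β l + sumV α β l'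
  | [], l' => by simp [sumV]
  | C :: l, l' => by
    simp only [List.cons_append, sumV]
    rw [sumV_append α β l l']
    ring

variable {x x' a b : Fin 4 → ℝ} {r r' : Fin 4 → ℝ} {π π' : Equiv.Perm (Fin 4)}

/-- A point of the simplex in the chart. -/
lemma chart_of {c : Fin 4 → ℝ} (hc : InSx 1 c) :
    ∃ (π : Equiv.Perm (Fin 4)) (r : Fin 4 → ℝ), (∀ i, 0 ≤ r i) ∧ ∀ i, (xE i).val r = (1 / 4 + c (π i)) := by
  obtain ⟨π, r, h1, h2⟩ := exists_chart (fun i => 1 / 4 + c i) (fun i => by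
    have := hc.2 i
    norm_num at this ⊢
    linarith)
  exact ⟨π, r, h1, h2⟩

lemma sum_shift {c : Fin 4 → ℝ} (hc : InSx 1 c) : ∑ i, (1 / 4 + c i) = 1 := by
  rw [Finset.sum_add_distrib, hc.1]
  simp

/-- The value of the columns at the chart points. -/
theorem sumV_csOf {a b : Fin 4 → ℝ} (ha : InSx 1 a) (hb : InSx 1 b)
    (hr : ∀ i, (xE i).val r = (fun i => 1 / 4 + a i) (π i))
    (hr' : ∀ i, (xE i).val r' = (fun i => 1 / 4 + b i) (π' i)) (n : ℕ) (sy : List ((ℕ × ℕ × ℕ × ℕ) × ℤ))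
    (bl : List ((ℕ × ℕ × ℕ) × List ((ℕ × ℕ × ℕ) × ℤ))) :
    sumV r r' (csOf n sy bl) = symV sy (fun i => 1 / 4 + a i) (fun i => 1 / 4 + b i) + bilV bl a b := by
  have hs := sum_shift ha
  have hs' := sum_shift hb
  have hc : ∀ i, (fun i => 1 / 4 + a i) i = 1 / 4 + a i := fun _ => rfl
  have hc' : ∀ i, (fun i => 1 / 4 + b i) i = 1 / 4 + b i := fun _ => rfl
  rw [csOf, sumV_append]
  congr 1
  · unfold symV
    induction sy with
    | nil => simp [sumV]
    | cons t ts ih =>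
      simp only [List.map_cons, sumV, List.sum_cons, ih]
      congr 1
      simp only [Ex.val]
      rw [muEl_val hr hs, muEl_val hr' hs']
      ring
  · unfold bilV
    induction bl with
    | nil => simp [sumV]
    | cons t ts ih =>
      simp only [List.map_cons, sumV, List.sum_cons, ih]
      congr 1
      rw [mnEl_val hr hc hs, sumE_val, List.map_map]
      unfold mnV linV
      congr 1
      congr 1
      apply List.map_congr_left
      intro u _
      simp only [Function.comp, Ex.val]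
      rw [mnEl_val hr' hc' hs']
      rfl

/-- **The certificate.**  The nonnegativity of the sum of products gives the nonnegativity of the form on the simplex. -/
theorem form_nonneg {n : ℕ} {sy : List ((ℕ × ℕ × ℕ × ℕ) × ℤ)}
    {bl : List ((ℕ × ℕ × ℕ) × List ((ℕ × ℕ × ℕ) × ℤ))}
    (hs : ∀ α β : Fin 4 → ℝ, (∀ i, 0 ≤ α i) → (∀ i, 0 ≤ β i) → 0 ≤ sumV α β (csOf n sy bl))
    {a b : Fin 4 → ℝ} (ha : InSx 1 a) (hb : InSx 1 b) :
    0 ≤ symV sy (fun i => 1 / 4 + a i) (fun i => 1 / 4 + b i) + bilV bl a b := by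
  obtain ⟨π, r, h1, h2⟩ := chart_of ha
  obtain ⟨π', r', h1', h2'⟩ := chart_of hb
  have := hs r r' h1 h1'
  rwa [sumV_csOf ha hb h2 h2'] at this

/-- The value of a column table at a point. -/
def symP (sy : List ((ℕ × ℕ × ℕ × ℕ) × ℤ)) (z : Fin 4 → ℝ) : ℝ :=
  (sy.map fun t => (t.2 : ℝ) * muV (kOf t.1) z).sum

/-- The rank one identity for a table. -/
lemma sum_symP (sy : List ((ℕ × ℕ × ℕ × ℕ) × ℤ)) (x x' : Fin 4 → ℝ) :
    ∑ σ : Equiv.Perm (Fin 4), symP sy (fun i => x i * x' (σ i)) = symV sy x x' := by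
  induction sy with
  | nil => simp [symP, symV]
  | cons t ts ih =>
    simp only [symP, symV, List.map_cons, List.sum_cons] at ih ⊢
    rw [Finset.sum_add_distrib, ih, ← Finset.mul_sum, muV_rank]

/-- The average of a polynomial whose expansion is the table. -/
theorem symV_avg {sy : List ((ℕ × ℕ × ℕ × ℕ) × ℤ)} {D : ℝ} {P : (Fin 4 → ℝ) → ℝ}
    (hP : ∀ z, D * P z = 24 * symP sy z) (x x' : Fin 4 → ℝ) :
    symV sy x x' = D * ((1 / 24) * ∑ σ : Equiv.Perm (Fin 4), P (fun i => x i * x' (σ i))) := by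
  rw [← sum_symP]
  have : ∀ σ : Equiv.Perm (Fin 4), symP sy (fun i => x i * x' (σ i)) =
      (1 / 24) * (D * P (fun i => x i * x' (σ i))) := fun σ => by
    rw [hP]
    ring
  simp only [this]
  rw [← Finset.mul_sum, ← Finset.mul_sum]
  ring

/-! ### The polynomial identities -/

/-- A monomial in plain variables. -/
def prZ (k : Fin 4 → ℕ) (τ : Fin 4 → Fin 4) : Ex :=
  .mul (.mul (.mul (.pow (.v (τ 0)) (k 0)) (.pow (.v (τ 1)) (k 1))) (.pow (.v (τ 2)) (k 2))) (.pow (.v (τ 3)) (k 3))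

/-- The sum over the permutations in plain variables. -/
def muZ (k : Fin 4 → ℕ) : Ex := sumE (perms4.map (prZ k))

lemma muZ_val (z : Fin 4 → ℝ) (k : Fin 4 → ℕ) : (muZ k).val z = muV k z := by
  unfold muZ muV
  rw [sumE_val, List.map_map, sum_perm_four (fun τ : Fin 4 → Fin 4 => ∏ i, z (τ i) ^ k i)]
  congr 1
  apply List.map_congr_left
  intro τ _
  simp only [Function.comp, prZ, Ex.val, Fin.prod_univ_four]

/-- The table as a polynomial in plain variables. -/
def symZ (sy : List ((ℕ × ℕ × ℕ × ℕ) × ℤ)) : Ex :=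
  sumE (sy.map fun t => .mul (.c t.2) (muZ (kOf t.1)))

lemma symZ_val (z : Fin 4 → ℝ) (sy : List ((ℕ × ℕ × ℕ × ℕ) × ℤ)) : (symZ sy).val z = symP sy z := by
  unfold symZ symP
  rw [sumE_val, List.map_map]
  congr 1
  apply List.map_congr_left
  intro t _
  simp only [Function.comp, Ex.val, muZ_val]

/-- The mass of `4 z`. -/
def nZ : Ex := .mul (.c 4) (.add (.add (.add (.v 0) (.v 1)) (.v 2)) (.v 3))

/-- The second symmetric function of `4 z`. -/
def e2Z : Ex := .mul (.c 16) (.add (.add (.add (.add (.add (.mul (.v 0) (.v 1)) (.mul (.v 0) (.v 2))) (.mul (.v 0) (.v 3)))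
  (.mul (.v 1) (.v 2))) (.mul (.v 1) (.v 3))) (.mul (.v 2) (.v 3)))

/-- The third symmetric function of `4 z`. -/
def e3Z : Ex := .mul (.c 64) (.add (.add (.add (.mul (.mul (.v 0) (.v 1)) (.v 2)) (.mul (.mul (.v 0) (.v 1)) (.v 3)))
  (.mul (.mul (.v 0) (.v 2)) (.v 3))) (.mul (.mul (.v 1) (.v 2)) (.v 3)))

lemma nZ_val (z : Fin 4 → ℝ) : nZ.val z = nY (fun i => 4 * z i) := by
  simp [nZ, nY, Ex.val]
  ring

lemma e2Z_val (z : Fin 4 → ℝ) : e2Z.val z = e2Y (fun i => 4 * z i) := by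
  simp [e2Z, e2Y, Ex.val]
  ring

lemma e3Z_val (z : Fin 4 → ℝ) : e3Z.val z = e3Y (fun i => 4 * z i) := by
  simp [e3Z, e3Y, Ex.val]
  ring

/-- An expression for a table, by the check of an identity. -/
theorem table_of_check {W R : ℕ} {sy : List ((ℕ × ℕ × ℕ × ℕ) × ℤ)} {D E : ℤ} {e : Ex}
    (h : checkZ W R (.sub (.mul (.c D) e) (.mul (.c (24 * E)) (symZ sy))) = true) (z : Fin 4 → ℝ) :
    (D : ℝ) * e.val z = (24 * E : ℤ) * symP sy z := by
  have := checkZ_sound h z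
  simp only [Ex.val, symZ_val] at this
  linarith

/-- A linear combination of monomials as an expression. -/
def linE (n : ℕ) (l : List ((ℕ × ℕ × ℕ) × ℤ)) : Ex :=
  sumE (l.map (fun u => Ex.mul (Ex.c u.2) (mnEl n u.1.1 u.1.2.1 u.1.2.2)))

/-- A one sided check. -/
theorem lin_nonneg {W n k : ℕ} {l : List ((ℕ × ℕ × ℕ) × ℤ)} (h : check1 W n k (linE n l) = true) {c : Fin 4 → ℝ}
    (hc : InSx 1 c) : 0 ≤ linV l c := by
  obtain ⟨π, r, h1, h2⟩ := chart_of hc
  have h3 := check1_sound h r h1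
  have hs := sum_shift hc
  have hc' : ∀ i, (fun i => 1 / 4 + c i) i = 1 / 4 + c i := fun _ => rfl
  have e : (linE n l).val r = linV l c := by
    unfold linE linV
    rw [sumE_val, List.map_map]
    congr 1
    apply List.map_congr_left
    intro u _
    simp only [Function.comp, Ex.val]
    rw [mnEl_val (x := fun i => 1 / 4 + c i) h2 hc' hs]
    rfl
  rwa [e] at h3

end

end Vale.Agent.Lib.P154R
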