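import Vale.Agent.Lib.P154R.Rows

/-!
# The row check by chunks of positions

The digits of a chunk of positions are extracted from the big number by descending in the binary tree of
`unpN`, so that a check of a chunk does not touch the digits of the other positions.
-/

open MvPolynomial Finset

namespace Vale.Agent.Lib.P154R

open Ex

/-- The number of a chunk. -/
def pick (W j : ℕ) : ℕ → ℕ → ℕ → ℕ
  | 0, _, X => X
  | l + 1, t, X =>
    cond (Nat.blt t (2 ^ l))
      (pick W j l t (Nat.land X ((1 : ℕ) <<< (W * 2 ^ (j + l)) - 1)))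
      (pick W j l (t - 2 ^ l) (Nat.shiftRight X (W * 2 ^ (j + l))))

lemma unpN_append (W : ℕ) : ∀ (k X : ℕ) (acc : List ℕ), unpN W k X acc = unpN W k X [] ++ acc
  | 0, X, acc => by simp [unpN_zero]
  | k + 1, X, acc => by
    rw [unpN_succ, unpN_succ, unpN_append W k _ (unpN W k (Nat.shiftRight X (W * 2 ^ k)) acc),
      unpN_append W k (Nat.shiftRight X (W * 2 ^ k)) acc,
      unpN_append W k _ (unpN W k (Nat.shiftRight X (W * 2 ^ k)) [])]
    simp

lemma length_unpN' (W k X : ℕ) : (unpN W k X []).length = 2 ^ k := by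
  simp [length_unpN]

/-- A digit of the big number is a digit of its chunk. -/
lemma getD_pick (W j : ℕ) : ∀ (l t X i : ℕ), t < 2 ^ l → i < 2 ^ j →
    (unpN W (j + l) X []).getD (t * 2 ^ j + i) 0 = (unpN W j (pick W j l t X) []).getD i 0
  | 0, t, X, i, hc, hi => by
    have : t = 0 := by simpa using hc
    subst this
    simp [pick]
  | l + 1, t, X, i, hc, hi => by
    have e1 : j + (l + 1) = (j + l) + 1 := rfl
    rw [e1, unpN_succ, unpN_append W (j + l), pick]
    rcases lt_or_ge t (2 ^ l) with h | h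
    · have hb : Nat.blt t (2 ^ l) = true := by simpa [Nat.blt_eq] using h
      rw [hb]
      simp only [cond_true]
      rw [← getD_pick W j l t _ i h hi]
      have hlt : t * 2 ^ j + i < (unpN W (j + l) (Nat.land X ((1 : ℕ) <<< (W * 2 ^ (j + l)) - 1)) []).length := by
        rw [length_unpN']
        have h1 : (t + 1) * 2 ^ j ≤ 2 ^ l * 2 ^ j := Nat.mul_le_mul_right _ h
        rw [pow_add, mul_comm (2 ^ j)]
        nlinarith
      rw [List.getD_eq_getElem _ _ (by rw [List.length_append]; omega), List.getElem_append_left hlt,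
        List.getD_eq_getElem _ _ hlt]
    · have hb : Nat.blt t (2 ^ l) = false := by
        rw [Bool.eq_false_iff]
        intro h5
        have : t < 2 ^ l := by simpa [Nat.blt_eq] using h5
        omega
      rw [hb]
      simp only [cond_false]
      have hc' : t - 2 ^ l < 2 ^ l := by
        rw [pow_succ] at hc
        omega
      rw [← getD_pick W j l (t - 2 ^ l) _ i hc' hi]
      have hlen : (unpN W (j + l) (Nat.land X ((1 : ℕ) <<< (W * 2 ^ (j + l)) - 1)) []).length = 2 ^ (j + l) :=
        length_unpN' _ _ _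
      have ei : t * 2 ^ j + i = 2 ^ (j + l) + ((t - 2 ^ l) * 2 ^ j + i) := by
        obtain ⟨m, rfl⟩ : ∃ m, t = 2 ^ l + m := ⟨t - 2 ^ l, by omega⟩
        rw [Nat.add_sub_cancel_left, pow_add]
        ring
      rw [ei]
      have hm : ((t - 2 ^ l) * 2 ^ j + i) < (unpN W (j + l) (Nat.shiftRight X (W * 2 ^ (j + l))) []).length := by
        rw [length_unpN']
        have h1 : ((t - 2 ^ l) + 1) * 2 ^ j ≤ 2 ^ l * 2 ^ j := Nat.mul_le_mul_right _ hc'
        rw [pow_add, mul_comm (2 ^ j)]
        nlinarith
      rw [List.getD_eq_getElem _ _ (by rw [List.length_append, hlen]; omega),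
        List.getElem_append_right (by omega), List.getD_eq_getElem _ _ hm]
      simp only [hlen, Nat.add_sub_cancel_left]

/-- The digits of a chunk of `A`. -/
noncomputable def digsC (W l j c n : ℕ) (A : Ex) : List ℤ :=
  match Int.add (A.kron (kPt W (n + 1))) (Int.ofNat (maskOf W (2 ^ (j + l)))) with
  | .ofNat X => (unpN W j (pick W j l c X) []).map (sgn ((1 : ℕ) <<< (W - 1)))
  | .negSucc _ => []

lemma digsC_length {W l j c n : ℕ} {A : Ex} (h : digsDef W (j + l) n A = true) :
    (digsC W l j c n A).length = 2 ^ j := by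
  unfold digsDef at h
  unfold digsC
  split
  · simp [length_unpN']
  · rename_i m hm
    rw [hm] at h
    simp at h

lemma digsC_getD {W l j c n i : ℕ} {A : Ex} (h : digsDef W (j + l) n A = true) (hc : c < 2 ^ l) (hi : i < 2 ^ j) :
    (digsOf W (j + l) n A).getD (c * 2 ^ j + i) 0 = (digsC W l j c n A).getD i 0 := by
  unfold digsDef at h
  unfold digsC digsOf
  cases hY : Int.add (A.kron (kPt W (n + 1))) (Int.ofNat (maskOf W (2 ^ (j + l)))) with
  | ofNat X =>
    have h1 := getD_pick W j l c X i hc hi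
    have hi' : c * 2 ^ j + i < (unpN W (j + l) X []).length := by
      rw [length_unpN']
      have h1 : (c + 1) * 2 ^ j ≤ 2 ^ l * 2 ^ j := Nat.mul_le_mul_right _ hc
      rw [pow_add, mul_comm (2 ^ j)]
      nlinarith
    have hi2 : i < (unpN W j (pick W j l c X) []).length := by
      rw [length_unpN']
      exact hi
    simp only
    rw [List.getD_eq_getElem _ _ (by simpa using hi'), List.getD_eq_getElem _ _ (by simpa using hi2)]
    rw [List.getElem_map, List.getElem_map]
    rw [List.getD_eq_getElem _ _ hi', List.getD_eq_getElem _ _ hi2] at h1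
    rw [h1]
  | negSucc m =>
    rw [hY] at h
    simp at h

/-- The rows of a chunk. -/
noncomputable def colsTC (W l j c n : ℕ) (Cs : List (Ex × Ex)) : List (List ℤ) :=
  transp (2 ^ j) (Cs.map (fun C => digsC W l j c n C.1))

/-- The check of a chunk. -/
noncomputable def colsRowsC (W l j c n : ℕ) (Cs : List (Ex × Ex)) : Bool :=
  (colsTC W l j c n Cs).all
    (rowOk ((1 : ℕ) <<< (W - 1)) (maskOf W (2 ^ (j + l))) ((colsB Cs).map (kron (kPt W (n + 1))))
      ((colsB Cs).map maj))

/-- The check of a chunk gives the row check of its positions. -/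
theorem row_of_chunk {W l j c n : ℕ} {Cs : List (Ex × Ex)} (hh : colsHead W (j + l) n Cs = true)
    (h : colsRowsC W l j c n Cs = true) (hc : c < 2 ^ l) {i : ℕ} (hi : i < 2 ^ j) :
    rowOk ((1 : ℕ) <<< (W - 1)) (maskOf W (2 ^ (j + l))) ((colsB Cs).map (kron (kPt W (n + 1))))
      ((colsB Cs).map maj) ((colsD W (j + l) n Cs).map (fun l => l.getD (c * 2 ^ j + i) 0)) = true := by
  simp only [colsHead, Bool.and_eq_true, List.all_eq_true] at hh
  have hdD : ∀ C ∈ Cs, digsDef W (j + l) n C.1 = true := fun C hC => (hh.2 C hC).2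
  have hlen : ∀ x ∈ Cs.map (fun C => digsC W l j c n C.1), x.length = 2 ^ j := by
    intro x hx
    obtain ⟨C, hC, rfl⟩ := List.mem_map.1 hx
    exact digsC_length (hdD C hC)
  obtain ⟨hT1, hT2⟩ := transp_getD (Cs.map (fun C => digsC W l j c n C.1)) hlen
  unfold colsRowsC colsTC at h
  rw [List.all_eq_true] at h
  have hmem : (transp (2 ^ j) (Cs.map (fun C => digsC W l j c n C.1))).getD i [] ∈
      transp (2 ^ j) (Cs.map (fun C => digsC W l j c n C.1)) := by
    rw [List.getD_eq_getElem _ _ (by rw [hT1]; exact hi)]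
    exact List.getElem_mem _
  have h1 := h _ hmem
  rw [hT2 i hi] at h1
  have e : (colsD W (j + l) n Cs).map (fun l => l.getD (c * 2 ^ j + i) 0) =
      (Cs.map (fun C => digsC W l j c n C.1)).map (fun l => l.getD i 0) := by
    simp only [colsD, List.map_map]
    apply List.map_congr_left
    intro C hC
    exact digsC_getD (hdD C hC) hc hi
  rw [e]
  exact h1

/-- **The sum of products is nonnegative**, from the checks of all chunks. -/
theorem cols_sound_chunks {W l j n : ℕ} {Cs : List (Ex × Ex)} (hh : colsHead W (j + l) n Cs = true)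
    (hch : ∀ c, c < 2 ^ l → colsRowsC W l j c n Cs = true)
    (α β : Fin 4 → ℝ) (hα : ∀ i, 0 ≤ α i) (hβ : ∀ i, 0 ≤ β i) : 0 ≤ sumV α β Cs := by
  refine cols_sound_maps hh (fun i hi => ?_) α β hα hβ
  have hj : 0 < 2 ^ j := by positivity
  have hdiv : i / 2 ^ j < 2 ^ l := by
    rw [Nat.div_lt_iff_lt_mul hj, mul_comm, ← pow_add]
    exact hi
  have hmod : i % 2 ^ j < 2 ^ j := Nat.mod_lt _ hj
  have := row_of_chunk hh (hch _ hdiv) hdiv hmod
  have e : i / 2 ^ j * 2 ^ j + i % 2 ^ j = i := by
    rw [mul_comm]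
    exact Nat.div_add_mod i (2 ^ j)
  rwa [e] at this

end Vale.Agent.Lib.P154R
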