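import Vale.Agent.Lib.P154R.TabI
import Vale.Agent.Lib.P154R.Chunks

/-!
# A range of chunks of rows of the certificate of the invariant
-/

namespace Vale.Agent.Lib.P154R

theorem headI : colsHead 128 (7 + 5) 14 csI = true := by decide +kernel

theorem rowsC30 : colsRowsC 128 5 7 30 14 csI = true := by decide +kernel

theorem rowsC31 : colsRowsC 128 5 7 31 14 csI = true := by decide +kernel

end Vale.Agent.Lib.P154R
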