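import Vale.Agent.Lib.P154R.TabM

/-!
# A range of rows of a certificate
-/

namespace Vale.Agent.Lib.P154R

theorem headM : colsHead 114 12 12 csM = true := by decide +kernel

theorem rowsM1 : colsRows 114 12 12 csM 0 338 = true := by decide +kernel

end Vale.Agent.Lib.P154R
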