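import Vale.Agent.Lib.P154R.TabM
import Vale.Agent.Lib.P154R.TabI

/-!
# The one sided checks of the certificate
-/

namespace Vale.Agent.Lib.P154R

theorem chkGP : check1 56 12 12 (linE 12 gPT) = true := by decide +kernel
theorem chkGE : check1 52 12 12 (linE 12 gET) = true := by decide +kernel
theorem chkHP : check1 56 12 12 (linE 12 hPT) = true := by decide +kernel
theorem chkHE : check1 52 12 12 (linE 12 hET) = true := by decide +kernel
theorem chkV : check1 65 14 12 (linE 14 vVT) = true := by decide +kernel
theorem chkW : check1 63 14 12 (linE 14 wVT) = true := by decide +kernel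

end Vale.Agent.Lib.P154R
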