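import Vale.Agent.Lib.P154R.FormMI
import Vale.Agent.Lib.P154R.CheckOne
import Vale.Agent.Lib.P154R.CheckM1
import Vale.Agent.Lib.P154R.CheckM2
import Vale.Agent.Lib.P154R.CheckM3
import Vale.Agent.Lib.P154R.CheckIC0
import Vale.Agent.Lib.P154R.CheckIC1
import Vale.Agent.Lib.P154R.CheckIC2
import Vale.Agent.Lib.P154R.CheckIC3
import Vale.Agent.Lib.P154R.CheckIC4
import Vale.Agent.Lib.P154R.CheckIC5
import Vale.Agent.Lib.P154R.CheckIC6
import Vale.Agent.Lib.P154R.CheckIC7
import Vale.Agent.Lib.P154R.CheckIC8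
import Vale.Agent.Lib.P154R.CheckIC9
import Vale.Agent.Lib.P154R.CheckIC10

/-!
# The certificate for four colours: the two inequalities on the whole simplex
-/

open Finset

namespace Vale.Agent.Lib.P154R

open Ex Vale.Agent.Lib.P154Q

noncomputable section

lemma hrM : ∀ i, i < 2 ^ 12 → i < (colsT 114 12 12 csM).length →
    rowOk ((1 : ℕ) <<< (114 - 1)) (maskOf 114 (2 ^ 12))
      ((colsB csM).map (kron (kPt 114 (12 + 1)))) ((colsB csM).map maj)
      ((colsT 114 12 12 csM).getD i []) = true := by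
  intro i hi hl
  have hi' : i < 4096 := by simpa using hi
  rcases lt_or_ge i 338 with h1 | h1
  · exact colsRows_sound rowsM1 i (Nat.zero_le _) (by omega) hl
  rcases lt_or_ge i 845 with h2 | h2
  · exact colsRows_sound rowsM2 i h1 (by omega) hl
  · exact colsRows_sound rowsM3 i h2 (by omega) hl

lemma hchI : ∀ c, c < 2 ^ 5 → colsRowsC 128 5 7 c 14 csI = true := by
  intro c hc
  have hc' : c < 32 := by simpa using hc
  interval_cases c
  · exact rowsC0
  · exact rowsC1
  · exact rowsC2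
  · exact rowsC3
  · exact rowsC4
  · exact rowsC5
  · exact rowsC6
  · exact rowsC7
  · exact rowsC8
  · exact rowsC9
  · exact rowsC10
  · exact rowsC11
  · exact rowsC12
  · exact rowsC13
  · exact rowsC14
  · exact rowsC15
  · exact rowsC16
  · exact rowsC17
  · exact rowsC18
  · exact rowsC19
  · exact rowsC20
  · exact rowsC21
  · exact rowsC22
  · exact rowsC23
  · exact rowsC24
  · exact rowsC25
  · exact rowsC26
  · exact rowsC27
  · exact rowsC28
  · exact rowsC29
  · exact rowsC30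
  · exact rowsC31

/-- The inequality of the potential. -/
theorem certM {a b : Fin 4 → ℝ} (ha : InSx 1 a) (hb : InSx 1 b) :
    (1 / 24) * ∑ σ : Equiv.Perm (Fin 4), PMv (yOf a (b ∘ σ)) ≤ rhoF a + rhoF b - GPf b * chiP a - HPf a * chiP b
      - GEf b * Xf a - HEf a * Xf b - 1 / 500 * (rhoF a * rhoF b ^ 2) :=
  certM_of (form_nonneg (cols_sound headM hrM) ha hb)

/-- The inequality of the invariant. -/
theorem certI {a b : Fin 4 → ℝ} (ha : InSx 1 a) (hb : InSx 1 b) :
    VF b * chiP a + WF a * chiP b ≤ (1 / 24) * ∑ σ : Equiv.Perm (Fin 4), PIv (yOf a (b ∘ σ)) :=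
  certI_of (form_nonneg (cols_sound_chunks headI hchI) ha hb)

lemma GPf_nonneg {c : Fin 4 → ℝ} (hc : InSx 1 c) : 0 ≤ GPf c := by
  have := lin_nonneg chkGP hc
  rw [linGP] at this
  linarith

lemma GEf_nonneg {c : Fin 4 → ℝ} (hc : InSx 1 c) : 0 ≤ GEf c := by
  have := lin_nonneg chkGE hc
  rw [linGE] at this
  linarith

lemma HPf_nonneg {c : Fin 4 → ℝ} (hc : InSx 1 c) : 0 ≤ HPf c := by
  have := lin_nonneg chkHP hc
  rw [linHP] at this
  linarith

lemma HEf_nonneg {c : Fin 4 → ℝ} (hc : InSx 1 c) : 0 ≤ HEf c := by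
  have := lin_nonneg chkHE hc
  rw [linHE] at this
  linarith

lemma VF_nonneg {c : Fin 4 → ℝ} (hc : InSx 1 c) : 0 ≤ VF c := by
  have := lin_nonneg chkV hc
  rw [linV'] at this
  linarith

lemma WF_nonneg {c : Fin 4 → ℝ} (hc : InSx 1 c) : 0 ≤ WF c := by
  have := lin_nonneg chkW hc
  rw [linW'] at this
  linarith

lemma shift_nonneg {c : Fin 4 → ℝ} (hc : InSx 1 c) (i : Fin 4) : 0 ≤ 1 / 4 + c i := by
  have := hc.2 i
  norm_num at this ⊢
  linarith

/-- The merge inequality, with `X` for the second invariant. -/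
theorem mergeX {a b : Fin 4 → ℝ} (ha : InSx 1 a) (hb : InSx 1 b) :
    KK rhoF a b ≤ rhoF a + rhoF b - GPf b * chiP a - HPf a * chiP b
      - GEf b * Xf a - HEf a * Xf b - 1 / 500 * (rhoF a * rhoF b ^ 2) :=
  (KK_rho_le ha.1 hb.1 (shift_nonneg ha) (shift_nonneg hb)).trans (certM ha hb)

/-- The recursion of the first invariant. -/
theorem invP {a b : Fin 4 → ℝ} (ha : InSx 1 a) (hb : InSx 1 b) :
    VF b * chiP a + WF a * chiP b ≤ KK chiP a b :=
  (certI ha hb).trans (le_KK_chi ha.1 hb.1 (shift_nonneg ha) (shift_nonneg hb))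

end

end Vale.Agent.Lib.P154R
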