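import Vale.Agent.Lib.P154R.Idents

/-!
# The expansions of the two symmetric polynomials
-/

namespace Vale.Agent.Lib.P154R

open Ex

theorem idM_chk : checkZ 72 7 (.sub (.mul (.c tMD) pmE) (.mul (.c (24 * 1000)) (symZ tMSym))) = true := by
  decide +kernel

theorem idI_chk : checkZ 94 11 (.sub (.mul (.c tID) piE) (.mul (.c (24 * 800000)) (symZ tISym))) = true := by
  decide +kernel

/-- The expansion of the polynomial of the potential. -/
theorem idM (z : Fin 4 → ℝ) : (tMD : ℝ) * (- PMv (fun i => 4 * z i)) = 24 * symP tMSym z := by
  have h := table_of_check idM_chk z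
  rw [pmE_val] at h
  push_cast at h
  linarith

/-- The expansion of the polynomial of the invariant. -/
theorem idI (z : Fin 4 → ℝ) : (tID : ℝ) * PIv (fun i => 4 * z i) = 24 * symP tISym z := by
  have h := table_of_check idI_chk z
  rw [piE_val] at h
  push_cast at h
  linarith

end Vale.Agent.Lib.P154R
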