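import Vale.Agent.Lib.P154R.FFPos

/-!
# The radial estimate for the Mellin invariant
-/

open Finset

namespace Vale.Agent.Lib.P154R

open Vale.Agent.Lib.P154Q

noncomputable section

theorem chkF1 : check1 63 26 15 (ffX xF1) = true := by decide +kernel
theorem chkF2 : check1 56 26 15 (ffX xF2) = true := by decide +kernel

lemma FF_comp_list (s : V 4) : ∀ τ ∈ perms4, FF (s ∘ τ) = FF s := by
  intro τ hτ
  simp only [perms4, List.mem_cons, List.not_mem_nil, or_false] at hτ
  rcases hτ with rfl | rfl | rfl | rfl | rfl | rfl | rfl | rfl | rfl | rfl | rfl | rfl |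
    rfl | rfl | rfl | rfl | rfl | rfl | rfl | rfl | rfl | rfl | rfl | rfl <;>
  · simp [FF, PP, H1, H2, dPP, dH1, dH2, Function.comp]
    try ring

lemma FF_comp (s : V 4) (π : Equiv.Perm (Fin 4)) : FF (s ∘ π) = FF s := by
  apply FF_comp_list
  have h : (π : Fin 4 → Fin 4) ∈ Finset.image (fun σ : Equiv.Perm (Fin 4) => (σ : Fin 4 → Fin 4)) Finset.univ :=
    Finset.mem_image.2 ⟨π, Finset.mem_univ _, rfl⟩
  rw [perms4_image] at h
  simpa using h

/-- The polynomial is nonnegative. -/
theorem FF_nonneg' (s : V 4) (hs : ∀ i, 0 ≤ s i) : 0 ≤ FF s := by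
  obtain ⟨π, r, hr, hv⟩ := exists_chart s hs
  rw [← FF_comp s π]
  have e1 : s ∘ π = fun i => (xE i).val r := by
    funext i
    exact (hv i).symm
  rw [e1]
  have key : 0 ≤ fR (fun i => (xE i).val r) := by
    have h0 := hr 0
    have h1' := hr 1
    have h2' := hr 2
    have h3' := hr 3
    rcases le_total (r 3) (r 0) with c1 | c1
    · have := check1_sound chkF1 ![r 0 - r 3, r 1, r 2, r 3] (fun i => by
        fin_cases i
        · simpa using c1
        · simpa using h1'
        · simpa using h2'
        · simpa using h3')
      rw [ffX_val] at this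
      convert this using 2
      funext i
      fin_cases i
      · simp [xF1, xE_val_zero, Ex.val]
        ring
      · simp [xF1, xE_val_one, Ex.val]
        ring
      · show (xE 2).val r = (xF1 2).val _
        rw [xE_val_two]
        simp [xF1, Ex.val]
        ring
      · show (xE 3).val r = (xF1 3).val _
        rw [xE_val_three]
        simp [xF1, Ex.val]
    · have := check1_sound chkF2 ![r 0, r 1, r 2, r 3 - r 0] (fun i => by
        fin_cases i
        · simpa using h0
        · simpa using h1'
        · simpa using h2'
        · simpa using c1)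
      rw [ffX_val] at this
      convert this using 2
      funext i
      fin_cases i
      · simp [xF2, xE_val_zero, Ex.val]
        ring
      · simp [xF2, xE_val_one, Ex.val]
      · show (xE 2).val r = (xF2 2).val _
        rw [xE_val_two]
        simp [xF2, Ex.val]
      · show (xE 3).val r = (xF2 3).val _
        rw [xE_val_three]
        simp [xF2, Ex.val]
  rw [fR_eq] at key
  linarith

/-- The radial estimate, unconditionally. -/
theorem chiE_radial' {c : V 4} (hc : InSx 1 c) {lam : ℝ} (h0 : 0 ≤ lam) (h1 : lam ≤ 1) :
    lam ^ 3 * chiE c ≤ chiE (lam • c) :=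
  chiE_radial (fun s hs => FF_nonneg' s fun i => (hs i).le) hc h0 h1

end

end Vale.Agent.Lib.P154R
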