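import Vale.Agent.Lib.P154R.Maj

/-!
# The coefficient checks of the upper bound of the Mellin invariant
-/

namespace Vale.Agent.Lib.P154R

open Vale.Agent.Lib.P154Q

theorem chkL1 : check1 111 36 16 (hX xL1) = true := by decide +kernel
theorem chkL2 : check1 122 36 16 (hX xL2) = true := by decide +kernel
theorem chkL3 : check1 122 36 16 (hX xL3) = true := by decide +kernel

/-- The upper bound of the invariant. -/
theorem chiE_le_X {c : V 4} (hc : InSx 1 c) : chiE c ≤ Xf c := by
  have hx : ∀ i, 0 ≤ sft c i := sft_nonneg hc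
  have hs : ∀ i, 0 ≤ rt (sft c) i := fun i => Real.rpow_nonneg (hx i) _
  have e0 : chiE c = PP (rt (sft c)) := by
    simp only [chiE, PP, h1_eq hx, h2_eq hx]
  obtain ⟨π, r, hr, hv⟩ := exists_chart (rt (sft c)) hs
  have hc' : ∑ i, (c ∘ π) i = 0 := by
    rw [← hc.1]
    exact Equiv.sum_comp π c
  have ht : ∀ i, ((xE i).val r) ^ 6 = 1 / 4 + (c ∘ π) i := by
    intro i
    rw [hv]
    exact rt_pow_six (hx (π i))
  have h1 := hR_eq hc' ht
  have e1 : (fun i => (xE i).val r) = rt (sft c) ∘ π := by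
    funext i
    exact hv i
  rw [e1, PP_comp, ← e0] at h1
  have e2 : Xf (c ∘ π) = Xf c := by
    simp only [Xf, rhoF_comp, tauF_comp, kapF_comp]
  rw [e2] at h1
  have h2 := leaves (fun v hv => check1_sound chkL1 v hv) (fun v hv => check1_sound chkL2 v hv)
    (fun v hv => check1_sound chkL3 v hv) r hr
  rw [e1, h1] at h2
  linarith

end Vale.Agent.Lib.P154R
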