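import Vale.Agent.Lib.P154R.TwoInv
import Vale.Agent.Lib.P154R.Dary

/-!
# The three tree models, from the pointwise data at every eigenvalue

`HasData q lam` says that the pointwise data of `QData2I` exist at the eigenvalue `lam`.  From this property for
every `0 ≤ lam < 1` we get the nonreconstruction for the `d`-ary trees, for the Poisson trees and for
every offspring law with finite mean that charges some `k ≥ 2`.
-/

open Finset Filter Topology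

namespace Vale.Agent.Lib.P154R

open Vale.Agent.Lib.P154GW Vale.Agent.Lib.P154Q

noncomputable section

/-- The pointwise data at the eigenvalue `lam`. -/
def HasData (q : ℕ) [NeZero q] (lam : ℝ) : Prop :=
  ∃ (B : V q → Prop) (ψ Y χ₁ χ₂ G₁ H₁ G₂ H₂ v₁ w₁ v₂ w₂ : V q → ℝ) (f₁ f₂ t C K : ℝ) (m : ℕ),
    QData2I lam B ψ Y χ₁ χ₂ G₁ H₁ G₂ H₂ v₁ w₁ v₂ w₂ f₁ f₂ t (m + 1) ∧ 0 < t ∧
      (∀ c, InSx 1 c → 0 ≤ ψ c) ∧ (∀ c, InSx 1 c → p2 c ≤ K * ψ c) ∧ (∀ c, InSx 1 c → ψ c ≤ C)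

variable {q : ℕ} [NeZero q] {lam : ℝ}

/-- Nonreconstruction for one offspring law. -/
theorem HasData.tendsto (h : HasData q lam) {π : ℕ → ℝ} {d : ℝ} (hπ0 : ∀ k, 0 ≤ π k) (hπ : HasSum π 1)
    (hmean : HasSum (fun k : ℕ => (k : ℝ) * π k) d) (k₀ : ℕ) (hπ2 : 0 < π (k₀ + 2))
    (hd : d * lam ^ 2 ≤ 1) : Tendsto (advantage π q lam) atTop (𝓝 0) := by
  obtain ⟨B, ψ, Y, χ₁, χ₂, G₁, H₁, G₂, H₂, v₁, w₁, v₂, w₂, f₁, f₂, t, C, K, m, hD, ht, hψ0, hge, hbd⟩ := h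
  exact tendsto_advantage2I hπ0 hπ hmean k₀ hπ2 hD ht hψ0 hge hbd hd

/-- The channel has nonnegative entries for `0 ≤ lam ≤ 1`. -/
lemma chan_nonneg {lam : ℝ} (h0 : 0 ≤ lam) (h1 : lam ≤ 1) (i j : Fin q) : 0 ≤ chan q lam i j := by
  have hq : (0 : ℝ) < q := q_pos
  have : 0 ≤ (1 - lam) / (q : ℝ) := div_nonneg (by linarith) hq.le
  simp only [chan]
  split_ifs <;> nlinarith

/-- The statement for the three tree models. -/
theorem package (hdata : ∀ lam : ℝ, 0 ≤ lam → lam < 1 → HasData q lam) :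
    (∀ (d : ℕ) (lam : ℝ), 2 ≤ d → 0 ≤ lam → (d : ℝ) * lam ^ 2 ≤ 1 →
      Tendsto (Vale.Agent.Lib.P154.reconDist q d lam) atTop (𝓝 0)) ∧
    (∀ d lam : ℝ, 0 < d → 0 ≤ lam → lam ≤ 1 → d * lam ^ 2 ≤ 1 →
      (∀ n, HasSum (treeProb (poisson d) n) 1) ∧
      (∀ n, Summable fun T : Tr n => treeProb (poisson d) n T * advTree q lam n T) ∧
      Tendsto (advantage (poisson d) q lam) atTop (𝓝 0)) ∧
    (∀ (π : ℕ → ℝ) (d lam : ℝ), (∀ k, 0 ≤ π k) → HasSum π 1 →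
      HasSum (fun k : ℕ => (k : ℝ) * π k) d → (∃ k, 2 ≤ k ∧ 0 < π k) → 0 ≤ lam → lam < 1 →
      d * lam ^ 2 ≤ 1 →
      (∀ n, HasSum (treeProb π n) 1) ∧
      (∀ n, Summable fun T : Tr n => treeProb π n T * advTree q lam n T) ∧
      Tendsto (advantage π q lam) atTop (𝓝 0)) := by
  refine ⟨?_, ?_, ?_⟩
  · intro d lam hd h0 h
    obtain ⟨k₀, rfl⟩ : ∃ k₀, d = k₀ + 2 := ⟨d - 2, by omega⟩
    have hlt : lam < 1 := by
      by_contra hc
      push Not at hc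
      have h2 : ((k₀ + 2 : ℕ) : ℝ) ≥ 2 := by push_cast; linarith [(Nat.cast_nonneg k₀ : (0 : ℝ) ≤ k₀)]
      nlinarith
    exact (tendsto_dirac_iff (k₀ + 2) q lam).1 ((hdata lam h0 hlt).tendsto (dirac_nonneg (k₀ + 2))
      (dirac_hasSum (k₀ + 2)) (dirac_mean (k₀ + 2)) k₀ (dirac_pos k₀) h)
  · intro d lam hd0 h0 hl1 hd
    have hch := chan_nonneg (q := q) h0 hl1
    have hπ0 := poisson_nonneg hd0.le
    have hπ := poisson_hasSum d
    refine ⟨hasSum_treeProb hπ0 hπ, fun n => (advantage_bounds hπ0 hπ hch n).1, ?_⟩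
    rcases hl1.eq_or_lt with rfl | hlt
    · have hd1 : d ≤ 1 := by simpa using hd
      exact tendsto_extinct hd0.le hd1 hch
    · exact (hdata lam h0 hlt).tendsto hπ0 hπ (poisson_mean d) 0 (poisson_two_pos hd0) hd
  · rintro π d lam hπ0 hπ hmean ⟨k, hk, hpos⟩ h0 h1 hd
    have hch := chan_nonneg (q := q) h0 h1.le
    refine ⟨hasSum_treeProb hπ0 hπ, fun n => (advantage_bounds hπ0 hπ hch n).1, ?_⟩
    obtain ⟨k₀, rfl⟩ : ∃ k₀, k = k₀ + 2 := ⟨k - 2, by omega⟩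
    exact (hdata lam h0 h1).tendsto hπ0 hπ hmean k₀ hpos hd

end

end Vale.Agent.Lib.P154R
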