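import Vale.Agent.Lib.P154R.CertQ4
import Vale.Agent.Lib.P154R.MajChk
import Vale.Agent.Lib.P154R.FFChk
import Vale.Agent.Lib.P154R.Package

/-!
# The data for four colours at every eigenvalue
-/

open Finset

namespace Vale.Agent.Lib.P154R

open Vale.Agent.Lib.P154GW Vale.Agent.Lib.P154Q

noncomputable section

lemma rhoF_smul (l : ℝ) (c : V 4) : rhoF (l • c) = l ^ 2 * rhoF c := by
  simp only [rhoF, Pi.smul_apply, smul_eq_mul, Fin.sum_univ_four]
  ring

lemma tauF_smul (l : ℝ) (c : V 4) : tauF (l • c) = l ^ 3 * tauF c := by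
  simp only [tauF, Pi.smul_apply, smul_eq_mul, Fin.sum_univ_four]
  ring

lemma rhoF_nonneg (c : V 4) : 0 ≤ rhoF c := by
  simp only [rhoF]
  positivity

lemma rhoF_eq_p2 (c : V 4) : rhoF c = 4 * p2 c := rfl

lemma chiP_scale {c : V 4} {l : ℝ} (h0 : 0 ≤ l) (h1 : l ≤ 1) : l ^ 3 * chiP c ≤ chiP (l • c) := by
  simp only [chiP, rhoF_smul, tauF_smul]
  have h2 : l ^ 4 ≤ l ^ 3 := by
    have : l ^ 4 = l ^ 3 * l := by ring
    rw [this]
    exact mul_le_of_le_one_right (by positivity) h1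
  have h3 : 0 ≤ rhoF c ^ 2 := by positivity
  have h4 := mul_le_mul_of_nonneg_right h2 h3
  nlinarith

lemma chiP_zero : chiP (0 : V 4) = 0 := by
  simp [chiP, rhoF, tauF]

lemma chiP_vertex (τ : Fin 4) : 0 ≤ chiP (vertex τ) := by
  fin_cases τ <;> simp [chiP, rhoF, tauF, vertex, Fin.sum_univ_four] <;> norm_num

lemma rhoF_le {c : V 4} (hc : InSx 1 c) : rhoF c ≤ 9 := by
  have hs := hc.1
  simp only [Fin.sum_univ_four] at hs
  have h := hc.2
  have h0 := h 0
  have h1 := h 1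
  have h2 := h 2
  have h3 := h 3
  norm_num at h0 h1 h2 h3
  simp only [rhoF, Fin.sum_univ_four]
  nlinarith [mul_nonneg (by linarith : 0 ≤ c 0 + 1 / 4) (by linarith : 0 ≤ 3 / 4 - c 0),
    mul_nonneg (by linarith : 0 ≤ c 1 + 1 / 4) (by linarith : 0 ≤ 3 / 4 - c 1),
    mul_nonneg (by linarith : 0 ≤ c 2 + 1 / 4) (by linarith : 0 ≤ 3 / 4 - c 2),
    mul_nonneg (by linarith : 0 ≤ c 3 + 1 / 4) (by linarith : 0 ≤ 3 / 4 - c 3)]

lemma scale_InSx {c : V 4} {l : ℝ} (h0 : 0 ≤ l) (h1 : l ≤ 1) (hc : InSx 1 c) : InSx 1 (l • c) := by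
  refine ⟨?_, fun i => ?_⟩
  · simp only [Pi.smul_apply, smul_eq_mul]
    rw [← Finset.mul_sum, hc.1, mul_zero]
  · have := hc.2 i
    simp only [Pi.smul_apply, smul_eq_mul]
    norm_num at this ⊢
    nlinarith

/-- The data for four colours at every eigenvalue. -/
theorem hasData4 {lam : ℝ} (hl0 : 0 ≤ lam) (hl1 : lam < 1) : HasData 4 lam := by
  refine ⟨InSx 1, rhoF, rhoF, chiP, chiE, GPf, HPf, GEf, HEf, VF, WF, (fun b => h2 (sft b)), (fun a => h1 (sft a)),
    lam ^ 3, lam ^ 3, 64 * (1 / 500), 9, 1 / 4, 1, ?_, by norm_num, fun c _ => rhoF_nonneg c,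
    fun c _ => by rw [rhoF_eq_p2]; linarith, fun c hc => rhoF_le hc⟩
  exact {
    merge := fun a b ha hb => by
      have h := mergeX ha hb
      have hA := mul_le_mul_of_nonneg_left (chiE_le_X ha) (GEf_nonneg hb)
      have hB := mul_le_mul_of_nonneg_left (chiE_le_X hb) (HEf_nonneg ha)
      have e : 64 * (1 / 500) * (p2 a * p2 b ^ (1 + 1)) = 1 / 500 * (rhoF a * rhoF b ^ 2) := by
        rw [rhoF_eq_p2, rhoF_eq_p2]
        norm_num
        ring
      rw [e]
      linarith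
    inv₁ := fun a b ha hb => invP ha hb
    inv₂ := fun a b ha hb => (KK_chiE ha hb).symm.le
    G₁0 := fun b hb => GPf_nonneg hb
    H₁0 := fun a ha => HPf_nonneg ha
    G₂0 := fun b hb => GEf_nonneg hb
    H₂0 := fun a ha => HEf_nonneg ha
    v₁0 := fun b hb => VF_nonneg hb
    w₁0 := fun a ha => WF_nonneg ha
    v₂0 := fun b hb => h2_nonneg (sft_nonneg hb)
    w₂0 := fun a ha => h1_nonneg (sft_nonneg ha)
    t0 := by norm_num
    f₁0 := by positivity
    f₂0 := by positivity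
    scaleB := fun c hc => scale_InSx hl0 hl1.le hc
    hch := chan_nonneg hl0 hl1.le
    chi₁_scale := fun c _ => chiP_scale hl0 hl1.le
    chi₂_scale := fun c hc => chiE_radial' hc hl0 hl1.le
    chi₁_zero := by rw [chiP_zero]
    chi₂_zero := by rw [chiE_zero]
    chi₁_vertex := chiP_vertex
    chi₂_vertex := fun τ => by rw [chiE_vertex]
    Y_scale := fun c _ => by rw [rhoF_smul]
    psi_le_Y := fun _ _ => le_rfl
    psi_zero := by simp [rhoF] }

end

end Vale.Agent.Lib.P154R
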