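import Vale.Agent.Lib.P154R.Maj

/-!
# The polynomial of the radial estimate is nonnegative
-/

open Finset

namespace Vale.Agent.Lib.P154R

open Ex Vale.Agent.Lib.P154Q

noncomputable section

/-- The product of three coordinates, to the fifth power. -/
def m5 (a b c : Ex) : Ex := .pow (.mul (.mul a b) c) 5

/-- The derivative of the second function. -/
def d2X (a b c d : Ex) : Ex :=
  .add (.add (.add (.mul (.mul (.c 4) (.pow a 3)) (.add (.add (.mul b c) (.mul b d)) (.mul c d)))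
    (.mul (.pow b 4) (.add c d))) (.mul (.pow c 4) (.add b d))) (.mul (.pow d 4) (.add b c))

/-- The derivative of the first function. -/
def d1X (a b c d : Ex) : Ex := .mul (.pow a 2) (.add (.add (.pow b 3) (.pow c 3)) (.pow d 3))

/-- One term of the sum of derivatives. -/
def dTerm (a b c d : Ex) : Ex := .mul (.sub (.mul (.c 9) (d2X a b c d)) (.mul (.c 54) (d1X a b c d))) (m5 b c d)

/-- `16 FF`. -/
def ffX (s : Fin 4 → Ex) : Ex :=
  .add (.mul (.sub (.mul (.c 432) (h2X s)) (.mul (.c 864) (h1X s))) (.pow (.mul (.mul (.mul (s 0) (s 1)) (s 2)) (s 3)) 5))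
    (.mul (s6E s) (.add (.add (.add (dTerm (s 0) (s 1) (s 2) (s 3)) (dTerm (s 1) (s 0) (s 2) (s 3)))
      (dTerm (s 2) (s 0) (s 1) (s 3))) (dTerm (s 3) (s 0) (s 1) (s 2))))

/-- The real function. -/
def fR (t : Fin 4 → ℝ) : ℝ := (ffX vX).val t

lemma ffX_val (s : Fin 4 → Ex) (v : Fin 4 → ℝ) : (ffX s).val v = fR (fun i => (s i).val v) := by
  simp only [fR, ffX, dTerm, d1X, d2X, m5, s6E, h1X, h2X, vX, Ex.val]

lemma fR_eq (t : Fin 4 → ℝ) : fR t = 16 * FF t := by
  simp only [fR, ffX, dTerm, d1X, d2X, m5, s6E, h1X, h2X, vX, Ex.val, FF, PP, H1, H2, dPP, dH1, dH2]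
  simp
  ring

/-- The first chart. -/
def xF1 : Fin 4 → Ex := ![.add (.add (.add (.v 0) (.v 1)) (.v 2)) (.mul (.c 2) (.v 3)),
  .add (.add (.add (.v 0) (.v 1)) (.v 2)) (.v 3), .add (.add (.v 0) (.v 1)) (.v 3), .add (.v 0) (.v 3)]
/-- The second chart. -/
def xF2 : Fin 4 → Ex := ![.add (.add (.add (.mul (.c 2) (.v 0)) (.v 1)) (.v 2)) (.v 3),
  .add (.add (.v 0) (.v 1)) (.v 2), .add (.v 0) (.v 1), .v 0]

end

end Vale.Agent.Lib.P154R
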