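import Vale.Agent.Lib.P154R.CheckZ

/-!
# The two inequalities of the certificate, from the positivity of the tabulated forms
-/

open Finset

namespace Vale.Agent.Lib.P154R

open Ex Vale.Agent.Lib.P154Q

noncomputable section

/-- The multiplier of the first invariant at the second argument. -/
def GPf (c : Fin 4 → ℝ) : ℝ :=
  193 / 375 * rhoF c + 3 / 25 * tauF c - 29 / 200 * rhoF c ^ 2 - 6 / 25 * kapF c + 83 / 200 * (rhoF c * tauF c)
    - 91 / 500 * rhoF c ^ 3 - 1 / 20 * tauF c ^ 2 + 7 / 125 * (rhoF c * kapF c)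

/-- The multiplier of the second invariant at the second argument. -/
def GEf (c : Fin 4 → ℝ) : ℝ :=
  19 / 125 * rhoF c - 39 / 200 * tauF c + 573 / 1000 * rhoF c ^ 2 - 39 / 200 * kapF c

/-- The multiplier of the first invariant at the first argument. -/
def HPf (c : Fin 4 → ℝ) : ℝ :=
  196 / 375 * rhoF c + 61 / 750 * tauF c - 139 / 1000 * rhoF c ^ 2 - 59 / 250 * kapF c + 109 / 250 * (rhoF c * tauF c)
    - 101 / 500 * rhoF c ^ 3 - 47 / 1000 * tauF c ^ 2 + 57 / 1000 * (rhoF c * kapF c)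

/-- The multiplier of the second invariant at the first argument. -/
def HEf (c : Fin 4 → ℝ) : ℝ :=
  18 / 125 * rhoF c - 173 / 1000 * tauF c + 593 / 1000 * rhoF c ^ 2 - 21 / 100 * kapF c

/-- The recursion factor of the first invariant at the second argument. -/
def VF (c : Fin 4 → ℝ) : ℝ :=
  1 - 2343 / 1000 * rhoF c - 33 / 250 * tauF c - 27 / 500 * rhoF c ^ 2 + 791 / 500 * kapF c - 567 / 250 * (rhoF c * tauF c)
    + 609 / 1000 * rhoF c ^ 3 + 281 / 500 * tauF c ^ 2 - 43 / 125 * (rhoF c * kapF c)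

/-- The recursion factor of the first invariant at the first argument. -/
def WF (c : Fin 4 → ℝ) : ℝ :=
  1 - 2343 / 1000 * rhoF c - 33 / 250 * tauF c + 9 / 500 * rhoF c ^ 2 + 1551 / 1000 * kapF c - 567 / 250 * (rhoF c * tauF c)
    + 181 / 250 * rhoF c ^ 3 + 293 / 500 * tauF c ^ 2 - 407 / 1000 * (rhoF c * kapF c)

theorem bilM (a b : Fin 4 → ℝ) : bilV tMBil a b = (tMD : ℝ) * (rhoF a + rhoF b - GPf b * chiP a - HPf a * chiP b
    - GEf b * Xf a - HEf a * Xf b - 1 / 500 * (rhoF a * rhoF b ^ 2)) := by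
  simp only [bilV, linV, mnV, tMBil, tMD, List.map_cons, List.map_nil, List.sum_cons, List.sum_nil, GPf, GEf, HPf, HEf,
    Xf, chiP]
  push_cast
  ring

theorem bilI (a b : Fin 4 → ℝ) : bilV tIBil a b = (tID : ℝ) * (- (VF b * chiP a) - WF a * chiP b) := by
  simp only [bilV, linV, mnV, tIBil, tID, List.map_cons, List.map_nil, List.sum_cons, List.sum_nil, VF, WF, chiP]
  push_cast
  ring

theorem linGP (c : Fin 4 → ℝ) : linV gPT c = 96000 * GPf c := by
  simp only [linV, mnV, gPT, List.map_cons, List.map_nil, List.sum_cons, List.sum_nil, GPf]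
  push_cast
  ring

theorem linGE (c : Fin 4 → ℝ) : linV gET c = 16000 * GEf c := by
  simp only [linV, mnV, gET, List.map_cons, List.map_nil, List.sum_cons, List.sum_nil, GEf]
  push_cast
  ring

theorem linHP (c : Fin 4 → ℝ) : linV hPT c = 96000 * HPf c := by
  simp only [linV, mnV, hPT, List.map_cons, List.map_nil, List.sum_cons, List.sum_nil, HPf]
  push_cast
  ring

theorem linHE (c : Fin 4 → ℝ) : linV hET c = 16000 * HEf c := by
  simp only [linV, mnV, hET, List.map_cons, List.map_nil, List.sum_cons, List.sum_nil, HEf]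
  push_cast
  ring

theorem linV' (c : Fin 4 → ℝ) : linV vVT c = 64000 * VF c := by
  simp only [linV, mnV, vVT, List.map_cons, List.map_nil, List.sum_cons, List.sum_nil, VF]
  push_cast
  ring

theorem linW' (c : Fin 4 → ℝ) : linV wVT c = 16000 * WF c := by
  simp only [linV, mnV, wVT, List.map_cons, List.map_nil, List.sum_cons, List.sum_nil, WF]
  push_cast
  ring

/-- The inequality for the potential, from the positivity of its form. -/
theorem certM_of {a b : Fin 4 → ℝ}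
    (h : 0 ≤ symV tMSym (fun i => 1 / 4 + a i) (fun i => 1 / 4 + b i) + bilV tMBil a b) :
    (1 / 24) * ∑ σ : Equiv.Perm (Fin 4), PMv (yOf a (b ∘ σ)) ≤ rhoF a + rhoF b - GPf b * chiP a - HPf a * chiP b
      - GEf b * Xf a - HEf a * Xf b - 1 / 500 * (rhoF a * rhoF b ^ 2) := by
  have h1 := symV_avg (sy := tMSym) (D := (tMD : ℝ)) (P := fun z => - PMv (fun i => 4 * z i)) idM
    (fun i => 1 / 4 + a i) (fun i => 1 / 4 + b i)
  rw [h1, bilM, Finset.sum_neg_distrib] at h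
  have e : ∑ σ : Equiv.Perm (Fin 4), PMv (fun i => 4 * ((1 / 4 + a i) * (1 / 4 + b (σ i))))
      = ∑ σ : Equiv.Perm (Fin 4), PMv (yOf a (b ∘ σ)) := rfl
  rw [e] at h
  have hD : (0 : ℝ) < (tMD : ℝ) := by norm_num [tMD]
  rw [← mul_add] at h
  have := nonneg_of_mul_nonneg_right h hD
  linarith

/-- The inequality for the invariant, from the positivity of its form. -/
theorem certI_of {a b : Fin 4 → ℝ}
    (h : 0 ≤ symV tISym (fun i => 1 / 4 + a i) (fun i => 1 / 4 + b i) + bilV tIBil a b) :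
    VF b * chiP a + WF a * chiP b ≤ (1 / 24) * ∑ σ : Equiv.Perm (Fin 4), PIv (yOf a (b ∘ σ)) := by
  have h1 := symV_avg (sy := tISym) (D := (tID : ℝ)) (P := fun z => PIv (fun i => 4 * z i)) idI
    (fun i => 1 / 4 + a i) (fun i => 1 / 4 + b i)
  rw [h1, bilI] at h
  have e : ∑ σ : Equiv.Perm (Fin 4), PIv (fun i => 4 * ((1 / 4 + a i) * (1 / 4 + b (σ i))))
      = ∑ σ : Equiv.Perm (Fin 4), PIv (yOf a (b ∘ σ)) := rfl
  rw [e] at h
  have hD : (0 : ℝ) < (tID : ℝ) := by norm_num [tID]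
  rw [← mul_add] at h
  have := nonneg_of_mul_nonneg_right h hD
  linarith

/-! ### The operator -/

lemma Nf_yOf {a b : V 4} (ha : ∑ i, a i = 0) (hb : ∑ i, b i = 0) : Nf a b = nY (yOf a b) := by
  rw [nY_yOf ha hb]
  simp [Nf, sc]

lemma wF_yOf {a b : V 4} (ha : ∑ i, a i = 0) (hb : ∑ i, b i = 0) : wF a b = wY (yOf a b) := by
  funext i
  simp only [wF, wY]
  rw [← Nf_yOf ha hb]
  simp [yOf]

lemma comp_sum {b : V 4} (hb : ∑ i, b i = 0) (σ : Equiv.Perm (Fin 4)) : ∑ i, (b ∘ σ) i = 0 := by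
  rw [← hb]
  exact Equiv.sum_comp σ b

lemma comp_shift {b : V 4} (hb : ∀ i, 0 ≤ 1 / 4 + b i) (σ : Equiv.Perm (Fin 4)) (i : Fin 4) :
    0 ≤ 1 / 4 + (b ∘ σ) i := hb (σ i)

/-- The operator as an average over the weights of a merge. -/
theorem KK_eq (f : V 4 → ℝ) {a b : V 4} (ha : ∑ i, a i = 0) (hb : ∑ i, b i = 0) :
    KK f a b = (1 / 24) * ∑ σ : Equiv.Perm (Fin 4), nY (yOf a (b ∘ σ)) * f (wY (yOf a (b ∘ σ))) := by
  unfold KK
  have e : ((Nat.factorial 4 : ℕ) : ℝ) = 24 := by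
    norm_num [Nat.factorial]
  rw [e]
  congr 1
  apply Finset.sum_congr rfl
  intro σ _
  rw [Nf_yOf ha (comp_sum hb σ), wF_yOf ha (comp_sum hb σ)]

/-- The potential: the operator is below the average of the polynomial. -/
theorem KK_rho_le {a b : V 4} (ha : ∑ i, a i = 0) (hb : ∑ i, b i = 0) (ha0 : ∀ i, 0 ≤ 1 / 4 + a i)
    (hb0 : ∀ i, 0 ≤ 1 / 4 + b i) :
    KK rhoF a b ≤ (1 / 24) * ∑ σ : Equiv.Perm (Fin 4), PMv (yOf a (b ∘ σ)) := by
  rw [KK_eq _ ha hb]
  apply mul_le_mul_of_nonneg_left _ (by norm_num)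
  apply Finset.sum_le_sum
  intro σ _
  exact onept_M (yOf_dom ha (comp_sum hb σ) ha0 (comp_shift hb0 σ)).1

/-- The invariant: the average of the polynomial is below the operator. -/
theorem le_KK_chi {a b : V 4} (ha : ∑ i, a i = 0) (hb : ∑ i, b i = 0) (ha0 : ∀ i, 0 ≤ 1 / 4 + a i)
    (hb0 : ∀ i, 0 ≤ 1 / 4 + b i) :
    (1 / 24) * ∑ σ : Equiv.Perm (Fin 4), PIv (yOf a (b ∘ σ)) ≤ KK chiP a b := by
  rw [KK_eq _ ha hb]
  apply mul_le_mul_of_nonneg_left _ (by norm_num)
  apply Finset.sum_le_sum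
  intro σ _
  obtain ⟨h1, h2, h3⟩ := yOf_dom ha (comp_sum hb σ) ha0 (comp_shift hb0 σ)
  exact onept_I h1 h2 h3

end

end Vale.Agent.Lib.P154R
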