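import Vale.Agent.Lib.P154R.Rows
import Vale.Agent.Lib.P154Q.Four

/-!
# The forms of the chart of the sorted simplex

Variables `p q r s` with `x₄ = p`, `x₃ = p + q`, `x₂ = p + q + r`, `x₁ = p + q + r + s`, total mass
`S = 4 p + 3 q + 2 r + s`.
-/

namespace Vale.Agent.Lib.P154R

open Ex

/-- The variables. -/
def v0 : Ex := .v 0
/-- The variables. -/
def v1 : Ex := .v 1
/-- The variables. -/
def v2 : Ex := .v 2
/-- The variables. -/
def v3 : Ex := .v 3

/-- The coordinates, in decreasing order. -/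
def xE : Fin 4 → Ex :=
  ![.add (.add (.add v0 v1) v2) v3, .add (.add v0 v1) v2, .add v0 v1, v0]

/-- The total mass. -/
def sE : Ex := .add (.add (.add (.mul (.c 4) v0) (.mul (.c 3) v1)) (.mul (.c 2) v2)) v3

/-- The coordinates `4 x_i - S`. -/
def uE : Fin 4 → Ex :=
  ![.add (.add v1 (.mul (.c 2) v2)) (.mul (.c 3) v3),
    .sub (.add v1 (.mul (.c 2) v2)) v3,
    .sub (.sub v1 (.mul (.c 2) v2)) v3,
    .sub (.sub (.mul (.c (-3)) v1) (.mul (.c 2) v2)) v3]

/-- The power sum of `u`. -/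
def pwE (e : ℕ) : Ex := .add (.add (.add (.pow (uE 0) e) (.pow (uE 1) e)) (.pow (uE 2) e)) (.pow (uE 3) e)

/-- `4 ρ`, `4 τ`, `4 κ`, homogenized. -/
def rE : Ex := pwE 2
/-- `4 τ`. -/
def tE : Ex := pwE 3
/-- `4 κ`. -/
def kE : Ex := pwE 4

/-- The monomial in `ρ τ κ`, up to the factor `4 ^ (i + j + k)`. -/
def mnE (i j k : ℕ) : Ex := .mul (.mul (.pow rE i) (.pow tE j)) (.pow kE k)

/-- The same monomial, elevated to degree `n`. -/
def mnEl (n i j k : ℕ) : Ex := .mul (mnE i j k) (.pow sE (n - (2 * i + 3 * j + 4 * k)))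

/-- A finite sum of expressions. -/
def sumE : List Ex → Ex
  | [] => .c 0
  | [e] => e
  | e :: es => .add e (sumE es)

/-- The monomial with exponents `k` at a permutation of the coordinates. -/
def prE (k : Fin 4 → ℕ) (τ : Fin 4 → Fin 4) : Ex :=
  .mul (.mul (.mul (.pow (xE (τ 0)) (k 0)) (.pow (xE (τ 1)) (k 1))) (.pow (xE (τ 2)) (k 2))) (.pow (xE (τ 3)) (k 3))

/-- The sum over the permutations. -/
def muE (k : Fin 4 → ℕ) : Ex := sumE (Vale.Agent.Lib.P154Q.perms4.map (prE k))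

/-- The same sum, elevated to degree `n`. -/
def muEl (n : ℕ) (k : Fin 4 → ℕ) : Ex := .mul (muE k) (.pow sE (n - (k 0 + k 1 + k 2 + k 3)))

end Vale.Agent.Lib.P154R
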