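import Vale.Agent.Lib.P154R.TabM
import Vale.Agent.Lib.P154R.TabI

/-!
# The two symmetric polynomials of the certificate as expressions in `z = y / 4`
-/

namespace Vale.Agent.Lib.P154R

open Ex

noncomputable section

/-- `N - 1`. -/
def dZ : Ex := .sub nZ (.c 1)

/-- `1000 * QM N`. -/
def qmE : Ex :=
  .add (.sub (.add (.sub (.c 1000) (.mul (.c 1000) dZ)) (.mul (.c 1000) (.pow dZ 2))) (.mul (.c 1000) (.pow dZ 3)))
    (.mul (.pow dZ 4) (.sub (.c 853) (.mul (.c 189) nZ)))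

/-- `- 1000 * PMv (4 z)`. -/
def pmE : Ex := .sub (.mul (.mul (.c 8) e2Z) qmE) (.mul (.c 3000) nZ)

/-- `N - 2`. -/
def xZ : Ex := .sub nZ (.c 2)

/-- A polynomial of degree five in `(N - 2) / 2`, times `32000`. -/
def lE (c0 c1 c2 c3 c4 c5 : ℤ) : Ex :=
  .add (.add (.add (.add (.add (.c (32 * c0)) (.mul (.c (16 * c1)) xZ)) (.mul (.c (8 * c2)) (.pow xZ 2)))
    (.mul (.c (4 * c3)) (.pow xZ 3))) (.mul (.c (2 * c4)) (.pow xZ 4))) (.mul (.c c5) (.pow xZ 5))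

/-- `32000 L1`. -/
def l1E : Ex := lE 435 (-929) 475 2724 985 (-6020)
/-- `32000 L2`. -/
def l2E : Ex := lE 1173 (-1805) 2805 2435 (-1417) (-19314)
/-- `32000 A`. -/
def aE : Ex := lE 2107 (-2988) 3858 (-3885) 6687 (-6749)
/-- `32000 B`. -/
def bE : Ex := lE 19 62 (-321) (-368) 1968 (-1543)
/-- `32000 C`. -/
def cE : Ex := lE 2 (-2) (-6) 14 13 (-16)

/-- `800000 * PIv (4 z)`. -/
def piE : Ex :=
  .sub (.add (.add (.mul (.c 768000) nZ)
      (.mul (.mul (.c 72) e2Z) (.add (.mul (.c 32000) (.sub (.c 1) dZ)) (.mul (.pow dZ 2) l1E))))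
      (.mul (.mul (.c 1200) e3Z) (.add (.mul (.c 32000) (.sub (.c 1) (.mul (.c 2) dZ))) (.mul (.pow dZ 2) l2E))))
    (.mul (.c 896) (.add (.mul (.mul (.c 32000) (.pow e2Z 2)) (.sub (.c 1) (.mul (.c 3) dZ)))
      (.mul (.pow dZ 2) (.add (.add (.mul (.pow e2Z 2) aE) (.mul e2Z bE)) cE))))

lemma dZ_val (z : Fin 4 → ℝ) : dZ.val z = nY (fun i => 4 * z i) - 1 := by
  simp [dZ, Ex.val, nZ_val]

lemma xZ_val (z : Fin 4 → ℝ) : xZ.val z = nY (fun i => 4 * z i) - 2 := by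
  simp [xZ, Ex.val, nZ_val]

theorem pmE_val (z : Fin 4 → ℝ) : pmE.val z = 1000 * (- PMv (fun i => 4 * z i)) := by
  simp only [pmE, qmE, Ex.val, nZ_val, e2Z_val, dZ_val, PMv, QM]
  push_cast
  ring

theorem piE_val (z : Fin 4 → ℝ) : piE.val z = 800000 * PIv (fun i => 4 * z i) := by
  simp only [piE, l1E, l2E, aE, bE, cE, lE, Ex.val, nZ_val, e2Z_val, e3Z_val, dZ_val, xZ_val, PIv, L1r, L2r, Ar, Br, Cr]
  push_cast
  ring

end

end Vale.Agent.Lib.P154R
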