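import Vale.Agent.Lib.P154K.Kron

/-!
# Positivity of products of homogeneous polynomials by Kronecker substitution, row by row

Expressions over four variables.  A homogeneous polynomial of degree `n` with small coefficients is
determined by its value at the powers of `2 ^ W`.  The sum of products `∑ A_j(α) B_j(β)` is nonnegative
on the orthant once, for every monomial of `α`, the corresponding combination of the `B_j` has
nonnegative coefficients; only one-sided big integers occur.
-/

open MvPolynomial Finset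

namespace Vale.Agent.Lib.P154R

/-- Polynomial expressions in four variables. -/
inductive Ex where
  | c (z : Int)
  | v (i : Fin 4)
  | add (a b : Ex)
  | sub (a b : Ex)
  | mul (a b : Ex)
  | pow (a : Ex) (k : Nat)

namespace Ex

/-- The polynomial of an expression. -/
noncomputable def poly : Ex → MvPolynomial (Fin 4) ℤ
  | .c z => C z
  | .v i => X i
  | .add a b => a.poly + b.poly
  | .sub a b => a.poly - b.poly
  | .mul a b => a.poly * b.poly
  | .pow a k => a.poly ^ k

/-- A polynomial with natural coefficients above the polynomial of an expression. -/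
noncomputable def majP : Ex → MvPolynomial (Fin 4) ℕ
  | .c z => C z.natAbs
  | .v i => X i
  | .add a b => a.majP + b.majP
  | .sub a b => a.majP + b.majP
  | .mul a b => a.majP * b.majP
  | .pow a k => a.majP ^ k

/-- The value of the majorant at the point with all coordinates one. -/
def maj : Ex → Nat
  | .c z => z.natAbs
  | .v _ => 1
  | .add a b => a.maj + b.maj
  | .sub a b => a.maj + b.maj
  | .mul a b => a.maj * b.maj
  | .pow a k => a.maj ^ k

/-- The degree of an expression, when it is homogeneous by construction. -/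
def deg : Ex → Option Nat
  | .c _ => some 0
  | .v _ => some 1
  | .add a b =>
    match a.deg, b.deg with
    | some x, some y => if x = y then some x else none
    | _, _ => none
  | .sub a b =>
    match a.deg, b.deg with
    | some x, some y => if x = y then some x else none
    | _, _ => none
  | .mul a b =>
    match a.deg, b.deg with
    | some x, some y => some (x + y)
    | _, _ => none
  | .pow a k =>
    match a.deg with
    | some x => some (k * x)
    | none => none

/-- An upper bound of the total degree. -/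
def tdeg : Ex → Nat
  | .c _ => 0
  | .v _ => 1
  | .add a b => max a.tdeg b.tdeg
  | .sub a b => max a.tdeg b.tdeg
  | .mul a b => a.tdeg + b.tdeg
  | .pow a k => k * a.tdeg

/-- The value of an expression at integers. -/
def kron (w : Fin 4 → Int) : Ex → Int
  | .c z => z
  | .v i => w i
  | .add a b => Int.add (a.kron w) (b.kron w)
  | .sub a b => Int.sub (a.kron w) (b.kron w)
  | .mul a b => Int.mul (a.kron w) (b.kron w)
  | .pow a k => (a.kron w) ^ k

/-- The value of an expression at reals. -/
noncomputable def val (r : Fin 4 → ℝ) : Ex → ℝ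
  | .c z => z
  | .v i => r i
  | .add a b => a.val r + b.val r
  | .sub a b => a.val r - b.val r
  | .mul a b => a.val r * b.val r
  | .pow a k => a.val r ^ k

lemma val_eq (r : Fin 4 → ℝ) : ∀ e : Ex, e.val r = eval₂ (Int.castRingHom ℝ) r e.poly
  | .c z => by simp only [val, poly, eval₂_C]; simp
  | .v i => by simp [val, poly]
  | .add a b => by simp [val, poly, val_eq r a, val_eq r b, eval₂_add]
  | .sub a b => by simp [val, poly, val_eq r a, val_eq r b, eval₂_sub]
  | .mul a b => by simp [val, poly, val_eq r a, val_eq r b, eval₂_mul]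
  | .pow a k => by simp [val, poly, val_eq r a, eval₂_pow]

lemma kron_eq (w : Fin 4 → ℤ) : ∀ e : Ex, e.kron w = eval₂ (RingHom.id ℤ) w e.poly
  | .c z => by simp only [kron, poly, eval₂_C]; simp
  | .v i => by simp [kron, poly]
  | .add a b => by
    simp only [kron, poly, eval₂_add, ← kron_eq w a, ← kron_eq w b]; rfl
  | .sub a b => by
    simp only [kron, poly, eval₂_sub, ← kron_eq w a, ← kron_eq w b]; rfl
  | .mul a b => by
    simp only [kron, poly, eval₂_mul, ← kron_eq w a, ← kron_eq w b]; rfl
  | .pow a k => by simp [kron, poly, kron_eq w a, eval₂_pow]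

/-- `q` majorizes `p` coefficientwise. -/
def Maj (p : MvPolynomial (Fin 4) ℤ) (q : MvPolynomial (Fin 4) ℕ) : Prop :=
  ∀ d, |coeff d p| ≤ ((coeff d q : ℕ) : ℤ)

lemma Maj.mul {p p' : MvPolynomial (Fin 4) ℤ} {q q' : MvPolynomial (Fin 4) ℕ} (h : Maj p q)
    (h' : Maj p' q') : Maj (p * p') (q * q') := by
  intro d
  rw [coeff_mul, coeff_mul]
  push_cast
  refine (Finset.abs_sum_le_sum_abs _ _).trans (Finset.sum_le_sum fun x _ => ?_)
  rw [abs_mul]
  exact mul_le_mul (h _) (h' _) (abs_nonneg _) (by positivity)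

lemma maj_one : Maj (1 : MvPolynomial (Fin 4) ℤ) (1 : MvPolynomial (Fin 4) ℕ) := by
  intro d
  rw [coeff_one, coeff_one]
  split_ifs <;> simp

lemma Maj.pow {p : MvPolynomial (Fin 4) ℤ} {q : MvPolynomial (Fin 4) ℕ} (h : Maj p q) (k : ℕ) :
    Maj (p ^ k) (q ^ k) := by
  induction k with
  | zero => simpa using maj_one
  | succ k ih =>
    rw [pow_succ, pow_succ]
    exact ih.mul h

lemma maj_poly : ∀ e : Ex, Maj e.poly e.majP
  | .c z => by
    intro d
    simp only [poly, majP, coeff_C]
    split_ifs <;> simp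
  | .v i => by
    intro d
    simp only [poly, majP, coeff_X]
    split_ifs <;> simp
  | .add a b => by
    intro d
    simp only [poly, majP, coeff_add]
    push_cast
    exact (abs_add_le _ _).trans (add_le_add (maj_poly a d) (maj_poly b d))
  | .sub a b => by
    intro d
    simp only [poly, majP, coeff_sub, coeff_add]
    push_cast
    exact (abs_sub _ _).trans (add_le_add (maj_poly a d) (maj_poly b d))
  | .mul a b => (maj_poly a).mul (maj_poly b)
  | .pow a k => (maj_poly a).pow k

lemma maj_eval : ∀ e : Ex, eval₂ (RingHom.id ℕ) (fun _ => 1) e.majP = e.maj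
  | .c z => by simp [majP, maj]
  | .v i => by simp [majP, maj]
  | .add a b => by simp [majP, maj, maj_eval a, maj_eval b, eval₂_add]
  | .sub a b => by simp [majP, maj, maj_eval a, maj_eval b, eval₂_add]
  | .mul a b => by simp [majP, maj, maj_eval a, maj_eval b, eval₂_mul]
  | .pow a k => by simp [majP, maj, maj_eval a, eval₂_pow]

lemma coeff_le_maj (e : Ex) (d : Fin 4 →₀ ℕ) : coeff d e.majP ≤ e.maj := by
  rw [← maj_eval e, eval₂_eq']
  simp only [RingHom.id_apply, one_pow, Finset.prod_const_one, mul_one]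
  by_cases h : d ∈ e.majP.support
  · exact Finset.single_le_sum (f := fun d => coeff d e.majP) (fun _ _ => Nat.zero_le _) h
  · rw [notMem_support_iff.1 h]
    exact Nat.zero_le _

lemma abs_coeff_le (e : Ex) (d : Fin 4 →₀ ℕ) : |coeff d e.poly| ≤ (e.maj : ℤ) :=
  (maj_poly e d).trans (by exact_mod_cast coeff_le_maj e d)

/-- The total degree of a monomial. -/
def td (d : Fin 4 →₀ ℕ) : ℕ := d 0 + d 1 + d 2 + d 3

lemma td_add (d e : Fin 4 →₀ ℕ) : td (d + e) = td d + td e := by
  simp only [td, Finsupp.add_apply]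
  omega

/-- The polynomial is homogeneous. -/
def Hom (p : MvPolynomial (Fin 4) ℤ) (n : ℕ) : Prop :=
  ∀ d, coeff d p ≠ 0 → td d = n

lemma Hom.mul {p q : MvPolynomial (Fin 4) ℤ} {n m : ℕ} (h : Hom p n) (h' : Hom q m) :
    Hom (p * q) (n + m) := by
  intro d hd
  rw [coeff_mul] at hd
  obtain ⟨x, hx, hne⟩ := Finset.exists_ne_zero_of_sum_ne_zero hd
  have hx' := Finset.HasAntidiagonal.mem_antidiagonal.1 hx
  have h1 := h x.1 (left_ne_zero_of_mul hne)
  have h2 := h' x.2 (right_ne_zero_of_mul hne)
  subst hx'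
  rw [td_add, h1, h2]

lemma hom_one : Hom (1 : MvPolynomial (Fin 4) ℤ) 0 := by
  intro d hd
  rw [coeff_one] at hd
  split_ifs at hd with h
  · subst h; simp [td]
  · exact absurd rfl hd

lemma Hom.pow {p : MvPolynomial (Fin 4) ℤ} {n : ℕ} (h : Hom p n) (k : ℕ) :
    Hom (p ^ k) (k * n) := by
  induction k with
  | zero => simpa using hom_one
  | succ k ih =>
    rw [pow_succ]
    have e1 : (k + 1) * n = k * n + n := by ring
    rw [e1]
    exact ih.mul h

lemma Hom.add {p q : MvPolynomial (Fin 4) ℤ} {n : ℕ} (h : Hom p n) (h' : Hom q n) : Hom (p + q) n := by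
  intro d hd
  rw [coeff_add] at hd
  by_cases h0 : coeff d p = 0
  · exact h' d (fun h1 => hd (by rw [h0, h1, add_zero]))
  · exact h d h0

lemma Hom.sub {p q : MvPolynomial (Fin 4) ℤ} {n : ℕ} (h : Hom p n) (h' : Hom q n) : Hom (p - q) n := by
  intro d hd
  rw [coeff_sub] at hd
  by_cases h0 : coeff d p = 0
  · exact h' d (fun h1 => hd (by rw [h0, h1, sub_zero]))
  · exact h d h0

lemma deg_hom : ∀ (e : Ex) (n : ℕ), e.deg = some n → Hom e.poly n
  | .c z, n, h => by
    simp only [deg, Option.some.injEq] at h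
    subst h
    intro d hd
    simp only [poly, coeff_C] at hd
    split_ifs at hd with h0
    · subst h0; simp [td]
    · exact absurd rfl hd
  | .v i, n, h => by
    simp only [deg, Option.some.injEq] at h
    subst h
    intro d hd
    simp only [poly, coeff_X] at hd
    split_ifs at hd with h0
    · subst h0
      fin_cases i <;> simp [td]
    · exact absurd rfl hd
  | .add a b, n, h => by
    simp only [deg] at h
    split at h
    · rename_i x y ha hb
      split_ifs at h with hc
      simp only [Option.some.injEq] at h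
      subst h
      subst hc
      exact (deg_hom a _ ha).add (deg_hom b _ hb)
    · simp at h
  | .sub a b, n, h => by
    simp only [deg] at h
    split at h
    · rename_i x y ha hb
      split_ifs at h with hc
      simp only [Option.some.injEq] at h
      subst h
      subst hc
      exact (deg_hom a _ ha).sub (deg_hom b _ hb)
    · simp at h
  | .mul a b, n, h => by
    simp only [deg] at h
    split at h
    · rename_i x y ha hb
      simp only [Option.some.injEq] at h
      subst h
      exact (deg_hom a _ ha).mul (deg_hom b _ hb)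
    · simp at h
  | .pow a k, n, h => by
    simp only [deg] at h
    split at h
    · rename_i x ha
      simp only [Option.some.injEq] at h
      subst h
      exact (deg_hom a _ ha).pow k
    · simp at h

/-- The total degree of the monomials of the polynomial of an expression is bounded. -/
lemma tdeg_le : ∀ (e : Ex) (d : Fin 4 →₀ ℕ), coeff d e.poly ≠ 0 → td d ≤ e.tdeg
  | .c z, d, h => by
    simp only [poly, coeff_C] at h
    split_ifs at h with h0
    · subst h0; simp [td]
    · exact absurd rfl h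
  | .v i, d, h => by
    simp only [poly, coeff_X] at h
    split_ifs at h with h0
    · subst h0
      fin_cases i <;> simp [td, tdeg]
    · exact absurd rfl h
  | .add a b, d, h => by
    simp only [poly, coeff_add] at h
    simp only [tdeg]
    by_cases h0 : coeff d a.poly = 0
    · exact (tdeg_le b d (fun h1 => h (by rw [h0, h1, add_zero]))).trans (le_max_right _ _)
    · exact (tdeg_le a d h0).trans (le_max_left _ _)
  | .sub a b, d, h => by
    simp only [poly, coeff_sub] at h
    simp only [tdeg]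
    by_cases h0 : coeff d a.poly = 0
    · exact (tdeg_le b d (fun h1 => h (by rw [h0, h1, sub_zero]))).trans (le_max_right _ _)
    · exact (tdeg_le a d h0).trans (le_max_left _ _)
  | .mul a b, d, h => by
    simp only [poly, coeff_mul] at h
    obtain ⟨x, hx, hne⟩ := Finset.exists_ne_zero_of_sum_ne_zero h
    have hx' := Finset.HasAntidiagonal.mem_antidiagonal.1 hx
    have h1 := tdeg_le a x.1 (left_ne_zero_of_mul hne)
    have h2 := tdeg_le b x.2 (right_ne_zero_of_mul hne)
    subst hx'
    rw [td_add]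
    simp only [tdeg]
    omega
  | .pow a k, d, h => by
    simp only [poly] at h
    simp only [tdeg]
    induction k generalizing d with
    | zero =>
      simp only [pow_zero, coeff_one] at h
      split_ifs at h with h0
      · subst h0; simp [td]
      · exact absurd rfl h
    | succ k ih =>
      rw [pow_succ, coeff_mul] at h
      obtain ⟨x, hx, hne⟩ := Finset.exists_ne_zero_of_sum_ne_zero h
      have hx' := Finset.HasAntidiagonal.mem_antidiagonal.1 hx
      have h1 := ih x.1 (left_ne_zero_of_mul hne)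
      have h2 := tdeg_le a x.2 (right_ne_zero_of_mul hne)
      subst hx'
      rw [td_add]
      have e1 : (k + 1) * a.tdeg = k * a.tdeg + a.tdeg := by ring
      omega

end Ex

open Ex

/-! ### Digits -/

/-- Digits are unique. -/
theorem digits_unique {W : ℕ} (hW : 0 < W) :
    ∀ (K : ℕ) (c c' : ℕ → ℤ), ∑ j ∈ range K, c j * (2 : ℤ) ^ (W * j) = ∑ j ∈ range K, c' j * (2 : ℤ) ^ (W * j) →
      (∀ j, |c j| < (2 : ℤ) ^ (W - 1)) → (∀ j, |c' j| < (2 : ℤ) ^ (W - 1)) → ∀ j, j < K → c j = c' j := by
  intro K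
  induction K with
  | zero => intro c c' _ _ _ j hj; omega
  | succ K ih =>
    intro c c' h hc hc' j hj
    rw [Finset.sum_range_succ', Finset.sum_range_succ'] at h
    simp only [Nat.mul_zero, pow_zero, mul_one] at h
    have hB : (2 : ℤ) ^ W = 2 * 2 ^ (W - 1) := by
      rw [← pow_succ']
      congr 1
      omega
    have hP : (0 : ℤ) < 2 ^ (W - 1) := by positivity
    set R : ℤ := ∑ k ∈ range K, c (k + 1) * (2 : ℤ) ^ (W * k) with hR
    set R' : ℤ := ∑ k ∈ range K, c' (k + 1) * (2 : ℤ) ^ (W * k) with hR'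
    have e1 : ∑ k ∈ range K, c (k + 1) * (2 : ℤ) ^ (W * (k + 1)) = 2 ^ W * R := by
      rw [hR, Finset.mul_sum]
      apply Finset.sum_congr rfl
      intro k _
      rw [Nat.mul_add, pow_add, mul_one]
      ring
    have e2 : ∑ k ∈ range K, c' (k + 1) * (2 : ℤ) ^ (W * (k + 1)) = 2 ^ W * R' := by
      rw [hR', Finset.mul_sum]
      apply Finset.sum_congr rfl
      intro k _
      rw [Nat.mul_add, pow_add, mul_one]
      ring
    rw [e1, e2] at h
    have a0 := abs_lt.1 (hc 0)
    have a1 := abs_lt.1 (hc' 0)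
    have hq : R = R' := by
      by_contra hne
      have hne' : R - R' ≠ 0 := sub_ne_zero.2 hne
      have key : (2 : ℤ) ^ W * (R - R') = c' 0 - c 0 := by linarith
      rcases lt_or_gt_of_ne hne' with hl | hl
      · have h4 : R - R' ≤ -1 := by omega
        have h5 : (2 : ℤ) ^ W * (R - R') ≤ 2 ^ W * (-1) :=
          mul_le_mul_of_nonneg_left h4 (by positivity)
        rw [key, hB] at h5
        linarith [a0.2, a1.1]
      · have h4 : 1 ≤ R - R' := by omega
        have h5 : (2 : ℤ) ^ W * 1 ≤ 2 ^ W * (R - R') :=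
          mul_le_mul_of_nonneg_left h4 (by positivity)
        rw [key, hB] at h5
        linarith [a0.1, a1.2]
    have h00 : c 0 = c' 0 := by
      rw [hq] at h
      linarith
    cases j with
    | zero => exact h00
    | succ j =>
      exact ih (fun k => c (k + 1)) (fun k => c' (k + 1)) hq (fun k => hc _) (fun k => hc' _) j (by omega)

/-- The exponents of the Kronecker substitution: the first variable is dropped. -/
def kExp (R : ℕ) : Fin 4 → ℕ := ![0, 1, R, R * R]

/-- The point of the Kronecker substitution. -/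
def kPt (W R : ℕ) : Fin 4 → ℤ := fun i => Int.ofNat ((1 : ℕ) <<< (W * kExp R i))

/-- The position of a monomial. -/
def idx (R : ℕ) (d : Fin 4 →₀ ℕ) : ℕ := ∑ i, kExp R i * d i

lemma idx_eq (R : ℕ) (d : Fin 4 →₀ ℕ) : idx R d = d 1 + R * d 2 + R * R * d 3 := by
  simp only [idx, Fin.sum_univ_four, kExp]
  simp

lemma idx_lt {n : ℕ} {d : Fin 4 →₀ ℕ} (h : td d = n) : idx (n + 1) d < (n + 1) ^ 3 := by
  rw [idx_eq]
  simp only [td] at h
  have b1 : d 1 ≤ n := by omega
  have b2 : d 2 ≤ n := by omega
  have b3 : d 3 ≤ n := by omega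
  have e1 : d 1 + (n + 1) * d 2 < (n + 1) * (n + 1) := by nlinarith
  have e2 : (n + 1) * (n + 1) * (d 3 + 1) ≤ (n + 1) * (n + 1) * (n + 1) :=
    Nat.mul_le_mul_left _ (by omega)
  have e3 : d 1 + (n + 1) * d 2 + (n + 1) * (n + 1) * d 3
      = (d 1 + (n + 1) * d 2) + (n + 1) * (n + 1) * d 3 := by ring
  have e4 : (n + 1) ^ 3 = (n + 1) * (n + 1) * (n + 1) := by ring
  rw [e3, e4]
  nlinarith

lemma peel {a b a' b' Q : ℕ} (ha : a < Q) (ha' : a' < Q) (hh : a + Q * b = a' + Q * b') :
    a = a' ∧ b = b' := by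
  have h1 : (a + Q * b) % Q = a := by rw [Nat.add_mul_mod_self_left, Nat.mod_eq_of_lt ha]
  have h2 : (a' + Q * b') % Q = a' := by rw [Nat.add_mul_mod_self_left, Nat.mod_eq_of_lt ha']
  have h3 : a = a' := by rw [← h1, hh, h2]
  subst h3
  have hQ : 0 < Q := by omega
  exact ⟨rfl, Nat.eq_of_mul_eq_mul_left hQ (by omega)⟩

lemma idx_inj {n : ℕ} {d e : Fin 4 →₀ ℕ} (hd : td d = n) (he : td e = n)
    (h : idx (n + 1) d = idx (n + 1) e) : d = e := by
  rw [idx_eq, idx_eq] at h
  simp only [td] at hd he
  set R := n + 1 with hR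
  have b1 : d 1 < R := by omega
  have b2 : d 2 < R := by omega
  have c1 : e 1 < R := by omega
  have c2 : e 2 < R := by omega
  have e1 : d 1 + R * (d 2 + R * d 3) = e 1 + R * (e 2 + R * e 3) := by
    have : d 1 + R * (d 2 + R * d 3) = d 1 + R * d 2 + R * R * d 3 := by ring
    rw [this, h]
    ring
  obtain ⟨d1, r1⟩ := peel b1 c1 e1
  obtain ⟨d2, r2⟩ := peel b2 c2 r1
  have d3 : d 3 = e 3 := r2
  ext i
  fin_cases i
  · show d 0 = e 0
    omega
  · exact d1
  · exact d2
  · exact d3

lemma kPt_prod (W R : ℕ) (d : Fin 4 →₀ ℕ) :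
    ∏ i, kPt W R i ^ d i = (2 : ℤ) ^ (W * idx R d) := by
  simp only [idx, kPt, Nat.one_shiftLeft]
  rw [Finset.mul_sum, ← Finset.prod_pow_eq_pow_sum]
  apply Finset.prod_congr rfl
  intro i _
  have : Int.ofNat (2 ^ (W * kExp R i)) = (2 : ℤ) ^ (W * kExp R i) := by
    simp
  rw [this, ← pow_mul]
  congr 1
  ring

/-- The digits of a homogeneous polynomial. -/
noncomputable def dg (p : MvPolynomial (Fin 4) ℤ) (R : ℕ) (j : ℕ) : ℤ :=
  ∑ d ∈ p.support.filter (fun d => idx R d = j), coeff d p

lemma dg_idx {p : MvPolynomial (Fin 4) ℤ} {n : ℕ} (hH : Hom p n) (d : Fin 4 →₀ ℕ) (hd : td d = n) :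
    dg p (n + 1) (idx (n + 1) d) = coeff d p := by
  classical
  by_cases h0 : coeff d p = 0
  · rw [h0]
    apply Finset.sum_eq_zero
    intro d' hd'
    simp only [Finset.mem_filter, mem_support_iff] at hd'
    have : d' = d := idx_inj (hH d' hd'.1) hd hd'.2
    subst this
    exact h0
  · have : p.support.filter (fun d' => idx (n + 1) d' = idx (n + 1) d) = {d} := by
      ext d'
      simp only [Finset.mem_filter, Finset.mem_singleton, mem_support_iff]
      constructor
      · rintro ⟨h5, h6⟩
        exact idx_inj (hH d' h5) hd h6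
      · rintro rfl
        exact ⟨h0, rfl⟩
    simp only [dg, this, Finset.sum_singleton]

lemma dg_abs_lt {p : MvPolynomial (Fin 4) ℤ} {n : ℕ} {L : ℤ} (hL : 0 < L) (hH : Hom p n)
    (hb : ∀ d, |coeff d p| < L) (j : ℕ) : |dg p (n + 1) j| < L := by
  classical
  by_cases hj : ∃ d ∈ p.support, idx (n + 1) d = j
  · obtain ⟨d, hd, rfl⟩ := hj
    rw [dg_idx hH d (hH d (mem_support_iff.1 hd))]
    exact hb d
  · have : p.support.filter (fun d => idx (n + 1) d = j) = ∅ := by
      apply Finset.filter_eq_empty_iff.2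
      intro d hd hdj
      exact hj ⟨d, hd, hdj⟩
    simp only [dg, this, Finset.sum_empty, abs_zero]
    exact hL

/-- The value at the Kronecker point, read through the digits. -/
lemma eval_dg {p : MvPolynomial (Fin 4) ℤ} {n : ℕ} (W : ℕ) (hH : Hom p n) {K : ℕ}
    (hK : (n + 1) ^ 3 ≤ K) :
    eval₂ (RingHom.id ℤ) (kPt W (n + 1)) p = ∑ j ∈ range K, dg p (n + 1) j * (2 : ℤ) ^ (W * j) := by
  classical
  rw [eval₂_eq']
  simp only [RingHom.id_apply, kPt_prod]
  have hinj : Set.InjOn (idx (n + 1)) (p.support : Set (Fin 4 →₀ ℕ)) := by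
    intro x hx y hy hxy
    exact idx_inj (hH x (mem_support_iff.1 hx)) (hH y (mem_support_iff.1 hy)) hxy
  have e2 : ∑ d ∈ p.support, coeff d p * (2 : ℤ) ^ (W * idx (n + 1) d) =
      ∑ d ∈ p.support, dg p (n + 1) (idx (n + 1) d) * (2 : ℤ) ^ (W * idx (n + 1) d) :=
    Finset.sum_congr rfl fun d hd => by rw [dg_idx hH d (hH d (mem_support_iff.1 hd))]
  rw [e2, ← Finset.sum_image (f := fun j => dg p (n + 1) j * (2 : ℤ) ^ (W * j)) hinj]
  apply Finset.sum_subset
  · intro j hj
    obtain ⟨d, hd, rfl⟩ := Finset.mem_image.1 hj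
    exact Finset.mem_range.2 ((idx_lt (hH d (mem_support_iff.1 hd))).trans_le hK)
  · intro j _ hj
    have : p.support.filter (fun d => idx (n + 1) d = j) = ∅ := by
      apply Finset.filter_eq_empty_iff.2
      intro d hd hdj
      exact hj (Finset.mem_image.2 ⟨d, hd, hdj⟩)
    simp only [dg, this, Finset.sum_empty, zero_mul]

/-- The mask of all digits, computed without large powers. -/
def maskOf (W K : ℕ) : ℕ := ((1 : ℕ) <<< (W - 1)) * (((1 : ℕ) <<< (W * K) - 1) / ((1 : ℕ) <<< W - 1))

lemma maskOf_eq (W K : ℕ) (hW : 0 < W) : maskOf W K = Vale.Agent.Lib.P154K.maskR W K := by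
  rw [Vale.Agent.Lib.P154K.maskR_eq W hW]
  simp only [maskOf, Nat.one_shiftLeft]
  rw [← pow_mul]

/-- A homogeneous polynomial with small coefficients whose Kronecker value has all sign bits zero has
nonnegative coefficients. -/
theorem coeff_nonneg_of_mask {p : MvPolynomial (Fin 4) ℤ} {n W K N : ℕ} (hW : 0 < W) (hH : Hom p n)
    (hK : (n + 1) ^ 3 ≤ K) (hb : ∀ d, |coeff d p| < (2 : ℤ) ^ (W - 1))
    (hV : eval₂ (RingHom.id ℤ) (kPt W (n + 1)) p = (N : ℤ)) (hm : N &&& maskOf W K = 0)
    (d : Fin 4 →₀ ℕ) : 0 ≤ coeff d p := by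
  by_cases h0 : coeff d p = 0
  · rw [h0]
  have hd := hH d h0
  rw [← dg_idx hH d hd]
  rw [maskOf_eq W K hW] at hm
  have hval := eval_dg W hH hK
  rw [hV] at hval
  exact Vale.Agent.Lib.P154K.digits_nonneg hW K (dg p (n + 1)) N hval
    (dg_abs_lt (by positivity) hH hb) hm _ ((idx_lt hd).trans_le hK)

/-! ### One-sided checks -/

/-- The check of an expression: homogeneous of degree `n` with nonnegative coefficients. -/
def check1 (W n k : ℕ) (e : Ex) : Bool :=
  (match e.deg with
    | some x => Nat.beq x n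
    | none => false) &&
  Nat.blt 0 W && Nat.ble ((n + 1) ^ 3) (2 ^ k) && Nat.blt e.maj ((1 : ℕ) <<< (W - 1)) &&
  (match e.kron (kPt W (n + 1)) with
    | .ofNat N => Nat.beq (N &&& maskOf W (2 ^ k)) 0
    | .negSucc _ => false)

theorem check1_sound {W n k : ℕ} {e : Ex} (h : check1 W n k e = true) (r : Fin 4 → ℝ) (hr : ∀ i, 0 ≤ r i) :
    0 ≤ e.val r := by
  simp only [check1, Bool.and_eq_true] at h
  obtain ⟨⟨⟨⟨h1, h2⟩, h5⟩, h3⟩, h4⟩ := h
  have hW : 0 < W := by simpa [Nat.blt_eq] using h2
  have hK : (n + 1) ^ 3 ≤ 2 ^ k := by simpa using h5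
  have hL : e.maj < 2 ^ (W - 1) := by simpa [Nat.one_shiftLeft, Nat.blt_eq] using h3
  have hdeg : e.deg = some n := by
    split at h1
    · rename_i x hx
      rw [hx, Nat.eq_of_beq_eq_true h1]
    · simp at h1
  have hB := Ex.deg_hom e n hdeg
  have hb : ∀ d, |coeff d e.poly| < (2 : ℤ) ^ (W - 1) := fun d =>
    lt_of_le_of_lt (Ex.abs_coeff_le e d) (by exact_mod_cast hL)
  rw [Ex.val_eq, eval₂_eq']
  refine Finset.sum_nonneg fun d _ => mul_nonneg ?_ (Finset.prod_nonneg fun i _ => pow_nonneg (hr i) _)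
  simp only [eq_intCast]
  split at h4
  · rename_i N hN
    have hm : N &&& maskOf W (2 ^ k) = 0 := by simpa using h4
    have hV : eval₂ (RingHom.id ℤ) (kPt W (n + 1)) e.poly = (N : ℤ) := by
      rw [← Ex.kron_eq, hN]
      rfl
    exact_mod_cast coeff_nonneg_of_mask hW hB hK hb hV hm d
  · simp at h4

/-! ### Identities between inhomogeneous polynomials -/

/-- The position of a monomial, for all four variables. -/
def idxZ (R : ℕ) (d : Fin 4 →₀ ℕ) : ℕ := d 0 + R * d 1 + R * R * d 2 + R * R * R * d 3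

/-- The point of the Kronecker substitution in all four variables. -/
def kPtZ (W R : ℕ) : Fin 4 → ℤ :=
  ![Int.ofNat ((1 : ℕ) <<< W), Int.ofNat ((1 : ℕ) <<< (W * R)), Int.ofNat ((1 : ℕ) <<< (W * (R * R))),
    Int.ofNat ((1 : ℕ) <<< (W * (R * R * R)))]

lemma kPtZ_prod (W R : ℕ) (d : Fin 4 →₀ ℕ) :
    ∏ i, kPtZ W R i ^ d i = (2 : ℤ) ^ (W * idxZ R d) := by
  simp only [Fin.prod_univ_four, kPtZ, idxZ, Nat.one_shiftLeft]
  simp only [Matrix.cons_val_zero, Matrix.cons_val_one, Matrix.cons_val]
  have h : ∀ m : ℕ, Int.ofNat (2 ^ m) = (2 : ℤ) ^ m := fun m => by simp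
  simp only [h, ← pow_mul, ← pow_add]
  congr 1
  ring

lemma idxZ_inj {D : ℕ} {d e : Fin 4 →₀ ℕ} (hd : td d ≤ D) (he : td e ≤ D)
    (h : idxZ (D + 1) d = idxZ (D + 1) e) : d = e := by
  simp only [td] at hd he
  simp only [idxZ] at h
  set R := D + 1 with hR
  have b0 : d 0 < R := by omega
  have b1 : d 1 < R := by omega
  have b2 : d 2 < R := by omega
  have c0 : e 0 < R := by omega
  have c1 : e 1 < R := by omega
  have c2 : e 2 < R := by omega
  have e1 : d 0 + R * (d 1 + R * (d 2 + R * d 3)) = e 0 + R * (e 1 + R * (e 2 + R * e 3)) := by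
    have h1 : d 0 + R * (d 1 + R * (d 2 + R * d 3)) = d 0 + R * d 1 + R * R * d 2 + R * R * R * d 3 := by ring
    have h2 : e 0 + R * (e 1 + R * (e 2 + R * e 3)) = e 0 + R * e 1 + R * R * e 2 + R * R * R * e 3 := by ring
    rw [h1, h2, h]
  obtain ⟨d0, r0⟩ := peel b0 c0 e1
  obtain ⟨d1, r1⟩ := peel b1 c1 r0
  obtain ⟨d2, d3⟩ := peel b2 c2 r1
  ext i
  fin_cases i
  · exact d0
  · exact d1
  · exact d2
  · exact d3

lemma idxZ_lt {D : ℕ} {d : Fin 4 →₀ ℕ} (hd : td d ≤ D) : idxZ (D + 1) d < (D + 1) ^ 4 := by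
  simp only [td] at hd
  simp only [idxZ]
  set R := D + 1 with hR
  have b0 : d 0 + 1 ≤ R := by omega
  have b1 : d 1 + 1 ≤ R := by omega
  have b2 : d 2 + 1 ≤ R := by omega
  have b3 : d 3 + 1 ≤ R := by omega
  have hR0 : 0 < R := by omega
  have e1 : d 0 + R * d 1 + 1 ≤ R * R := by nlinarith
  have e2 : d 0 + R * d 1 + R * R * d 2 + 1 ≤ R * R * R := by nlinarith [Nat.mul_le_mul_left (R * R) b2]
  have e3 : d 0 + R * d 1 + R * R * d 2 + R * R * R * d 3 + 1 ≤ R * R * R * R := by
    nlinarith [Nat.mul_le_mul_left (R * R * R) b3]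
  have e4 : R ^ 4 = R * R * R * R := by ring
  omega

/-- The check of an identity: the expression has the zero polynomial. -/
def checkZ (W D : ℕ) (e : Ex) : Bool :=
  Nat.blt 0 W && Nat.ble e.tdeg D && Nat.blt e.maj ((1 : ℕ) <<< (W - 1)) &&
  (match e.kron (kPtZ W (D + 1)) with
    | .ofNat N => Nat.beq N 0
    | .negSucc _ => false)

theorem checkZ_sound {W D : ℕ} {e : Ex} (h : checkZ W D e = true) (r : Fin 4 → ℝ) : e.val r = 0 := by
  classical
  simp only [checkZ, Bool.and_eq_true] at h
  obtain ⟨⟨⟨h1, h2⟩, h3⟩, h4⟩ := h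
  have hW : 0 < W := by simpa [Nat.blt_eq] using h1
  have hD : e.tdeg ≤ D := by simpa using h2
  have hL : e.maj < 2 ^ (W - 1) := by simpa [Nat.one_shiftLeft, Nat.blt_eq] using h3
  have hb : ∀ d, |coeff d e.poly| < (2 : ℤ) ^ (W - 1) := fun d =>
    lt_of_le_of_lt (Ex.abs_coeff_le e d) (by exact_mod_cast hL)
  have hk : e.kron (kPtZ W (D + 1)) = 0 := by
    split at h4
    · rename_i N hN
      rw [hN, Nat.eq_of_beq_eq_true h4]
      rfl
    · simp at h4
  have htd : ∀ d, coeff d e.poly ≠ 0 → td d ≤ D := fun d hd => (Ex.tdeg_le e d hd).trans hD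
  -- the digits
  set p := e.poly with hp
  let c : ℕ → ℤ := fun j => ∑ d ∈ p.support.filter (fun d => idxZ (D + 1) d = j), coeff d p
  have hcd : ∀ d ∈ p.support, c (idxZ (D + 1) d) = coeff d p := by
    intro d hd
    have : p.support.filter (fun d' => idxZ (D + 1) d' = idxZ (D + 1) d) = {d} := by
      ext d'
      simp only [Finset.mem_filter, Finset.mem_singleton]
      constructor
      · rintro ⟨h5, h6⟩
        exact idxZ_inj (htd d' (mem_support_iff.1 h5)) (htd d (mem_support_iff.1 hd)) h6
      · rintro rfl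
        exact ⟨hd, rfl⟩
    simp only [c, this, Finset.sum_singleton]
  have hinj : Set.InjOn (idxZ (D + 1)) (p.support : Set (Fin 4 →₀ ℕ)) := by
    intro x hx y hy hxy
    exact idxZ_inj (htd x (mem_support_iff.1 hx)) (htd y (mem_support_iff.1 hy)) hxy
  have hsum : ∑ j ∈ range ((D + 1) ^ 4), c j * (2 : ℤ) ^ (W * j) = 0 := by
    rw [Ex.kron_eq, eval₂_eq', ← hp] at hk
    simp only [RingHom.id_apply, kPtZ_prod] at hk
    rw [← hk]
    have e2 : ∑ d ∈ p.support, coeff d p * (2 : ℤ) ^ (W * idxZ (D + 1) d) =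
        ∑ d ∈ p.support, c (idxZ (D + 1) d) * (2 : ℤ) ^ (W * idxZ (D + 1) d) :=
      Finset.sum_congr rfl fun d hd => by rw [hcd d hd]
    rw [e2, ← Finset.sum_image (f := fun j => c j * (2 : ℤ) ^ (W * j)) hinj]
    symm
    apply Finset.sum_subset
    · intro j hj
      obtain ⟨d, hd, rfl⟩ := Finset.mem_image.1 hj
      exact Finset.mem_range.2 (idxZ_lt (htd d (mem_support_iff.1 hd)))
    · intro j _ hj
      have : p.support.filter (fun d => idxZ (D + 1) d = j) = ∅ := by
        apply Finset.filter_eq_empty_iff.2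
        intro d hd hdj
        exact hj (Finset.mem_image.2 ⟨d, hd, hdj⟩)
      simp only [c, this, Finset.sum_empty, zero_mul]
  have hcb : ∀ j, |c j| < (2 : ℤ) ^ (W - 1) := by
    intro j
    by_cases hj : ∃ d ∈ p.support, idxZ (D + 1) d = j
    · obtain ⟨d, hd, rfl⟩ := hj
      rw [hcd d hd]
      exact hb d
    · have : p.support.filter (fun d => idxZ (D + 1) d = j) = ∅ := by
        apply Finset.filter_eq_empty_iff.2
        intro d hd hdj
        exact hj ⟨d, hd, hdj⟩
      simp only [c, this, Finset.sum_empty, abs_zero]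
      positivity
  have hzero : ∀ d, coeff d p = 0 := by
    intro d
    by_contra hne
    have hd : d ∈ p.support := mem_support_iff.2 hne
    have := digits_unique hW ((D + 1) ^ 4) c (fun _ => 0) (by simpa using hsum) hcb
      (fun j => by simp) (idxZ (D + 1) d) (idxZ_lt (htd d hne))
    rw [hcd d hd] at this
    exact hne this
  have hp0 : p = 0 := MvPolynomial.ext _ _ (fun d => by rw [hzero d]; simp)
  rw [Ex.val_eq, ← hp, hp0]
  simp

end Vale.Agent.Lib.P154R
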