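import Vale.Agent.Lib.P154Q.Four

/-!
# The explicit invariant for four colours (job B of the `q = 4` ferromagnetic argument)

On `V 4` put `h1 x = (2/3) ∑_{i<j} (x_i x_j)^(1/2)`, `h2 x = (1/3) ∑_a ∑_{b<c, b,c≠a} x_a^(2/3) (x_b x_c)^(1/6)`
and `chiE c = (81/2) (h2 (1/4 + c) - h1 (1/4 + c))`.

Both `h1`, `h2` are `4 ×` the average of a monomial over the symmetric group, homogeneous of degree one.  So the
average over the rearrangements of a merge factorises: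
`KK chiE a b = h2 (1/4 + b) * chiE a + h1 (1/4 + a) * chiE b` (`KK_chiE`).

Radial estimate `chiE_radial`: `lam ^ 3 * chiE c ≤ chiE (lam • c)`, reduced to nonnegativity of the polynomial `FF`.
With `s_i = x_i^(1/6)`, `P = (81/2)(H2 - H1)`, one has `l d/dl P(s(l)) - 3 P(s(l)) = -FF(s)/(s0 s1 s2 s3)^5` along
`x(l) = 1/4 + l c`, by Euler's identity, so `chiE (l • c) / l ^ 3` is antitone on `(0,1]`.
-/

open Finset

namespace Vale.Agent.Lib.P154R

open Vale.Agent.Lib.P154Q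

noncomputable section

/-- The shift to the simplex. -/
def sft (c : V 4) : V 4 := fun i => 1 / 4 + c i

/-- `(2/3) ∑_{i<j} (x_i x_j)^(1/2)`. -/
def h1 (x : V 4) : ℝ :=
  (2 / 3) * ((x 0 * x 1) ^ (1 / 2 : ℝ) + (x 0 * x 2) ^ (1 / 2 : ℝ) + (x 0 * x 3) ^ (1 / 2 : ℝ)
    + (x 1 * x 2) ^ (1 / 2 : ℝ) + (x 1 * x 3) ^ (1 / 2 : ℝ) + (x 2 * x 3) ^ (1 / 2 : ℝ))

/-- `(1/3) ∑_a ∑_{b<c, b,c≠a} x_a^(2/3) (x_b x_c)^(1/6)`. -/
def h2 (x : V 4) : ℝ :=
  (1 / 3) * (x 0 ^ (2 / 3 : ℝ) * ((x 1 * x 2) ^ (1 / 6 : ℝ) + (x 1 * x 3) ^ (1 / 6 : ℝ)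
        + (x 2 * x 3) ^ (1 / 6 : ℝ))
    + x 1 ^ (2 / 3 : ℝ) * ((x 0 * x 2) ^ (1 / 6 : ℝ) + (x 0 * x 3) ^ (1 / 6 : ℝ)
        + (x 2 * x 3) ^ (1 / 6 : ℝ))
    + x 2 ^ (2 / 3 : ℝ) * ((x 0 * x 1) ^ (1 / 6 : ℝ) + (x 0 * x 3) ^ (1 / 6 : ℝ)
        + (x 1 * x 3) ^ (1 / 6 : ℝ))
    + x 3 ^ (2 / 3 : ℝ) * ((x 0 * x 1) ^ (1 / 6 : ℝ) + (x 0 * x 2) ^ (1 / 6 : ℝ)
        + (x 1 * x 2) ^ (1 / 6 : ℝ)))

/-- The invariant. -/
def chiE (c : V 4) : ℝ := (81 / 2) * (h2 (sft c) - h1 (sft c))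

/-- `h1` in the variables `s = x^(1/6)`. -/
def H1 (s : V 4) : ℝ :=
  (2 / 3) * (s 0 ^ 3 * s 1 ^ 3 + s 0 ^ 3 * s 2 ^ 3 + s 0 ^ 3 * s 3 ^ 3
    + s 1 ^ 3 * s 2 ^ 3 + s 1 ^ 3 * s 3 ^ 3 + s 2 ^ 3 * s 3 ^ 3)

/-- `h2` in the variables `s = x^(1/6)`. -/
def H2 (s : V 4) : ℝ :=
  (1 / 3) * (s 0 ^ 4 * (s 1 * s 2 + s 1 * s 3 + s 2 * s 3)
    + s 1 ^ 4 * (s 0 * s 2 + s 0 * s 3 + s 2 * s 3)
    + s 2 ^ 4 * (s 0 * s 1 + s 0 * s 3 + s 1 * s 3)
    + s 3 ^ 4 * (s 0 * s 1 + s 0 * s 2 + s 1 * s 2))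

/-- The invariant in the variables `s`. -/
def PP (s : V 4) : ℝ := (81 / 2) * (H2 s - H1 s)

/-- The sixth roots. -/
def rt (x : V 4) : V 4 := fun i => x i ^ (1 / 6 : ℝ)

lemma rt_pow_six {t : ℝ} (ht : 0 ≤ t) : (t ^ (1 / 6 : ℝ)) ^ 6 = t := by
  rw [← Real.rpow_natCast, ← Real.rpow_mul ht]
  norm_num

lemma half_eq {t u : ℝ} (ht : 0 ≤ t) (hu : 0 ≤ u) :
    (t * u) ^ (1 / 2 : ℝ) = (t ^ (1 / 6 : ℝ)) ^ 3 * (u ^ (1 / 6 : ℝ)) ^ 3 := by
  rw [Real.mul_rpow ht hu, ← Real.rpow_natCast, ← Real.rpow_natCast, ← Real.rpow_mul ht,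
    ← Real.rpow_mul hu]
  norm_num

lemma sixth_eq {t u : ℝ} (ht : 0 ≤ t) (hu : 0 ≤ u) :
    (t * u) ^ (1 / 6 : ℝ) = t ^ (1 / 6 : ℝ) * u ^ (1 / 6 : ℝ) :=
  Real.mul_rpow ht hu

lemma twothird_eq {t : ℝ} (ht : 0 ≤ t) : t ^ (2 / 3 : ℝ) = (t ^ (1 / 6 : ℝ)) ^ 4 := by
  rw [← Real.rpow_natCast, ← Real.rpow_mul ht]
  norm_num

lemma h1_eq {x : V 4} (hx : ∀ i, 0 ≤ x i) : h1 x = H1 (rt x) := by
  simp only [h1, H1, rt]
  rw [half_eq (hx 0) (hx 1), half_eq (hx 0) (hx 2), half_eq (hx 0) (hx 3),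
    half_eq (hx 1) (hx 2), half_eq (hx 1) (hx 3), half_eq (hx 2) (hx 3)]

lemma h2_eq {x : V 4} (hx : ∀ i, 0 ≤ x i) : h2 x = H2 (rt x) := by
  simp only [h2, H2, rt]
  rw [sixth_eq (hx 1) (hx 2), sixth_eq (hx 1) (hx 3), sixth_eq (hx 2) (hx 3),
    sixth_eq (hx 0) (hx 2), sixth_eq (hx 0) (hx 3), sixth_eq (hx 0) (hx 1),
    twothird_eq (hx 0), twothird_eq (hx 1), twothird_eq (hx 2), twothird_eq (hx 3)]

lemma h1_nonneg {x : V 4} (hx : ∀ i, 0 ≤ x i) : 0 ≤ h1 x := by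
  unfold h1
  have := fun i j => Real.rpow_nonneg (mul_nonneg (hx i) (hx j)) (1 / 2 : ℝ)
  have h01 := this 0 1
  have h02 := this 0 2
  have h03 := this 0 3
  have h12 := this 1 2
  have h13 := this 1 3
  have h23 := this 2 3
  positivity

lemma h2_nonneg {x : V 4} (hx : ∀ i, 0 ≤ x i) : 0 ≤ h2 x := by
  rw [h2_eq hx]
  have h : ∀ i, 0 ≤ rt x i := fun i => Real.rpow_nonneg (hx i) _
  simp only [H2]
  have h0 := h 0
  have h1 := h 1
  have h2 := h 2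
  have h3 := h 3
  positivity

/-- Coordinates of the shift of an element of the simplex are nonnegative. -/
lemma sft_nonneg {c : V 4} (hc : InSx 1 c) (i : Fin 4) : 0 ≤ sft c i := by
  have := hc.2 i
  simp only [sft]
  norm_num at this
  linarith

lemma sum_sft {c : V 4} (hc : InSx 1 c) : ∑ i, sft c i = 1 := by
  simp only [sft, Finset.sum_add_distrib, hc.1]
  simp

lemma H1_smul (k : ℝ) (s : V 4) : H1 (fun i => k * s i) = k ^ 6 * H1 s := by
  simp only [H1]; ring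

lemma H2_smul (k : ℝ) (s : V 4) : H2 (fun i => k * s i) = k ^ 6 * H2 s := by
  simp only [H2]; ring

lemma H1_zero : H1 (fun _ => 0) = 0 := by
  simp [H1]

lemma H2_zero : H2 (fun _ => 0) = 0 := by
  simp [H2]

/-- The normalising factor as a sum. -/
lemma Nf_eq {a b : V 4} (ha : ∑ i, a i = 0) (hb : ∑ i, b i = 0) :
    Nf a b = ∑ i, 4 * (sft a i * sft b i) := by
  have e : ∀ i, 4 * (sft a i * sft b i) = 1 / 4 + a i + b i + 4 * (a i * b i) := by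
    intro i
    simp only [sft]
    ring
  simp only [e, Finset.sum_add_distrib, ha, hb, Nf, sc, ← Finset.mul_sum]
  simp

/-- One term of the average over rearrangements. -/
lemma term_eq {a b : V 4} (ha : InSx 1 a) (hb : InSx 1 b) :
    Nf a b * chiE (wF a b) =
      (81 / 2) * 4 * (H2 (fun i => rt (sft a) i * rt (sft b) i)
        - H1 (fun i => rt (sft a) i * rt (sft b) i)) := by
  have hxa := sft_nonneg ha
  have hxb := sft_nonneg hb
  have hN := Nf_eq ha.1 hb.1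
  have hy : ∀ i, 0 ≤ 4 * (sft a i * sft b i) := fun i =>
    mul_nonneg (by norm_num) (mul_nonneg (hxa i) (hxb i))
  have hN0 : 0 ≤ Nf a b := by
    rw [hN]; exact Finset.sum_nonneg fun i _ => hy i
  rcases hN0.eq_or_lt with h0 | hpos
  · -- degenerate case
    have hz : ∀ i, sft a i * sft b i = 0 := by
      intro i
      have := (Finset.sum_eq_zero_iff_of_nonneg (fun i _ => hy i)).1
        (by rw [← hN]; exact h0.symm) i (Finset.mem_univ i)
      linarith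
    have hu : (fun i => rt (sft a) i * rt (sft b) i) = fun _ => (0 : ℝ) := by
      funext i
      simp only [rt]
      rw [← sixth_eq (hxa i) (hxb i), hz i]
      norm_num
    rw [hu, H1_zero, H2_zero, ← h0]
    ring
  · set N := Nf a b with hNdef
    have hw : ∀ i, sft (wF a b) i = (4 / N) * (sft a i * sft b i) := by
      intro i
      simp only [sft, wF]
      push_cast
      rw [← hNdef]
      field_simp
      ring
    have hwn : ∀ i, 0 ≤ sft (wF a b) i := by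
      intro i
      rw [hw]
      exact mul_nonneg (by positivity) (mul_nonneg (hxa i) (hxb i))
    have hr : rt (sft (wF a b)) =
        fun i => (4 / N) ^ (1 / 6 : ℝ) * (rt (sft a) i * rt (sft b) i) := by
      funext i
      simp only [rt]
      rw [hw, sixth_eq (by positivity) (mul_nonneg (hxa i) (hxb i)), sixth_eq (hxa i) (hxb i)]
    have hk : ((4 / N) ^ (1 / 6 : ℝ)) ^ 6 = 4 / N := rt_pow_six (by positivity)
    unfold chiE
    rw [h1_eq hwn, h2_eq hwn, hr, H1_smul, H2_smul, hk]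
    field_simp

/-- Average over the rearrangements of the monomials of `H1`. -/
lemma avg_H1 (s s' : V 4) :
    (1 / 24) * (perms4.map (fun f => 4 * H1 (fun i => s i * s' (f i)))).sum = H1 s * H1 s' := by
  simp only [perms4, List.map, List.sum, H1]
  simp
  ring

/-- Average over the rearrangements of the monomials of `H2`. -/
lemma avg_H2 (s s' : V 4) :
    (1 / 24) * (perms4.map (fun f => 4 * H2 (fun i => s i * s' (f i)))).sum = H2 s * H2 s' := by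
  simp only [perms4, List.map, List.sum, H2]
  simp
  ring

lemma sft_comp (b : V 4) (σ : Equiv.Perm (Fin 4)) : sft (b ∘ σ) = sft b ∘ σ := rfl

lemma InSx_comp {b : V 4} (hb : InSx 1 b) (σ : Equiv.Perm (Fin 4)) : InSx 1 (b ∘ σ) :=
  ⟨by simpa using (Equiv.sum_comp σ b).trans hb.1, fun i => hb.2 (σ i)⟩

lemma list_sum_aux {α : Type*} (L : List α) (A B : α → ℝ) (c : ℝ) :
    (L.map (fun f => c * (A f - B f))).sum = c * ((L.map A).sum - (L.map B).sum) := by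
  induction L with
  | nil => simp
  | cons x L ih =>
    simp only [List.map_cons, List.sum_cons, ih]
    ring

/-- The identity (B1). -/
theorem KK_chiE {a b : V 4} (ha : InSx 1 a) (hb : InSx 1 b) :
    KK chiE a b = h2 (sft b) * chiE a + h1 (sft a) * chiE b := by
  have hxa := sft_nonneg ha
  have hxb := sft_nonneg hb
  set s := rt (sft a) with hs
  set s' := rt (sft b) with hs'
  have e : KK chiE a b = (1 / 24) * ∑ σ : Equiv.Perm (Fin 4),
      ((81 / 2) * (4 * H2 (fun i => s i * s' (σ i)) - 4 * H1 (fun i => s i * s' (σ i)))) := by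
    have e24 : ((Nat.factorial 4 : ℕ) : ℝ) = 24 := by norm_num [Nat.factorial]
    unfold KK
    rw [e24]
    congr 1
    refine Finset.sum_congr rfl fun σ _ => ?_
    rw [term_eq ha (InSx_comp hb σ)]
    have hc : rt (sft (b ∘ σ)) = fun i => s' (σ i) := by
      funext i
      rfl
    rw [hc]
    ring
  rw [e, sum_perm_four (fun f => (81 / 2) * (4 * H2 (fun i => s i * s' (f i))
    - 4 * H1 (fun i => s i * s' (f i))))]
  have h1a := avg_H1 s s'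
  have h2a := avg_H2 s s'
  have e2 : (perms4.map (fun f => (81 / 2) * (4 * H2 (fun i => s i * s' (f i))
      - 4 * H1 (fun i => s i * s' (f i))))).sum
      = (81 / 2) * ((perms4.map (fun f => 4 * H2 (fun i => s i * s' (f i)))).sum
        - (perms4.map (fun f => 4 * H1 (fun i => s i * s' (f i)))).sum) := by
    exact list_sum_aux perms4 _ _ _
  rw [e2]
  have e3 : h2 (sft b) * chiE a + h1 (sft a) * chiE b =
      (81 / 2) * (H2 s * H2 s' - H1 s * H1 s') := by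
    unfold chiE
    rw [h1_eq hxa, h2_eq hxa, h1_eq hxb, h2_eq hxb]
    ring
  rw [e3, ← h1a, ← h2a]
  ring

/-! ### Values (B3) -/

lemma chiE_zero : chiE 0 = 0 := by
  have hx : ∀ i : Fin 4, 0 ≤ sft 0 i := fun i => by
    simp only [sft, Pi.zero_apply]; norm_num
  unfold chiE
  rw [h1_eq hx, h2_eq hx]
  have hk : (((1 : ℝ) / 4) ^ (1 / 6 : ℝ)) ^ 6 = 1 / 4 := rt_pow_six (by norm_num)
  have hr : rt (sft 0) = fun _ => ((1 : ℝ) / 4) ^ (1 / 6 : ℝ) := by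
    funext i
    simp [rt, sft]
  rw [hr]
  simp only [H1, H2]
  set k := ((1 : ℝ) / 4) ^ (1 / 6 : ℝ)
  have e : (81 / 2 : ℝ) * (1 / 3 * (k ^ 4 * (k * k + k * k + k * k) + k ^ 4 * (k * k + k * k + k * k)
      + k ^ 4 * (k * k + k * k + k * k) + k ^ 4 * (k * k + k * k + k * k))
      - 2 / 3 * (k ^ 3 * k ^ 3 + k ^ 3 * k ^ 3 + k ^ 3 * k ^ 3 + k ^ 3 * k ^ 3 + k ^ 3 * k ^ 3
        + k ^ 3 * k ^ 3)) = 0 := by
    ring
  exact e

lemma chiE_vertex (τ : Fin 4) : chiE (vertex τ) = 0 := by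
  have hv : ∀ i, sft (vertex τ) i = if i = τ then 1 else 0 := by
    intro i
    simp only [sft, vertex]
    push_cast
    ring
  have hx : ∀ i : Fin 4, 0 ≤ sft (vertex τ) i := fun i => by
    rw [hv]; split_ifs <;> norm_num
  unfold chiE
  rw [h1_eq hx, h2_eq hx]
  have hr : rt (sft (vertex τ)) = fun i => if i = τ then 1 else 0 := by
    funext i
    simp only [rt, hv]
    split_ifs
    · simp
    · rw [Real.zero_rpow (by norm_num)]
  rw [hr]
  fin_cases τ <;> simp [H1, H2]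

/-! ### The radial estimate (B2) -/

/-- Partial derivatives of `H1`. -/
def dH1 (s : V 4) : Fin 4 → ℝ :=
  ![2 * s 0 ^ 2 * (s 1 ^ 3 + s 2 ^ 3 + s 3 ^ 3),
    2 * s 1 ^ 2 * (s 0 ^ 3 + s 2 ^ 3 + s 3 ^ 3),
    2 * s 2 ^ 2 * (s 0 ^ 3 + s 1 ^ 3 + s 3 ^ 3),
    2 * s 3 ^ 2 * (s 0 ^ 3 + s 1 ^ 3 + s 2 ^ 3)]

/-- Partial derivatives of `H2`. -/
def dH2 (s : V 4) : Fin 4 → ℝ :=
  ![(1 / 3) * (4 * s 0 ^ 3 * (s 1 * s 2 + s 1 * s 3 + s 2 * s 3) + s 1 ^ 4 * (s 2 + s 3)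
      + s 2 ^ 4 * (s 1 + s 3) + s 3 ^ 4 * (s 1 + s 2)),
    (1 / 3) * (4 * s 1 ^ 3 * (s 0 * s 2 + s 0 * s 3 + s 2 * s 3) + s 0 ^ 4 * (s 2 + s 3)
      + s 2 ^ 4 * (s 0 + s 3) + s 3 ^ 4 * (s 0 + s 2)),
    (1 / 3) * (4 * s 2 ^ 3 * (s 0 * s 1 + s 0 * s 3 + s 1 * s 3) + s 0 ^ 4 * (s 1 + s 3)
      + s 1 ^ 4 * (s 0 + s 3) + s 3 ^ 4 * (s 0 + s 1)),
    (1 / 3) * (4 * s 3 ^ 3 * (s 0 * s 1 + s 0 * s 2 + s 1 * s 2) + s 0 ^ 4 * (s 1 + s 2)
      + s 1 ^ 4 * (s 0 + s 2) + s 2 ^ 4 * (s 0 + s 1))]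

/-- Partial derivatives of `PP`. -/
def dPP (s : V 4) (i : Fin 4) : ℝ := (81 / 2) * (dH2 s i - dH1 s i)

/-- The polynomial whose nonnegativity gives the radial estimate, homogeneous of degree `26`. -/
def FF (s : V 4) : ℝ :=
  2 * PP s * (s 0 * s 1 * s 2 * s 3) ^ 5 +
    (1 / 24) * (s 0 ^ 6 + s 1 ^ 6 + s 2 ^ 6 + s 3 ^ 6) *
      (dPP s 0 * (s 1 * s 2 * s 3) ^ 5 + dPP s 1 * (s 0 * s 2 * s 3) ^ 5
        + dPP s 2 * (s 0 * s 1 * s 3) ^ 5 + dPP s 3 * (s 0 * s 1 * s 2) ^ 5)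

/-- Euler's identity. -/
lemma euler_PP (s : V 4) :
    s 0 * dPP s 0 + s 1 * dPP s 1 + s 2 * dPP s 2 + s 3 * dPP s 3 = 6 * PP s := by
  simp [dPP, dH1, dH2, PP, H1, H2]
  ring

/-- The chain rule for `PP` along a curve. -/
lemma hasDerivAt_PP {f : Fin 4 → ℝ → ℝ} {d : Fin 4 → ℝ} {l : ℝ}
    (hf : ∀ i, HasDerivAt (f i) (d i) l) :
    HasDerivAt (fun y => PP (fun i => f i y))
      (dPP (fun i => f i l) 0 * d 0 + dPP (fun i => f i l) 1 * d 1
        + dPP (fun i => f i l) 2 * d 2 + dPP (fun i => f i l) 3 * d 3) l := by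
  have h0 := hf 0
  have h1 := hf 1
  have h2 := hf 2
  have h3 := hf 3
  have mono2 : ∀ {i j : Fin 4}, HasDerivAt (fun y => f i y ^ 3 * f j y ^ 3)
      (3 * f i l ^ 2 * d i * f j l ^ 3 + f i l ^ 3 * (3 * f j l ^ 2 * d j)) l := by
    intro i j
    exact (((hf i).fun_pow 3).fun_mul ((hf j).fun_pow 3)).congr_deriv (by norm_num)
  have mono3 : ∀ {a b c : Fin 4}, HasDerivAt (fun y => f a y ^ 4 * (f b y * f c y))
      (4 * f a l ^ 3 * d a * (f b l * f c l) + f a l ^ 4 * (d b * f c l + f b l * d c)) l := by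
    intro a b c
    exact (((hf a).fun_pow 4).fun_mul ((hf b).fun_mul (hf c))).congr_deriv (by norm_num)
  have hH1 := ((((((mono2 (i := 0) (j := 1)).fun_add (mono2 (i := 0) (j := 2))).fun_add
    (mono2 (i := 0) (j := 3))).fun_add (mono2 (i := 1) (j := 2))).fun_add
    (mono2 (i := 1) (j := 3))).fun_add (mono2 (i := 2) (j := 3))).const_mul (2 / 3 : ℝ)
  have hH2 := ((((((((((((mono3 (a := 0) (b := 1) (c := 2)).fun_add (mono3 (a := 0) (b := 1) (c := 3))).fun_add (mono3 (a := 0) (b := 2) (c := 3))).fun_add (mono3 (a := 1) (b := 0) (c := 2))).fun_add (mono3 (a := 1) (b := 0) (c := 3))).fun_add (mono3 (a := 1) (b := 2) (c := 3))).fun_add (mono3 (a := 2) (b := 0) (c := 1))).fun_add (mono3 (a := 2) (b := 0) (c := 3))).fun_add (mono3 (a := 2) (b := 1) (c := 3))).fun_add (mono3 (a := 3) (b := 0) (c := 1))).fun_add (mono3 (a := 3) (b := 0) (c := 2))).fun_add (mono3 (a := 3) (b := 1) (c := 2))).const_mul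 (1 / 3 : ℝ)
  have h := (hH2.fun_sub hH1).const_mul (81 / 2 : ℝ)
  have e : (fun y => PP (fun i => f i y)) = fun y => (81 / 2 : ℝ) * ((1 / 3 : ℝ) *
      (f 0 y ^ 4 * (f 1 y * f 2 y) + f 0 y ^ 4 * (f 1 y * f 3 y) + f 0 y ^ 4 * (f 2 y * f 3 y)
      + f 1 y ^ 4 * (f 0 y * f 2 y) + f 1 y ^ 4 * (f 0 y * f 3 y) + f 1 y ^ 4 * (f 2 y * f 3 y)
      + f 2 y ^ 4 * (f 0 y * f 1 y) + f 2 y ^ 4 * (f 0 y * f 3 y) + f 2 y ^ 4 * (f 1 y * f 3 y)
      + f 3 y ^ 4 * (f 0 y * f 1 y) + f 3 y ^ 4 * (f 0 y * f 2 y) + f 3 y ^ 4 * (f 1 y * f 2 y))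
      - (2 / 3 : ℝ) * (f 0 y ^ 3 * f 1 y ^ 3 + f 0 y ^ 3 * f 2 y ^ 3 + f 0 y ^ 3 * f 3 y ^ 3
        + f 1 y ^ 3 * f 2 y ^ 3 + f 1 y ^ 3 * f 3 y ^ 3 + f 2 y ^ 3 * f 3 y ^ 3)) := by
    funext y
    simp only [PP, H1, H2]
    ring
  rw [e]
  refine h.congr_deriv ?_
  simp only [dPP, dH1, dH2, Matrix.cons_val_zero, Matrix.cons_val_one, Matrix.cons_val]
  ring

/-- The sixth root along the ray. -/
lemma hasDerivAt_root {c : V 4} {l : ℝ} (i : Fin 4) (hx : 0 < 1 / 4 + l * c i) :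
    HasDerivAt (fun y => (1 / 4 + y * c i) ^ (1 / 6 : ℝ))
      (c i / (6 * ((1 / 4 + l * c i) ^ (1 / 6 : ℝ)) ^ 5)) l := by
  have h1 : HasDerivAt (fun y : ℝ => 1 / 4 + y * c i) (c i) l := by
    simpa using ((hasDerivAt_id l).mul_const (c i)).const_add (1 / 4 : ℝ)
  have h := h1.rpow_const (p := (1 / 6 : ℝ)) (Or.inl hx.ne')
  convert h using 1
  set t := 1 / 4 + l * c i with ht
  set r := t ^ (1 / 6 : ℝ) with hr
  have hr0 : 0 < r := Real.rpow_pos_of_pos hx _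
  have hr6 : r ^ 6 = t := rt_pow_six hx.le
  have e : t ^ ((1 : ℝ) / 6 - 1) = r / t := Real.rpow_sub_one hx.ne' _
  rw [e, ← hr6]
  field_simp

/-- The function along the ray. -/
def psiR (c : V 4) (l : ℝ) : ℝ := PP (rt (sft (l • c)))

lemma chiE_smul_eq {c : V 4} (hc : InSx 1 c) {l : ℝ} (h0 : 0 ≤ l) (h1 : l ≤ 1) :
    chiE (l • c) = psiR c l := by
  have hx : ∀ i, 0 ≤ sft (l • c) i := by
    intro i
    have h2 := hc.2 i
    norm_num at h2
    simp only [sft, Pi.smul_apply, smul_eq_mul]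
    nlinarith
  unfold chiE psiR PP
  rw [h1_eq hx, h2_eq hx]

lemma continuous_psiR (c : V 4) : Continuous (psiR c) := by
  have hr : ∀ i, Continuous fun l : ℝ => rt (sft (l • c)) i := by
    intro i
    simp only [rt, sft, Pi.smul_apply, smul_eq_mul]
    exact Continuous.rpow_const (by fun_prop) (fun _ => Or.inr (by norm_num))
  have h0 := hr 0
  have h1 := hr 1
  have h2 := hr 2
  have h3 := hr 3
  show Continuous fun l : ℝ => PP (rt (sft (l • c)))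
  simp only [PP, H1, H2]
  fun_prop

/-- The key differential inequality. -/
lemma deriv_ineq (hF : ∀ s : V 4, (∀ i, 0 < s i) → 0 ≤ FF s) {c : V 4} (hc : InSx 1 c) {l : ℝ}
    (h0 : 0 < l) (h1 : l < 1) :
    ∃ D : ℝ, HasDerivAt (psiR c) D l ∧ l * D ≤ 3 * psiR c l := by
  have hx : ∀ i, 0 < 1 / 4 + l * c i := by
    intro i
    have h2 := hc.2 i
    norm_num at h2
    nlinarith
  set s : V 4 := fun i => (1 / 4 + l * c i) ^ (1 / 6 : ℝ) with hs
  have hs0 : ∀ i, 0 < s i := fun i => Real.rpow_pos_of_pos (hx i) _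
  have hs6 : ∀ i, s i ^ 6 = 1 / 4 + l * c i := fun i => rt_pow_six (hx i).le
  have hsum : s 0 ^ 6 + s 1 ^ 6 + s 2 ^ 6 + s 3 ^ 6 = 1 := by
    rw [hs6, hs6, hs6, hs6]
    have := hc.1
    simp only [Fin.sum_univ_four] at this
    have e : 1 / 4 + l * c 0 + (1 / 4 + l * c 1) + (1 / 4 + l * c 2) + (1 / 4 + l * c 3)
        = 1 + l * (c 0 + c 1 + c 2 + c 3) := by ring
    rw [e, this]
    ring
  have hd := hasDerivAt_PP (f := fun i y => (1 / 4 + y * c i) ^ (1 / 6 : ℝ))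
    (d := fun i => c i / (6 * s i ^ 5)) (l := l) (fun i => hasDerivAt_root i (hx i))
  have he : psiR c = fun y => PP (fun i => (1 / 4 + y * c i) ^ (1 / 6 : ℝ)) := by
    funext y
    rfl
  have hv : psiR c l = PP s := by
    rw [he]
  refine ⟨_, he ▸ hd, ?_⟩
  rw [hv]
  change l * (dPP s 0 * (c 0 / (6 * s 0 ^ 5)) + dPP s 1 * (c 1 / (6 * s 1 ^ 5))
    + dPP s 2 * (c 2 / (6 * s 2 ^ 5)) + dPP s 3 * (c 3 / (6 * s 3 ^ 5))) ≤ 3 * PP s
  have hFs := hF s hs0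
  have hP : 0 < (s 0 * s 1 * s 2 * s 3) ^ 5 := by
    have h0 := hs0 0
    have h1 := hs0 1
    have h2 := hs0 2
    have h3 := hs0 3
    positivity
  have hlc : ∀ i, l * c i = s i ^ 6 - 1 / 4 := fun i => by rw [hs6]; ring
  have key : (3 * PP s - l * (dPP s 0 * (c 0 / (6 * s 0 ^ 5)) + dPP s 1 * (c 1 / (6 * s 1 ^ 5))
      + dPP s 2 * (c 2 / (6 * s 2 ^ 5)) + dPP s 3 * (c 3 / (6 * s 3 ^ 5))))
        * (s 0 * s 1 * s 2 * s 3) ^ 5 = FF s := by
    have e : ∀ i, l * (dPP s i * (c i / (6 * s i ^ 5))) =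
        (1 / 6) * (s i * dPP s i) - (1 / 24) * (dPP s i / s i ^ 5) := by
      intro i
      have h6 : s i ≠ 0 := (hs0 i).ne'
      have : l * (dPP s i * (c i / (6 * s i ^ 5))) = dPP s i * ((l * c i) / (6 * s i ^ 5)) := by
        ring
      rw [this, hlc]
      field_simp
      ring
    have e2 : l * (dPP s 0 * (c 0 / (6 * s 0 ^ 5)) + dPP s 1 * (c 1 / (6 * s 1 ^ 5))
      + dPP s 2 * (c 2 / (6 * s 2 ^ 5)) + dPP s 3 * (c 3 / (6 * s 3 ^ 5))) =
        (1 / 6) * (s 0 * dPP s 0 + s 1 * dPP s 1 + s 2 * dPP s 2 + s 3 * dPP s 3)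
        - (1 / 24) * (dPP s 0 / s 0 ^ 5 + dPP s 1 / s 1 ^ 5 + dPP s 2 / s 2 ^ 5
          + dPP s 3 / s 3 ^ 5) := by
      rw [mul_add, mul_add, mul_add, e, e, e, e]
      ring
    rw [e2, euler_PP]
    unfold FF
    rw [hsum]
    have h0 := (hs0 0).ne'
    have h1 := (hs0 1).ne'
    have h2 := (hs0 2).ne'
    have h3 := (hs0 3).ne'
    field_simp
    ring
  have hle : 0 ≤ (3 * PP s - l * (dPP s 0 * (c 0 / (6 * s 0 ^ 5)) + dPP s 1 * (c 1 / (6 * s 1 ^ 5))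
      + dPP s 2 * (c 2 / (6 * s 2 ^ 5)) + dPP s 3 * (c 3 / (6 * s 3 ^ 5)))) := by
    by_contra hneg
    push Not at hneg
    have := mul_neg_of_neg_of_pos hneg hP
    rw [key] at this
    linarith
  linarith

/-- The radial estimate (B2), given the polynomial inequality. -/
theorem chiE_radial (hF : ∀ s : V 4, (∀ i, 0 < s i) → 0 ≤ FF s) {c : V 4} (hc : InSx 1 c)
    {lam : ℝ} (h0 : 0 ≤ lam) (h1 : lam ≤ 1) : lam ^ 3 * chiE c ≤ chiE (lam • c) := by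
  rcases h0.eq_or_lt with rfl | hpos
  · simp [chiE_zero]
  have e1 : chiE c = psiR c 1 := by
    have := chiE_smul_eq hc (l := 1) (by norm_num) le_rfl
    simpa using this
  rw [e1, chiE_smul_eq hc h0 h1]
  rcases h1.eq_or_lt with rfl | hlt
  · simp
  -- antitone quotient
  have hanti : AntitoneOn (fun l => psiR c l / l ^ 3) (Set.Icc lam 1) := by
    apply antitoneOn_of_deriv_nonpos (convex_Icc lam 1)
    · apply ContinuousOn.div ((continuous_psiR c).continuousOn) (by fun_prop)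
      intro x hx
      have : 0 < x := lt_of_lt_of_le hpos hx.1
      positivity
    · intro x hx
      rw [interior_Icc] at hx
      have hx0 : 0 < x := hpos.trans hx.1
      obtain ⟨D, hD, _⟩ := deriv_ineq hF hc hx0 hx.2
      exact (hD.div (hasDerivAt_pow 3 x) (by positivity)).differentiableAt.differentiableWithinAt
    · intro x hx
      rw [interior_Icc] at hx
      have hx0 : 0 < x := hpos.trans hx.1
      obtain ⟨D, hD, hle⟩ := deriv_ineq hF hc hx0 hx.2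
      have hd := hD.div (hasDerivAt_pow 3 x) (by positivity)
      have e : deriv (fun l => psiR c l / l ^ 3) x = _ := hd.deriv
      rw [e]
      apply div_nonpos_of_nonpos_of_nonneg _ (by positivity)
      norm_num
      nlinarith [pow_pos hx0 2]
  have hmem1 : (1 : ℝ) ∈ Set.Icc lam 1 := ⟨h1, le_rfl⟩
  have hmem2 : lam ∈ Set.Icc lam 1 := ⟨le_rfl, h1⟩
  have h := hanti hmem2 hmem1 h1
  simp only [one_pow, div_one] at h
  rw [le_div_iff₀ (by positivity)] at h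
  linarith

end

end Vale.Agent.Lib.P154R
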