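import Vale.Agent.Lib.P154R.Assemble
import Vale.Agent.Lib.P154R.Mellin

/-!
# The polynomial upper bound of the Mellin invariant
-/

open Finset

namespace Vale.Agent.Lib.P154R

open Ex Vale.Agent.Lib.P154Q

noncomputable section

/-- The sum of the sixth powers. -/
def s6E (s : Fin 4 → Ex) : Ex := .add (.add (.add (.pow (s 0) 6) (.pow (s 1) 6)) (.pow (s 2) 6)) (.pow (s 3) 6)

/-- The centred coordinates. -/
def uX (s : Fin 4 → Ex) (i : Fin 4) : Ex := .sub (.mul (.c 4) (.pow (s i) 6)) (s6E s)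

/-- The power sums of the centred coordinates. -/
def pwX (s : Fin 4 → Ex) (e : ℕ) : Ex :=
  .add (.add (.add (.pow (uX s 0) e) (.pow (uX s 1) e)) (.pow (uX s 2) e)) (.pow (uX s 3) e)

/-- The first symmetric function of the invariant. -/
def h1X (s : Fin 4 → Ex) : Ex :=
  .add (.add (.add (.add (.add (.mul (.pow (s 0) 3) (.pow (s 1) 3)) (.mul (.pow (s 0) 3) (.pow (s 2) 3)))
    (.mul (.pow (s 0) 3) (.pow (s 3) 3))) (.mul (.pow (s 1) 3) (.pow (s 2) 3))) (.mul (.pow (s 1) 3) (.pow (s 3) 3)))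
    (.mul (.pow (s 2) 3) (.pow (s 3) 3))

/-- The second symmetric function of the invariant. -/
def h2X (s : Fin 4 → Ex) : Ex :=
  .add (.add (.add
    (.mul (.pow (s 0) 4) (.add (.add (.mul (s 1) (s 2)) (.mul (s 1) (s 3))) (.mul (s 2) (s 3))))
    (.mul (.pow (s 1) 4) (.add (.add (.mul (s 0) (s 2)) (.mul (s 0) (s 3))) (.mul (s 2) (s 3)))))
    (.mul (.pow (s 2) 4) (.add (.add (.mul (s 0) (s 1)) (.mul (s 0) (s 3))) (.mul (s 1) (s 3)))))
    (.mul (.pow (s 3) 4) (.add (.add (.mul (s 0) (s 1)) (.mul (s 0) (s 2))) (.mul (s 1) (s 2))))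

/-- `64000 (X - χ)`, homogenized. -/
def hX (s : Fin 4 → Ex) : Ex :=
  .sub (.add (.sub (.sub (.add (.sub (.add
    (.mul (.mul (.c 16000) (pwX s 3)) (.pow (s6E s) 3))
    (.mul (.mul (.c 2080) (.pow (pwX s 2) 2)) (.pow (s6E s) 2)))
    (.mul (.mul (.c 13152) (pwX s 4)) (.pow (s6E s) 2)))
    (.mul (.mul (.mul (.c 3512) (pwX s 2)) (pwX s 3)) (s6E s)))
    (.mul (.c 649) (.pow (pwX s 2) 3)))
    (.mul (.c 172) (.pow (pwX s 3) 2)))
    (.mul (.mul (.c 764) (pwX s 2)) (pwX s 4)))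
    (.mul (.sub (.mul (.c 864000) (h2X s)) (.mul (.c 1728000) (h1X s))) (.pow (s6E s) 5))

/-- The variables. -/
def vX : Fin 4 → Ex := fun i => .v i

/-- The real function. -/
def hR (t : Fin 4 → ℝ) : ℝ := (hX vX).val t

lemma hX_val (s : Fin 4 → Ex) (v : Fin 4 → ℝ) : (hX s).val v = hR (fun i => (s i).val v) := by
  simp only [hR, hX, pwX, uX, s6E, h1X, h2X, vX, Ex.val]

/-- The first chart. -/
def xL1 : Fin 4 → Ex := ![.add (.add (.add (.mul (.c 2) (.v 0)) (.v 1)) (.v 2)) (.v 3), .add (.add (.v 0) (.v 1)) (.v 2),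
  .add (.v 0) (.v 1), .v 0]
/-- The second chart. -/
def xL2 : Fin 4 → Ex := ![.add (.add (.add (.v 0) (.v 1)) (.mul (.c 2) (.v 2))) (.mul (.c 2) (.v 3)),
  .add (.add (.add (.v 0) (.v 1)) (.mul (.c 2) (.v 2))) (.v 3), .add (.add (.add (.v 0) (.v 1)) (.v 2)) (.v 3),
  .add (.add (.v 0) (.v 2)) (.v 3)]
/-- The third chart. -/
def xL3 : Fin 4 → Ex := ![.add (.add (.add (.mul (.c 2) (.v 0)) (.v 1)) (.v 2)) (.mul (.c 2) (.v 3)),
  .add (.add (.add (.mul (.c 2) (.v 0)) (.v 1)) (.v 2)) (.v 3), .add (.add (.v 0) (.v 1)) (.v 3), .add (.v 0) (.v 3)]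

/-- Each nonnegative chart point lies in one of the three charts. -/
lemma leaves (h1 : ∀ v : Fin 4 → ℝ, (∀ i, 0 ≤ v i) → 0 ≤ (hX xL1).val v)
    (h2 : ∀ v : Fin 4 → ℝ, (∀ i, 0 ≤ v i) → 0 ≤ (hX xL2).val v)
    (h3 : ∀ v : Fin 4 → ℝ, (∀ i, 0 ≤ v i) → 0 ≤ (hX xL3).val v) (r : Fin 4 → ℝ) (hr : ∀ i, 0 ≤ r i) :
    0 ≤ hR (fun i => (xE i).val r) := by
  have h0 := hr 0
  have h1' := hr 1
  have h2' := hr 2
  have h3' := hr 3
  rcases le_total (r 0) (r 3) with c1 | c1
  · -- first chart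
    have := h1 ![r 0, r 1, r 2, r 3 - r 0] (fun i => by
      fin_cases i
      · simpa using h0
      · simpa using h1'
      · simpa using h2'
      · simpa using c1)
    rw [hX_val] at this
    convert this using 2
    funext i
    fin_cases i
    · simp [xL1, xE_val_zero, Ex.val]
      ring
    · simp [xL1, xE_val_one, Ex.val]
    · show (xE 2).val r = (xL1 2).val _
      rw [xE_val_two]
      simp [xL1, Ex.val]
    · show (xE 3).val r = (xL1 3).val _
      rw [xE_val_three]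
      simp [xL1, Ex.val]
  rcases le_total (r 2) (r 0 - r 3) with c2 | c2
  · -- second chart
    have := h2 ![r 0 - r 3 - r 2, r 1, r 2, r 3] (fun i => by
      fin_cases i
      · simpa using c2
      · simpa using h1'
      · simpa using h2'
      · simpa using h3')
    rw [hX_val] at this
    convert this using 2
    funext i
    fin_cases i
    · simp [xL2, xE_val_zero, Ex.val]
      ring
    · simp [xL2, xE_val_one, Ex.val]
      ring
    · show (xE 2).val r = (xL2 2).val _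
      rw [xE_val_two]
      simp [xL2, Ex.val]
      ring
    · show (xE 3).val r = (xL2 3).val _
      rw [xE_val_three]
      simp [xL2, Ex.val]
  · -- third chart
    have := h3 ![r 0 - r 3, r 1, r 2 - (r 0 - r 3), r 3] (fun i => by
      fin_cases i
      · simpa using c1
      · simpa using h1'
      · simpa using c2
      · simpa using h3')
    rw [hX_val] at this
    convert this using 2
    funext i
    fin_cases i
    · simp [xL3, xE_val_zero, Ex.val]
      ring
    · simp [xL3, xE_val_one, Ex.val]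
      ring
    · show (xE 2).val r = (xL3 2).val _
      rw [xE_val_two]
      simp [xL3, Ex.val]
      ring
    · show (xE 3).val r = (xL3 3).val _
      rw [xE_val_three]
      simp [xL3, Ex.val]

/-- The invariant is symmetric, through the sums over the permutations. -/
lemma H1_eq_mu (s : V 4) : H1 s = (1 / 6) * muV ![3, 3, 0, 0] s := by
  simp only [muV, H1]
  rw [sum_perm_four (fun τ : Fin 4 → Fin 4 => ∏ i, s (τ i) ^ (![3, 3, 0, 0] : Fin 4 → ℕ) i)]
  simp [perms4, Fin.prod_univ_four]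
  ring

lemma H2_eq_mu (s : V 4) : H2 s = (1 / 6) * muV ![4, 1, 1, 0] s := by
  simp only [muV, H2]
  rw [sum_perm_four (fun τ : Fin 4 → Fin 4 => ∏ i, s (τ i) ^ (![4, 1, 1, 0] : Fin 4 → ℕ) i)]
  simp [perms4, Fin.prod_univ_four]
  ring

lemma PP_comp (s : V 4) (π : Equiv.Perm (Fin 4)) : PP (s ∘ π) = PP s := by
  simp only [PP, H1_eq_mu, H2_eq_mu, muV_comp]

/-- The value of the homogenized polynomial on the sphere of sixth powers. -/
lemma hR_eq {c t : V 4} (hs : ∑ i, c i = 0) (ht : ∀ i, t i ^ 6 = 1 / 4 + c i) :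
    hR t = 64000 * (Xf c - PP t) := by
  simp only [Fin.sum_univ_four] at hs
  have hS : t 0 ^ 6 + t 1 ^ 6 + t 2 ^ 6 + t 3 ^ 6 = 1 := by
    rw [ht 0, ht 1, ht 2, ht 3]
    linarith
  simp only [hR, hX, pwX, uX, s6E, h1X, h2X, vX, Ex.val, hS]
  simp only [ht]
  simp only [Xf, PP, H1, H2, rhoF, tauF, kapF, Fin.sum_univ_four]
  push_cast
  ring

end

end Vale.Agent.Lib.P154R
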