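import Vale.Agent.Lib.P154R.Polys

/-!
# The one point bounds

For a merge with weights `y i ≥ 0` of total mass `N`, the value `N * f (y / N - 1 / 4)` is a function of
`N` and of the elementary symmetric functions of `y`, with inverse powers of `N`.  The inverse powers are
bounded by polynomials.
-/

namespace Vale.Agent.Lib.P154R

open Finset

noncomputable section

/-- The total mass. -/
def nY (y : Fin 4 → ℝ) : ℝ := y 0 + y 1 + y 2 + y 3
/-- The second elementary symmetric function. -/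
def e2Y (y : Fin 4 → ℝ) : ℝ := y 0 * y 1 + y 0 * y 2 + y 0 * y 3 + y 1 * y 2 + y 1 * y 3 + y 2 * y 3
/-- The third elementary symmetric function. -/
def e3Y (y : Fin 4 → ℝ) : ℝ := y 0 * y 1 * y 2 + y 0 * y 1 * y 3 + y 0 * y 2 * y 3 + y 1 * y 2 * y 3

/-- The centred normalisation. -/
def wY (y : Fin 4 → ℝ) : Fin 4 → ℝ := fun i => y i / nY y - 1 / 4

lemma rho_wY {y : Fin 4 → ℝ} (h : nY y ≠ 0) : rhoF (wY y) = 3 - 8 * e2Y y / nY y ^ 2 := by
  simp only [rhoF, Fin.sum_univ_four, wY, e2Y]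
  simp only [nY] at h ⊢
  field_simp
  ring

lemma tau_wY {y : Fin 4 → ℝ} (h : nY y ≠ 0) :
    tauF (wY y) = 6 - 24 * e2Y y / nY y ^ 2 + 48 * e3Y y / nY y ^ 3 := by
  simp only [tauF, Fin.sum_univ_four, wY, e2Y, e3Y]
  simp only [nY] at h ⊢
  field_simp
  ring

lemma e2Y_nonneg {y : Fin 4 → ℝ} (hy : ∀ i, 0 ≤ y i) : 0 ≤ e2Y y := by
  have h0 := hy 0; have h1 := hy 1; have h2 := hy 2; have h3 := hy 3
  simp only [e2Y]
  positivity

lemma e3Y_nonneg {y : Fin 4 → ℝ} (hy : ∀ i, 0 ≤ y i) : 0 ≤ e3Y y := by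
  have h0 := hy 0; have h1 := hy 1; have h2 := hy 2; have h3 := hy 3
  simp only [e3Y]
  positivity

lemma nY_nonneg {y : Fin 4 → ℝ} (hy : ∀ i, 0 ≤ y i) : 0 ≤ nY y := by
  have h0 := hy 0; have h1 := hy 1; have h2 := hy 2; have h3 := hy 3
  simp only [nY]
  positivity

lemma zero_of_nY {y : Fin 4 → ℝ} (hy : ∀ i, 0 ≤ y i) (h : nY y = 0) : e2Y y = 0 ∧ e3Y y = 0 := by
  have h0 := hy 0; have h1 := hy 1; have h2 := hy 2; have h3 := hy 3
  simp only [nY] at h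
  have e0 : y 0 = 0 := by linarith
  have e1 : y 1 = 0 := by linarith
  have e2 : y 2 = 0 := by linarith
  have e3 : y 3 = 0 := by linarith
  simp [e2Y, e3Y, e0, e1, e2, e3]

lemma e2Y_le (y : Fin 4 → ℝ) : e2Y y ≤ 3 / 8 * nY y ^ 2 := by
  simp only [e2Y, nY]
  nlinarith [sq_nonneg (y 0 - y 1), sq_nonneg (y 0 - y 2), sq_nonneg (y 0 - y 3), sq_nonneg (y 1 - y 2),
    sq_nonneg (y 1 - y 3), sq_nonneg (y 2 - y 3)]

/-! ### The bound for the potential -/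

/-- The polynomial below `1 / N`. -/
def QM (N : ℝ) : ℝ :=
  1 - (N - 1) + (N - 1) ^ 2 - (N - 1) ^ 3 + (N - 1) ^ 4 * (853 / 1000 - 189 / 1000 * N)

lemma QM_le {N : ℝ} (h : 0 < N) : QM N ≤ 1 / N := by
  have e : 1 / N - QM N = (N - 1) ^ 4 * ((1 - 853 / 1000 * N + 189 / 1000 * N ^ 2) / N) := by
    simp only [QM]
    field_simp
    ring
  have h2 : 0 ≤ 1 - 853 / 1000 * N + 189 / 1000 * N ^ 2 := by nlinarith [sq_nonneg (N - 2)]
  have h3 : 0 ≤ (N - 1) ^ 4 * ((1 - 853 / 1000 * N + 189 / 1000 * N ^ 2) / N) :=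
    mul_nonneg (by positivity) (div_nonneg h2 h.le)
  linarith

/-- The bound for the potential. -/
def PMv (y : Fin 4 → ℝ) : ℝ := 3 * nY y - 8 * (e2Y y * QM (nY y))

/-- The one point bound for the potential. -/
theorem onept_M {y : Fin 4 → ℝ} (hy : ∀ i, 0 ≤ y i) : nY y * rhoF (wY y) ≤ PMv y := by
  rcases (nY_nonneg hy).eq_or_lt with h0 | h0
  · have := (zero_of_nY hy h0.symm).1
    simp [PMv, ← h0, this]
  · rw [rho_wY h0.ne']
    have h1 := QM_le h0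
    have h2 := mul_le_mul_of_nonneg_left h1 (e2Y_nonneg hy)
    have e : nY y * (3 - 8 * e2Y y / nY y ^ 2) = 3 * nY y - 8 * (e2Y y * (1 / nY y)) := by
      field_simp
    rw [e]
    simp only [PMv]
    linarith

/-! ### The bound for the invariant -/

/-- The invariant. -/
def chiP (c : Fin 4 → ℝ) : ℝ := tauF c - 14 / 25 * rhoF c ^ 2

/-- The bound for the invariant. -/
def PIv (y : Fin 4 → ℝ) : ℝ :=
  let N := nY y
  let d := N - 1
  24 / 25 * N + 72 / 25 * (e2Y y * (1 - d + d ^ 2 * L1r N))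
    + 48 * (e3Y y * (1 - 2 * d + d ^ 2 * L2r N))
    - 896 / 25 * (e2Y y ^ 2 * (1 - 3 * d) + d ^ 2 * (e2Y y ^ 2 * Ar N + e2Y y * Br N + Cr N))

/-- A quadratic on an interval, from its Bernstein coefficients. -/
lemma quad_nonneg {a b c E x : ℝ} (hE : 0 < E) (h0 : 0 ≤ c) (h1 : 0 ≤ c + E * b / 2)
    (h2 : 0 ≤ c + E * b + E ^ 2 * a) (hx0 : 0 ≤ x) (hx1 : x ≤ E) : 0 ≤ a * x ^ 2 + b * x + c := by
  have e : E ^ 2 * (a * x ^ 2 + b * x + c) =
      (E - x) ^ 2 * c + 2 * x * (E - x) * (c + E * b / 2) + x ^ 2 * (c + E * b + E ^ 2 * a) := by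
    ring
  have h3 : 0 ≤ E ^ 2 * (a * x ^ 2 + b * x + c) := by
    rw [e]
    have h5 : 0 ≤ E - x := by linarith
    positivity
  exact nonneg_of_mul_nonneg_right h3 (by positivity)

/-- The bound on the square of the second symmetric function. -/
lemma e2_bound {N e : ℝ} (hN : 0 < N) (hN4 : N ≤ 4) (he0 : 0 ≤ e) (he1 : e ≤ 3 / 8 * N ^ 2)
    (he2 : e ≤ (4 - N) ^ 2 / 4) :
    e ^ 2 * ((1 + 2 * N + 3 * N ^ 2) / N ^ 3) ≤ e ^ 2 * Ar N + e * Br N + Cr N := by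
  have key : 0 ≤ (Ar N - (1 + 2 * N + 3 * N ^ 2) / N ^ 3) * e ^ 2 + Br N * e + Cr N := by
    rcases le_total N (9 / 5) with h | h
    · refine quad_nonneg (E := 3 / 8 * N ^ 2) (by positivity) (b_I0 N hN.le h) ?_ ?_ he0 he1
      · have := b_I1 N hN.le h
        have e1 : Cr N + 3 / 8 * N ^ 2 * Br N / 2 = Cr N + 3 / 16 * N ^ 2 * Br N := by ring
        rw [e1]
        exact this
      · have := b_I2 N hN.le h
        have e1 : Cr N + 3 / 8 * N ^ 2 * Br N + (3 / 8 * N ^ 2) ^ 2 * (Ar N - (1 + 2 * N + 3 * N ^ 2) / N ^ 3)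
            = Cr N + 3 / 8 * N ^ 2 * Br N + 9 / 64 * (N ^ 4 * Ar N - N - 2 * N ^ 2 - 3 * N ^ 3) := by
          field_simp
          ring
        rw [e1]
        exact this
    · rcases hN4.eq_or_lt with h4 | h4
      · -- N = 4: the second symmetric function vanishes
        have h5 : e = 0 := by
          apply le_antisymm _ he0
          rw [h4] at he2
          simpa using he2
        rw [h5]
        have := b_II0 N h hN4
        simpa using this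
      · have hE : 0 < (4 - N) ^ 2 / 4 := by
          have : 0 < 4 - N := by linarith
          positivity
        refine quad_nonneg (E := (4 - N) ^ 2 / 4) hE (b_II0 N h hN4) ?_ ?_ he0 he2
        · have := b_II1 N h hN4
          have e1 : Cr N + (4 - N) ^ 2 / 4 * Br N / 2 = Cr N + (4 - N) ^ 2 / 8 * Br N := by ring
          rw [e1]
          exact this
        · have := b_II2 N h hN4
          have e1 : Cr N + (4 - N) ^ 2 / 4 * Br N + ((4 - N) ^ 2 / 4) ^ 2 * (Ar N - (1 + 2 * N + 3 * N ^ 2) / N ^ 3)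
              = (N ^ 3 * Cr N + N ^ 3 * (4 - N) ^ 2 / 4 * Br N + N ^ 3 * (4 - N) ^ 4 / 16 * Ar N
                  - (4 - N) ^ 4 * (1 + 2 * N + 3 * N ^ 2) / 16) / N ^ 3 := by
            field_simp
            ring
          rw [e1]
          exact div_nonneg this (by positivity)
  have e3 : (Ar N - (1 + 2 * N + 3 * N ^ 2) / N ^ 3) * e ^ 2 + Br N * e + Cr N =
      e ^ 2 * Ar N + e * Br N + Cr N - e ^ 2 * ((1 + 2 * N + 3 * N ^ 2) / N ^ 3) := by ring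
  rw [e3] at key
  linarith

/-- The one point bound for the invariant. -/
theorem onept_I {y : Fin 4 → ℝ} (hy : ∀ i, 0 ≤ y i) (hN4 : nY y ≤ 4) (he2 : e2Y y ≤ (4 - nY y) ^ 2 / 4) :
    PIv y ≤ nY y * chiP (wY y) := by
  rcases (nY_nonneg hy).eq_or_lt with h0 | h0
  · obtain ⟨h2, h3⟩ := zero_of_nY hy h0.symm
    have hC := b_I0 0 le_rfl (by norm_num)
    simp only [PIv, ← h0, h2, h3]
    norm_num
    linarith
  · have hr := rho_wY h0.ne'
    have ht := tau_wY h0.ne'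
    set N := nY y with hN
    set e := e2Y y with he
    set f := e3Y y with hf
    have he0 : 0 ≤ e := e2Y_nonneg hy
    have hf0 : 0 ≤ f := e3Y_nonneg hy
    have hne : N ≠ 0 := h0.ne'
    have h1 := b_L1 N h0.le hN4
    have h2 := b_L2 N h0.le hN4
    have h3 := e2_bound h0 hN4 he0 (e2Y_le y) he2
    -- the exact value
    have e0 : N * chiP (wY y) = 24 / 25 * N + 72 / 25 * (e / N) + 48 * (f / N ^ 2) - 896 / 25 * (e ^ 2 / N ^ 3) := by
      simp only [chiP]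
      rw [hr, ht]
      field_simp
      ring
    rw [e0]
    simp only [PIv]
    have r1 : e / N - e * (1 - (N - 1) + (N - 1) ^ 2 * L1r N) = e * (N - 1) ^ 2 * ((1 - N * L1r N) / N) := by
      field_simp
      ring
    have r2 : f / N ^ 2 - f * (1 - 2 * (N - 1) + (N - 1) ^ 2 * L2r N)
        = f * (N - 1) ^ 2 * ((1 + 2 * N - N ^ 2 * L2r N) / N ^ 2) := by
      field_simp
      ring
    have r3 : e ^ 2 * (1 - 3 * (N - 1)) + (N - 1) ^ 2 * (e ^ 2 * Ar N + e * Br N + Cr N) - e ^ 2 / N ^ 3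
        = (N - 1) ^ 2 * (e ^ 2 * Ar N + e * Br N + Cr N - e ^ 2 * ((1 + 2 * N + 3 * N ^ 2) / N ^ 3)) := by
      field_simp
      ring
    have p1 : 0 ≤ e * (N - 1) ^ 2 * ((1 - N * L1r N) / N) := by
      have : 0 ≤ (1 - N * L1r N) / N := div_nonneg h1 h0.le
      positivity
    have p2 : 0 ≤ f * (N - 1) ^ 2 * ((1 + 2 * N - N ^ 2 * L2r N) / N ^ 2) := by
      have : 0 ≤ (1 + 2 * N - N ^ 2 * L2r N) / N ^ 2 := div_nonneg h2 (by positivity)
      positivity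
    have p3 : 0 ≤ (N - 1) ^ 2 * (e ^ 2 * Ar N + e * Br N + Cr N - e ^ 2 * ((1 + 2 * N + 3 * N ^ 2) / N ^ 3)) :=
      mul_nonneg (by positivity) (by linarith)
    linarith

/-! ### The merge of two points of the simplex -/

/-- The weights of a merge. -/
def yOf (a b : Fin 4 → ℝ) : Fin 4 → ℝ := fun i => 4 * ((1 / 4 + a i) * (1 / 4 + b i))

lemma nY_yOf {a b : Fin 4 → ℝ} (ha : ∑ i, a i = 0) (hb : ∑ i, b i = 0) :
    nY (yOf a b) = 1 + 4 * ∑ i, a i * b i := by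
  simp only [Fin.sum_univ_four] at ha hb ⊢
  simp only [nY, yOf]
  linear_combination ha + hb

/-- The domain of the weights of a merge. -/
lemma yOf_dom {a b : Fin 4 → ℝ} (ha : ∑ i, a i = 0) (hb : ∑ i, b i = 0) (ha0 : ∀ i, 0 ≤ 1 / 4 + a i)
    (hb0 : ∀ i, 0 ≤ 1 / 4 + b i) :
    (∀ i, 0 ≤ yOf a b i) ∧ nY (yOf a b) ≤ 4 ∧ e2Y (yOf a b) ≤ (4 - nY (yOf a b)) ^ 2 / 4 := by
  refine ⟨fun i => ?_, ?_⟩
  · have := ha0 i
    have := hb0 i
    simp only [yOf]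
    positivity
  simp only [Fin.sum_univ_four] at ha hb
  obtain ⟨x0, hx0⟩ : ∃ x, x = 1 / 4 + a 0 := ⟨_, rfl⟩
  obtain ⟨x1, hx1⟩ : ∃ x, x = 1 / 4 + a 1 := ⟨_, rfl⟩
  obtain ⟨x2, hx2⟩ : ∃ x, x = 1 / 4 + a 2 := ⟨_, rfl⟩
  obtain ⟨x3, hx3⟩ : ∃ x, x = 1 / 4 + a 3 := ⟨_, rfl⟩
  obtain ⟨z0, hz0⟩ : ∃ x, x = 1 / 4 + b 0 := ⟨_, rfl⟩
  obtain ⟨z1, hz1⟩ : ∃ x, x = 1 / 4 + b 1 := ⟨_, rfl⟩
  obtain ⟨z2, hz2⟩ : ∃ x, x = 1 / 4 + b 2 := ⟨_, rfl⟩
  obtain ⟨z3, hz3⟩ : ∃ x, x = 1 / 4 + b 3 := ⟨_, rfl⟩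
  have px0 : 0 ≤ x0 := hx0 ▸ ha0 0
  have px1 : 0 ≤ x1 := hx1 ▸ ha0 1
  have px2 : 0 ≤ x2 := hx2 ▸ ha0 2
  have px3 : 0 ≤ x3 := hx3 ▸ ha0 3
  have pz0 : 0 ≤ z0 := hz0 ▸ hb0 0
  have pz1 : 0 ≤ z1 := hz1 ▸ hb0 1
  have pz2 : 0 ≤ z2 := hz2 ▸ hb0 2
  have pz3 : 0 ≤ z3 := hz3 ▸ hb0 3
  have sx : x0 + x1 + x2 + x3 = 1 := by rw [hx0, hx1, hx2, hx3]; linear_combination ha
  have sz : z0 + z1 + z2 + z3 = 1 := by rw [hz0, hz1, hz2, hz3]; linear_combination hb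
  have eN : nY (yOf a b) = 4 * (x0 * z0 + x1 * z1 + x2 * z2 + x3 * z3) := by
    simp only [nY, yOf]
    rw [← hx0, ← hx1, ← hx2, ← hx3, ← hz0, ← hz1, ← hz2, ← hz3]
    ring
  have eE : e2Y (yOf a b) = 16 * (x0 * z0 * (x1 * z1) + x0 * z0 * (x2 * z2) + x0 * z0 * (x3 * z3)
      + x1 * z1 * (x2 * z2) + x1 * z1 * (x3 * z3) + x2 * z2 * (x3 * z3)) := by
    simp only [e2Y, yOf]
    rw [← hx0, ← hx1, ← hx2, ← hx3, ← hz0, ← hz1, ← hz2, ← hz3]
    ring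
  -- the off-diagonal mass
  have aux : ∀ p q r t : ℝ, p * q * (r * t) ≤ (p * t + r * q) ^ 2 / 4 := fun p q r t => by
    nlinarith [sq_nonneg (p * t - r * q)]
  obtain ⟨c01, h01⟩ : ∃ c, c = x0 * z1 + x1 * z0 := ⟨_, rfl⟩
  obtain ⟨c02, h02⟩ : ∃ c, c = x0 * z2 + x2 * z0 := ⟨_, rfl⟩
  obtain ⟨c03, h03⟩ : ∃ c, c = x0 * z3 + x3 * z0 := ⟨_, rfl⟩
  obtain ⟨c12, h12⟩ : ∃ c, c = x1 * z2 + x2 * z1 := ⟨_, rfl⟩
  obtain ⟨c13, h13⟩ : ∃ c, c = x1 * z3 + x3 * z1 := ⟨_, rfl⟩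
  obtain ⟨c23, h23⟩ : ∃ c, c = x2 * z3 + x3 * z2 := ⟨_, rfl⟩
  have q01 : 0 ≤ c01 := by rw [h01]; positivity
  have q02 : 0 ≤ c02 := by rw [h02]; positivity
  have q03 : 0 ≤ c03 := by rw [h03]; positivity
  have q12 : 0 ≤ c12 := by rw [h12]; positivity
  have q13 : 0 ≤ c13 := by rw [h13]; positivity
  have q23 : 0 ≤ c23 := by rw [h23]; positivity
  have hone : 1 - (x0 * z0 + x1 * z1 + x2 * z2 + x3 * z3) = c01 + c02 + c03 + c12 + c13 + c23 := by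
    have : (x0 + x1 + x2 + x3) * (z0 + z1 + z2 + z3) = 1 := by rw [sx, sz]; norm_num
    rw [h01, h02, h03, h12, h13, h23]
    linarith
  have h4N : 4 - nY (yOf a b) = 4 * (c01 + c02 + c03 + c12 + c13 + c23) := by
    rw [eN, ← hone]
    ring
  constructor
  · have : 0 ≤ 4 * (c01 + c02 + c03 + c12 + c13 + c23) := by positivity
    linarith
  · rw [h4N, eE]
    have s01 := aux x0 z0 x1 z1
    have s02 := aux x0 z0 x2 z2
    have s03 := aux x0 z0 x3 z3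
    have s12 := aux x1 z1 x2 z2
    have s13 := aux x1 z1 x3 z3
    have s23 := aux x2 z2 x3 z3
    rw [← h01] at s01
    rw [← h02] at s02
    rw [← h03] at s03
    rw [← h12] at s12
    rw [← h13] at s13
    rw [← h23] at s23
    have hp : 0 ≤ c01 * c02 + c01 * c03 + c01 * c12 + c01 * c13 + c01 * c23 + c02 * c03 + c02 * c12 + c02 * c13 + c02 * c23
        + c03 * c12 + c03 * c13 + c03 * c23 + c12 * c13 + c12 * c23 + c13 * c23 := by positivity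
    have e5 : (4 * (c01 + c02 + c03 + c12 + c13 + c23)) ^ 2 / 4 =
        4 * (c01 ^ 2 + c02 ^ 2 + c03 ^ 2 + c12 ^ 2 + c13 ^ 2 + c23 ^ 2) + 8 * (c01 * c02 + c01 * c03 + c01 * c12 + c01 * c13 + c01 * c23 + c02 * c03 + c02 * c12 + c02 * c13 + c02 * c23
        + c03 * c12 + c03 * c13 + c03 * c23 + c12 * c13 + c12 * c23 + c13 * c23) := by ring
    rw [e5]
    linarith

end

end Vale.Agent.Lib.P154R
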