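import Vale.Agent.Lib.P154R.Sym

/-!
# Polynomial bounds on the inverse powers of the normalising factor
-/

namespace Vale.Agent.Lib.P154R

set_option linter.unusedSimpArgs false

noncomputable section

/-- The polynomial `L1`. -/
def L1r (N : ℝ) : ℝ := (87/200) + (-929/1000)*((N-2)/2) + (19/40)*((N-2)/2)^2 + (681/250)*((N-2)/2)^3 + (197/200)*((N-2)/2)^4 + (-301/50)*((N-2)/2)^5

/-- The polynomial `L2`. -/
def L2r (N : ℝ) : ℝ := (1173/1000) + (-361/200)*((N-2)/2) + (561/200)*((N-2)/2)^2 + (487/200)*((N-2)/2)^3 + (-1417/1000)*((N-2)/2)^4 + (-9657/500)*((N-2)/2)^5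

/-- The polynomial `A`. -/
def Ar (N : ℝ) : ℝ := (2107/1000) + (-747/250)*((N-2)/2) + (1929/500)*((N-2)/2)^2 + (-777/200)*((N-2)/2)^3 + (6687/1000)*((N-2)/2)^4 + (-6749/1000)*((N-2)/2)^5

/-- The polynomial `B`. -/
def Br (N : ℝ) : ℝ := (19/1000) + (31/500)*((N-2)/2) + (-321/1000)*((N-2)/2)^2 + (-46/125)*((N-2)/2)^3 + (246/125)*((N-2)/2)^4 + (-1543/1000)*((N-2)/2)^5

/-- The polynomial `C`. -/
def Cr (N : ℝ) : ℝ := (1/500) + (-1/500)*((N-2)/2) + (-3/500)*((N-2)/2)^2 + (7/500)*((N-2)/2)^3 + (13/1000)*((N-2)/2)^4 + (-2/125)*((N-2)/2)^5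

lemma c_L1_0 (N : ℝ) (h0 : 0 ≤ N) (h1 : N ≤ (2/5)) : 0 ≤ 1 - N * L1r N := by
  have key : ∀ u v : ℝ, 0 ≤ u → 0 ≤ v → 0 ≤ (15625/64)*v^6 + (13875/16)*u^1*v^5 + (311235/256)*u^2*v^4 + (216527/256)*u^3*v^3 + (384771/1280)*u^4*v^2 + (407/8)*u^5*v^1 + (22749/6400)*u^6 := by
    intro u v hu hv
    positivity
  have e : 1 - N * L1r N = (15625/64)*((2/5)-N)^6 + (13875/16)*(N-0)^1*((2/5)-N)^5 + (311235/256)*(N-0)^2*((2/5)-N)^4 + (216527/256)*(N-0)^3*((2/5)-N)^3 + (384771/1280)*(N-0)^4*((2/5)-N)^2 + (407/8)*(N-0)^5*((2/5)-N)^1 + (22749/6400)*(N-0)^6 := by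
    simp only [L1r, L2r, Ar, Br, Cr]
    ring
  rw [e]
  exact key (N - 0) ((2/5) - N) (by linarith) (by linarith)

lemma c_L2_0 (N : ℝ) (h0 : 0 ≤ N) (h1 : N ≤ (2/5)) : 0 ≤ 1 + 2 * N - N ^ 2 * L2r N := by
  have key : ∀ u v : ℝ, 0 ≤ u → 0 ≤ v → 0 ≤ (78125/128)*v^7 + (609375/128)*u^1*v^6 + (3500125/256)*u^2*v^5 + (5143185/256)*u^3*v^4 + (2148801/128)*u^4*v^3 + (10359767/1280)*u^5*v^2 + (1681749/800)*u^6*v^1 + (7300349/32000)*u^7 := by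
    intro u v hu hv
    positivity
  have e : 1 + 2 * N - N ^ 2 * L2r N = (78125/128)*((2/5)-N)^7 + (609375/128)*(N-0)^1*((2/5)-N)^6 + (3500125/256)*(N-0)^2*((2/5)-N)^5 + (5143185/256)*(N-0)^3*((2/5)-N)^4 + (2148801/128)*(N-0)^4*((2/5)-N)^3 + (10359767/1280)*(N-0)^5*((2/5)-N)^2 + (1681749/800)*(N-0)^6*((2/5)-N)^1 + (7300349/32000)*(N-0)^7 := by
    simp only [L1r, L2r, Ar, Br, Cr]
    ring
  rw [e]
  exact key (N - 0) ((2/5) - N) (by linarith) (by linarith)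

lemma c_L1_1 (N : ℝ) (h0 : (2/5) ≤ N) (h1 : N ≤ (4/5)) : 0 ≤ 1 - N * L1r N := by
  have key : ∀ u v : ℝ, 0 ≤ u → 0 ≤ v → 0 ≤ (14218125/16384)*v^12 + (26213125/8192)*u^1*v^11 + (18236875/8192)*u^2*v^10 + (285046875/16384)*u^3*v^9 + (2642534375/16384)*u^4*v^8 + (9200616875/16384)*u^5*v^7 + (17781938125/16384)*u^6*v^6 + (21775905625/16384)*u^7*v^5 + (1107109375/1024)*u^8*v^4 + (9605609375/16384)*u^9*v^3 + (3351720625/16384)*u^10*v^2 + (85364375/2048)*u^11*v^1 + (7735625/2048)*u^12 := by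
    intro u v hu hv
    positivity
  have e : 1 - N * L1r N = (14218125/16384)*((4/5)-N)^12 + (26213125/8192)*(N-(2/5))^1*((4/5)-N)^11 + (18236875/8192)*(N-(2/5))^2*((4/5)-N)^10 + (285046875/16384)*(N-(2/5))^3*((4/5)-N)^9 + (2642534375/16384)*(N-(2/5))^4*((4/5)-N)^8 + (9200616875/16384)*(N-(2/5))^5*((4/5)-N)^7 + (17781938125/16384)*(N-(2/5))^6*((4/5)-N)^6 + (21775905625/16384)*(N-(2/5))^7*((4/5)-N)^5 + (1107109375/1024)*(N-(2/5))^8*((4/5)-N)^4 + (9605609375/16384)*(N-(2/5))^9*((4/5)-N)^3 + (3351720625/16384)*(N-(2/5))^10*((4/5)-N)^2 + (85364375/2048)*(N-(2/5))^11*((4/5)-N)^1 + (7735625/2048)*(N-(2/5))^12 := by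
    simp only [L1r, L2r, Ar, Br, Cr]
    ring
  rw [e]
  exact key (N - (2/5)) ((4/5) - N) (by linarith) (by linarith)

lemma c_L2_1 (N : ℝ) (h0 : (2/5) ≤ N) (h1 : N ≤ (4/5)) : 0 ≤ 1 + 2 * N - N ^ 2 * L2r N := by
  have key : ∀ u v : ℝ, 0 ≤ u → 0 ≤ v → 0 ≤ (7300349/32000)*v^7 + (17467463/16000)*u^1*v^6 + (64983971/32000)*u^2*v^5 + (3032081/1600)*u^3*v^4 + (6012993/6400)*u^4*v^3 + (7645253/32000)*u^5*v^2 + (454391/16000)*u^6*v^1 + (27791/16000)*u^7 := by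
    intro u v hu hv
    positivity
  have e : 1 + 2 * N - N ^ 2 * L2r N = (7300349/32000)*((4/5)-N)^7 + (17467463/16000)*(N-(2/5))^1*((4/5)-N)^6 + (64983971/32000)*(N-(2/5))^2*((4/5)-N)^5 + (3032081/1600)*(N-(2/5))^3*((4/5)-N)^4 + (6012993/6400)*(N-(2/5))^4*((4/5)-N)^3 + (7645253/32000)*(N-(2/5))^5*((4/5)-N)^2 + (454391/16000)*(N-(2/5))^6*((4/5)-N)^1 + (27791/16000)*(N-(2/5))^7 := by
    simp only [L1r, L2r, Ar, Br, Cr]
    ring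
  rw [e]
  exact key (N - (2/5)) ((4/5) - N) (by linarith) (by linarith)

lemma c_L1_2 (N : ℝ) (h0 : (4/5) ≤ N) (h1 : N ≤ (6/5)) : 0 ≤ 1 - N * L1r N := by
  have key : ∀ u v : ℝ, 0 ≤ u → 0 ≤ v → 0 ≤ (12377/800)*v^6 + (86203/800)*u^1*v^5 + (368277/1280)*u^2*v^4 + (95807/256)*u^3*v^3 + (323337/1280)*u^4*v^2 + (135681/1600)*u^5*v^1 + (71641/6400)*u^6 := by
    intro u v hu hv
    positivity
  have e : 1 - N * L1r N = (12377/800)*((6/5)-N)^6 + (86203/800)*(N-(4/5))^1*((6/5)-N)^5 + (368277/1280)*(N-(4/5))^2*((6/5)-N)^4 + (95807/256)*(N-(4/5))^3*((6/5)-N)^3 + (323337/1280)*(N-(4/5))^4*((6/5)-N)^2 + (135681/1600)*(N-(4/5))^5*((6/5)-N)^1 + (71641/6400)*(N-(4/5))^6 := by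
    simp only [L1r, L2r, Ar, Br, Cr]
    ring
  rw [e]
  exact key (N - (4/5)) ((6/5) - N) (by linarith) (by linarith)

lemma c_L2_2 (N : ℝ) (h0 : (4/5) ≤ N) (h1 : N ≤ (6/5)) : 0 ≤ 1 + 2 * N - N ^ 2 * L2r N := by
  have key : ∀ u v : ℝ, 0 ≤ u → 0 ≤ v → 0 ≤ (27791/1024)*v^10 + (2257/128)*u^1*v^9 + (1183601/2048)*u^2*v^8 + (2828389/512)*u^3*v^7 + (4752409/256)*u^4*v^6 + (66808285/2048)*u^5*v^5 + (34773629/1024)*u^6*v^4 + (11113641/512)*u^7*v^3 + (4279151/512)*u^8*v^2 + (3637483/2048)*u^9*v^1 + (327683/2048)*u^10 := by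
    intro u v hu hv
    positivity
  have e : 1 + 2 * N - N ^ 2 * L2r N = (27791/1024)*((6/5)-N)^10 + (2257/128)*(N-(4/5))^1*((6/5)-N)^9 + (1183601/2048)*(N-(4/5))^2*((6/5)-N)^8 + (2828389/512)*(N-(4/5))^3*((6/5)-N)^7 + (4752409/256)*(N-(4/5))^4*((6/5)-N)^6 + (66808285/2048)*(N-(4/5))^5*((6/5)-N)^5 + (34773629/1024)*(N-(4/5))^6*((6/5)-N)^4 + (11113641/512)*(N-(4/5))^7*((6/5)-N)^3 + (4279151/512)*(N-(4/5))^8*((6/5)-N)^2 + (3637483/2048)*(N-(4/5))^9*((6/5)-N)^1 + (327683/2048)*(N-(4/5))^10 := by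
    simp only [L1r, L2r, Ar, Br, Cr]
    ring
  rw [e]
  exact key (N - (4/5)) ((6/5) - N) (by linarith) (by linarith)

lemma c_L1_3 (N : ℝ) (h0 : (6/5) ≤ N) (h1 : N ≤ (8/5)) : 0 ≤ 1 - N * L1r N := by
  have key : ∀ u v : ℝ, 0 ≤ u → 0 ≤ v → 0 ≤ (71641/6400)*v^6 + (39621/800)*u^1*v^5 + (97581/1280)*u^2*v^4 + (58381/1280)*u^3*v^3 + (9339/1280)*u^4*v^2 + (611/800)*u^5*v^1 + (2181/1600)*u^6 := by
    intro u v hu hv
    positivity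
  have e : 1 - N * L1r N = (71641/6400)*((8/5)-N)^6 + (39621/800)*(N-(6/5))^1*((8/5)-N)^5 + (97581/1280)*(N-(6/5))^2*((8/5)-N)^4 + (58381/1280)*(N-(6/5))^3*((8/5)-N)^3 + (9339/1280)*(N-(6/5))^4*((8/5)-N)^2 + (611/800)*(N-(6/5))^5*((8/5)-N)^1 + (2181/1600)*(N-(6/5))^6 := by
    simp only [L1r, L2r, Ar, Br, Cr]
    ring
  rw [e]
  exact key (N - (6/5)) ((8/5) - N) (by linarith) (by linarith)

lemma c_L2_3 (N : ℝ) (h0 : (6/5) ≤ N) (h1 : N ≤ (8/5)) : 0 ≤ 1 + 2 * N - N ^ 2 * L2r N := by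
  have key : ∀ u v : ℝ, 0 ≤ u → 0 ≤ v → 0 ≤ (327683/12800)*v^8 + (2260811/12800)*u^1*v^7 + (1155109/2560)*u^2*v^6 + (6377327/12800)*u^3*v^5 + (467823/2560)*u^4*v^4 + (14227/6400)*u^5*v^3 + (1422503/12800)*u^6*v^2 + (21223/160)*u^7*v^1 + (249793/6400)*u^8 := by
    intro u v hu hv
    positivity
  have e : 1 + 2 * N - N ^ 2 * L2r N = (327683/12800)*((8/5)-N)^8 + (2260811/12800)*(N-(6/5))^1*((8/5)-N)^7 + (1155109/2560)*(N-(6/5))^2*((8/5)-N)^6 + (6377327/12800)*(N-(6/5))^3*((8/5)-N)^5 + (467823/2560)*(N-(6/5))^4*((8/5)-N)^4 + (14227/6400)*(N-(6/5))^5*((8/5)-N)^3 + (1422503/12800)*(N-(6/5))^6*((8/5)-N)^2 + (21223/160)*(N-(6/5))^7*((8/5)-N)^1 + (249793/6400)*(N-(6/5))^8 := by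
    simp only [L1r, L2r, Ar, Br, Cr]
    ring
  rw [e]
  exact key (N - (6/5)) ((8/5) - N) (by linarith) (by linarith)

lemma c_L1_4 (N : ℝ) (h0 : (8/5) ≤ N) (h1 : N ≤ 2) : 0 ≤ 1 - N * L1r N := by
  have key : ∀ u v : ℝ, 0 ≤ u → 0 ≤ v → 0 ≤ (2181/1600)*v^6 + (499/32)*u^1*v^5 + (104251/1280)*u^2*v^4 + (51279/256)*u^3*v^3 + (62395/256)*u^4*v^2 + (2275/16)*u^5*v^1 + (8125/256)*u^6 := by
    intro u v hu hv
    positivity
  have e : 1 - N * L1r N = (2181/1600)*(2-N)^6 + (499/32)*(N-(8/5))^1*(2-N)^5 + (104251/1280)*(N-(8/5))^2*(2-N)^4 + (51279/256)*(N-(8/5))^3*(2-N)^3 + (62395/256)*(N-(8/5))^4*(2-N)^2 + (2275/16)*(N-(8/5))^5*(2-N)^1 + (8125/256)*(N-(8/5))^6 := by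
    simp only [L1r, L2r, Ar, Br, Cr]
    ring
  rw [e]
  exact key (N - (8/5)) (2 - N) (by linarith) (by linarith)

lemma c_L2_4 (N : ℝ) (h0 : (8/5) ≤ N) (h1 : N ≤ 2) : 0 ≤ 1 + 2 * N - N ^ 2 * L2r N := by
  have key : ∀ u v : ℝ, 0 ≤ u → 0 ≤ v → 0 ≤ (249793/16000)*v^7 + (115919/640)*u^1*v^6 + (1112417/1280)*u^2*v^5 + (563417/256)*u^3*v^4 + (404475/128)*u^4*v^3 + (657175/256)*u^5*v^2 + (69875/64)*u^6*v^1 + (48125/256)*u^7 := by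
    intro u v hu hv
    positivity
  have e : 1 + 2 * N - N ^ 2 * L2r N = (249793/16000)*(2-N)^7 + (115919/640)*(N-(8/5))^1*(2-N)^6 + (1112417/1280)*(N-(8/5))^2*(2-N)^5 + (563417/256)*(N-(8/5))^3*(2-N)^4 + (404475/128)*(N-(8/5))^4*(2-N)^3 + (657175/256)*(N-(8/5))^5*(2-N)^2 + (69875/64)*(N-(8/5))^6*(2-N)^1 + (48125/256)*(N-(8/5))^7 := by
    simp only [L1r, L2r, Ar, Br, Cr]
    ring
  rw [e]
  exact key (N - (8/5)) (2 - N) (by linarith) (by linarith)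

lemma c_L1_5 (N : ℝ) (h0 : 2 ≤ N) (h1 : N ≤ (12/5)) : 0 ≤ 1 - N * L1r N := by
  have key : ∀ u v : ℝ, 0 ≤ u → 0 ≤ v → 0 ≤ (8125/256)*v^6 + (15275/64)*u^1*v^5 + (185895/256)*u^2*v^4 + (291881/256)*u^3*v^3 + (1243281/1280)*u^4*v^2 + (33969/80)*u^5*v^1 + (59543/800)*u^6 := by
    intro u v hu hv
    positivity
  have e : 1 - N * L1r N = (8125/256)*((12/5)-N)^6 + (15275/64)*(N-2)^1*((12/5)-N)^5 + (185895/256)*(N-2)^2*((12/5)-N)^4 + (291881/256)*(N-2)^3*((12/5)-N)^3 + (1243281/1280)*(N-2)^4*((12/5)-N)^2 + (33969/80)*(N-2)^5*((12/5)-N)^1 + (59543/800)*(N-2)^6 := by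
    simp only [L1r, L2r, Ar, Br, Cr]
    ring
  rw [e]
  exact key (N - 2) ((12/5) - N) (by linarith) (by linarith)

lemma c_L2_5 (N : ℝ) (h0 : 2 ≤ N) (h1 : N ≤ (12/5)) : 0 ≤ 1 + 2 * N - N ^ 2 * L2r N := by
  have key : ∀ u v : ℝ, 0 ≤ u → 0 ≤ v → 0 ≤ (48125/256)*v^7 + (197125/128)*u^1*v^6 + (1345675/256)*u^2*v^5 + (308475/32)*u^3*v^4 + (2608817/256)*u^4*v^3 + (7886093/1280)*u^5*v^2 + (250519/128)*u^6*v^1 + (4033807/16000)*u^7 := by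
    intro u v hu hv
    positivity
  have e : 1 + 2 * N - N ^ 2 * L2r N = (48125/256)*((12/5)-N)^7 + (197125/128)*(N-2)^1*((12/5)-N)^6 + (1345675/256)*(N-2)^2*((12/5)-N)^5 + (308475/32)*(N-2)^3*((12/5)-N)^4 + (2608817/256)*(N-2)^4*((12/5)-N)^3 + (7886093/1280)*(N-2)^5*((12/5)-N)^2 + (250519/128)*(N-2)^6*((12/5)-N)^1 + (4033807/16000)*(N-2)^7 := by
    simp only [L1r, L2r, Ar, Br, Cr]
    ring
  rw [e]
  exact key (N - 2) ((12/5) - N) (by linarith) (by linarith)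

lemma c_L1_6 (N : ℝ) (h0 : (12/5) ≤ N) (h1 : N ≤ 3) : 0 ≤ 1 - N * L1r N := by
  have key : ∀ u v : ℝ, 0 ≤ u → 0 ≤ v → 0 ≤ (119086/18225)*v^6 + (51148/1215)*u^1*v^5 + (2050843/19440)*u^2*v^4 + (2986129/23328)*u^3*v^3 + (73595/972)*u^4*v^2 + (603175/31104)*u^5*v^1 + (180875/93312)*u^6 := by
    intro u v hu hv
    positivity
  have e : 1 - N * L1r N = (119086/18225)*(3-N)^6 + (51148/1215)*(N-(12/5))^1*(3-N)^5 + (2050843/19440)*(N-(12/5))^2*(3-N)^4 + (2986129/23328)*(N-(12/5))^3*(3-N)^3 + (73595/972)*(N-(12/5))^4*(3-N)^2 + (603175/31104)*(N-(12/5))^5*(3-N)^1 + (180875/93312)*(N-(12/5))^6 := by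
    simp only [L1r, L2r, Ar, Br, Cr]
    ring
  rw [e]
  exact key (N - (12/5)) (3 - N) (by linarith) (by linarith)

lemma c_L2_6 (N : ℝ) (h0 : (12/5) ≤ N) (h1 : N ≤ 3) : 0 ≤ 1 + 2 * N - N ^ 2 * L2r N := by
  have key : ∀ u v : ℝ, 0 ≤ u → 0 ≤ v → 0 ≤ (504225875/1594323)*v^13 + (5977769000/1594323)*u^1*v^12 + (82957270625/4251528)*u^2*v^11 + (739350011875/12754584)*u^3*v^10 + (1355822539375/12754584)*u^4*v^9 + (1353793963375/11337408)*u^5*v^8 + (4927358239625/68024448)*u^6*v^7 + (215366808125/17006112)*u^7*v^6 + (78431965625/22674816)*u^8*v^5 + (3458154359375/102036672)*u^9*v^4 + (9726312578125/204073344)*u^10*v^3 + (260346484375/8503056)*u^11*v^2 + (2030646484375/204073344)*u^12*v^1 + (2128906250/1594323)*u^13 := by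
    intro u v hu hv
    positivity
  have e : 1 + 2 * N - N ^ 2 * L2r N = (504225875/1594323)*(3-N)^13 + (5977769000/1594323)*(N-(12/5))^1*(3-N)^12 + (82957270625/4251528)*(N-(12/5))^2*(3-N)^11 + (739350011875/12754584)*(N-(12/5))^3*(3-N)^10 + (1355822539375/12754584)*(N-(12/5))^4*(3-N)^9 + (1353793963375/11337408)*(N-(12/5))^5*(3-N)^8 + (4927358239625/68024448)*(N-(12/5))^6*(3-N)^7 + (215366808125/17006112)*(N-(12/5))^7*(3-N)^6 + (78431965625/22674816)*(N-(12/5))^8*(3-N)^5 + (3458154359375/102036672)*(N-(12/5))^9*(3-N)^4 + (9726312578125/204073344)*(N-(12/5))^10*(3-N)^3 + (260346484375/8503056)*(N-(12/5))^11*(3-N)^2 + (2030646484375/204073344)*(N-(12/5))^12*(3-N)^1 + (2128906250/1594323)*(N-(12/5))^13 := by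
    simp only [L1r, L2r, Ar, Br, Cr]
    ring
  rw [e]
  exact key (N - (12/5)) (3 - N) (by linarith) (by linarith)

lemma c_L1_7 (N : ℝ) (h0 : 3 ≤ N) (h1 : N ≤ 4) : 0 ≤ 1 - N * L1r N := by
  have key : ∀ u v : ℝ, 0 ≤ u → 0 ≤ v → 0 ≤ (1447/16000)*v^12 + (7707/16000)*u^1*v^11 + (5511/16000)*u^2*v^10 + (17647/16000)*u^3*v^9 + (4233/128)*u^4*v^8 + (2884837/16000)*u^5*v^7 + (7930013/16000)*u^6*v^6 + (13380141/16000)*u^7*v^5 + (1846789/2000)*u^8*v^4 + (539173/800)*u^9*v^3 + (125937/400)*u^10*v^2 + (10697/125)*u^11*v^1 + (258/25)*u^12 := by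
    intro u v hu hv
    positivity
  have e : 1 - N * L1r N = (1447/16000)*(4-N)^12 + (7707/16000)*(N-3)^1*(4-N)^11 + (5511/16000)*(N-3)^2*(4-N)^10 + (17647/16000)*(N-3)^3*(4-N)^9 + (4233/128)*(N-3)^4*(4-N)^8 + (2884837/16000)*(N-3)^5*(4-N)^7 + (7930013/16000)*(N-3)^6*(4-N)^6 + (13380141/16000)*(N-3)^7*(4-N)^5 + (1846789/2000)*(N-3)^8*(4-N)^4 + (539173/800)*(N-3)^9*(4-N)^3 + (125937/400)*(N-3)^10*(4-N)^2 + (10697/125)*(N-3)^11*(4-N)^1 + (258/25)*(N-3)^12 := by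
    simp only [L1r, L2r, Ar, Br, Cr]
    ring
  rw [e]
  exact key (N - 3) (4 - N) (by linarith) (by linarith)

lemma c_L2_7 (N : ℝ) (h0 : 3 ≤ N) (h1 : N ≤ 4) : 0 ≤ 1 + 2 * N - N ^ 2 * L2r N := by
  have key : ∀ u v : ℝ, 0 ≤ u → 0 ≤ v → 0 ≤ (218/125)*v^7 + (453351/16000)*u^1*v^6 + (1513007/8000)*u^2*v^5 + (668097/1000)*u^3*v^4 + (1356201/1000)*u^4*v^3 + (1593043/1000)*u^5*v^2 + (126096/125)*u^6*v^1 + (33371/125)*u^7 := by
    intro u v hu hv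
    positivity
  have e : 1 + 2 * N - N ^ 2 * L2r N = (218/125)*(4-N)^7 + (453351/16000)*(N-3)^1*(4-N)^6 + (1513007/8000)*(N-3)^2*(4-N)^5 + (668097/1000)*(N-3)^3*(4-N)^4 + (1356201/1000)*(N-3)^4*(4-N)^3 + (1593043/1000)*(N-3)^5*(4-N)^2 + (126096/125)*(N-3)^6*(4-N)^1 + (33371/125)*(N-3)^7 := by
    simp only [L1r, L2r, Ar, Br, Cr]
    ring
  rw [e]
  exact key (N - 3) (4 - N) (by linarith) (by linarith)

lemma c_I0_0 (N : ℝ) (h0 : 0 ≤ N) (h1 : N ≤ (2/5)) : 0 ≤ Cr N := by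
  have key : ∀ u v : ℝ, 0 ≤ u → 0 ≤ v → 0 ≤ (325/256)*v^5 + (1225/256)*u^1*v^4 + (115/16)*u^2*v^3 + (3451/640)*u^3*v^2 + (3247/1600)*u^4*v^1 + (4937/16000)*u^5 := by
    intro u v hu hv
    positivity
  have e : Cr N = (325/256)*((2/5)-N)^5 + (1225/256)*(N-0)^1*((2/5)-N)^4 + (115/16)*(N-0)^2*((2/5)-N)^3 + (3451/640)*(N-0)^3*((2/5)-N)^2 + (3247/1600)*(N-0)^4*((2/5)-N)^1 + (4937/16000)*(N-0)^5 := by
    simp only [L1r, L2r, Ar, Br, Cr]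
    ring
  rw [e]
  exact key (N - 0) ((2/5) - N) (by linarith) (by linarith)

lemma c_I1_0 (N : ℝ) (h0 : 0 ≤ N) (h1 : N ≤ (2/5)) : 0 ≤ Cr N + 3 / 16 * N ^ 2 * Br N := by
  have key : ∀ u v : ℝ, 0 ≤ u → 0 ≤ v → 0 ≤ (8125/1024)*v^7 + (46875/1024)*u^1*v^6 + (725125/4096)*u^2*v^5 + (426715/1024)*u^3*v^4 + (2273125/4096)*u^4*v^3 + (8426251/20480)*u^5*v^2 + (16290059/102400)*u^6*v^1 + (12838141/512000)*u^7 := by
    intro u v hu hv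
    positivity
  have e : Cr N + 3 / 16 * N ^ 2 * Br N = (8125/1024)*((2/5)-N)^7 + (46875/1024)*(N-0)^1*((2/5)-N)^6 + (725125/4096)*(N-0)^2*((2/5)-N)^5 + (426715/1024)*(N-0)^3*((2/5)-N)^4 + (2273125/4096)*(N-0)^4*((2/5)-N)^3 + (8426251/20480)*(N-0)^5*((2/5)-N)^2 + (16290059/102400)*(N-0)^6*((2/5)-N)^1 + (12838141/512000)*(N-0)^7 := by
    simp only [L1r, L2r, Ar, Br, Cr]
    ring
  rw [e]
  exact key (N - 0) ((2/5) - N) (by linarith) (by linarith)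

lemma c_I2_0 (N : ℝ) (h0 : 0 ≤ N) (h1 : N ≤ (2/5)) : 0 ≤ Cr N + 3 / 8 * N ^ 2 * Br N + 9 / 64 * (N ^ 4 * Ar N - N - 2 * N ^ 2 - 3 * N ^ 3) := by
  have key : ∀ u v : ℝ, 0 ≤ u → 0 ≤ v → 0 ≤ (203125/4096)*v^9 + (2796875/16384)*u^1*v^8 + (1984375/8192)*u^2*v^7 + (246375/1024)*u^3*v^6 + (2341175/8192)*u^4*v^5 + (2671495/8192)*u^5*v^4 + (4023433/16384)*u^6*v^3 + (452159/4096)*u^7*v^2 + (11374713/409600)*u^8*v^1 + (1594831/512000)*u^9 := by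
    intro u v hu hv
    positivity
  have e : Cr N + 3 / 8 * N ^ 2 * Br N + 9 / 64 * (N ^ 4 * Ar N - N - 2 * N ^ 2 - 3 * N ^ 3) = (203125/4096)*((2/5)-N)^9 + (2796875/16384)*(N-0)^1*((2/5)-N)^8 + (1984375/8192)*(N-0)^2*((2/5)-N)^7 + (246375/1024)*(N-0)^3*((2/5)-N)^6 + (2341175/8192)*(N-0)^4*((2/5)-N)^5 + (2671495/8192)*(N-0)^5*((2/5)-N)^4 + (4023433/16384)*(N-0)^6*((2/5)-N)^3 + (452159/4096)*(N-0)^7*((2/5)-N)^2 + (11374713/409600)*(N-0)^8*((2/5)-N)^1 + (1594831/512000)*(N-0)^9 := by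
    simp only [L1r, L2r, Ar, Br, Cr]
    ring
  rw [e]
  exact key (N - 0) ((2/5) - N) (by linarith) (by linarith)

lemma c_I0_1 (N : ℝ) (h0 : (2/5) ≤ N) (h1 : N ≤ (4/5)) : 0 ≤ Cr N := by
  have key : ∀ u v : ℝ, 0 ≤ u → 0 ≤ v → 0 ≤ (4937/16000)*v^5 + (169/160)*u^1*v^4 + (4799/3200)*u^2*v^3 + (1833/1600)*u^3*v^2 + (3113/6400)*u^4*v^1 + (2953/32000)*u^5 := by
    intro u v hu hv
    positivity
  have e : Cr N = (4937/16000)*((4/5)-N)^5 + (169/160)*(N-(2/5))^1*((4/5)-N)^4 + (4799/3200)*(N-(2/5))^2*((4/5)-N)^3 + (1833/1600)*(N-(2/5))^3*((4/5)-N)^2 + (3113/6400)*(N-(2/5))^4*((4/5)-N)^1 + (2953/32000)*(N-(2/5))^5 := by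
    simp only [L1r, L2r, Ar, Br, Cr]
    ring
  rw [e]
  exact key (N - (2/5)) ((4/5) - N) (by linarith) (by linarith)

lemma c_I1_1 (N : ℝ) (h0 : (2/5) ≤ N) (h1 : N ≤ (4/5)) : 0 ≤ Cr N + 3 / 16 * N ^ 2 * Br N := by
  have key : ∀ u v : ℝ, 0 ≤ u → 0 ≤ v → 0 ≤ (12838141/512000)*v^7 + (98283679/512000)*u^1*v^6 + (311656579/512000)*u^2*v^5 + (106016781/102400)*u^3*v^4 + (26189763/25600)*u^4*v^3 + (301791327/512000)*u^5*v^2 + (11774691/64000)*u^6*v^1 + (96281/4000)*u^7 := by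
    intro u v hu hv
    positivity
  have e : Cr N + 3 / 16 * N ^ 2 * Br N = (12838141/512000)*((4/5)-N)^7 + (98283679/512000)*(N-(2/5))^1*((4/5)-N)^6 + (311656579/512000)*(N-(2/5))^2*((4/5)-N)^5 + (106016781/102400)*(N-(2/5))^3*((4/5)-N)^4 + (26189763/25600)*(N-(2/5))^4*((4/5)-N)^3 + (301791327/512000)*(N-(2/5))^5*((4/5)-N)^2 + (11774691/64000)*(N-(2/5))^6*((4/5)-N)^1 + (96281/4000)*(N-(2/5))^7 := by
    simp only [L1r, L2r, Ar, Br, Cr]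
    ring
  rw [e]
  exact key (N - (2/5)) ((4/5) - N) (by linarith) (by linarith)

lemma c_I2_1 (N : ℝ) (h0 : (2/5) ≤ N) (h1 : N ≤ (4/5)) : 0 ≤ Cr N + 3 / 8 * N ^ 2 * Br N + 9 / 64 * (N ^ 4 * Ar N - N - 2 * N ^ 2 - 3 * N ^ 3) := by
  have key : ∀ u v : ℝ, 0 ≤ u → 0 ≤ v → 0 ≤ (1594831/512000)*v^9 + (57954267/2048000)*u^1*v^8 + (58681279/512000)*u^2*v^7 + (579250323/2048000)*u^3*v^6 + (502381157/1024000)*u^4*v^5 + (621498909/1024000)*u^5*v^4 + (64939209/128000)*u^6*v^3 + (272093381/1024000)*u^7*v^2 + (159390311/2048000)*u^8*v^1 + (9917249/1024000)*u^9 := by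
    intro u v hu hv
    positivity
  have e : Cr N + 3 / 8 * N ^ 2 * Br N + 9 / 64 * (N ^ 4 * Ar N - N - 2 * N ^ 2 - 3 * N ^ 3) = (1594831/512000)*((4/5)-N)^9 + (57954267/2048000)*(N-(2/5))^1*((4/5)-N)^8 + (58681279/512000)*(N-(2/5))^2*((4/5)-N)^7 + (579250323/2048000)*(N-(2/5))^3*((4/5)-N)^6 + (502381157/1024000)*(N-(2/5))^4*((4/5)-N)^5 + (621498909/1024000)*(N-(2/5))^5*((4/5)-N)^4 + (64939209/128000)*(N-(2/5))^6*((4/5)-N)^3 + (272093381/1024000)*(N-(2/5))^7*((4/5)-N)^2 + (159390311/2048000)*(N-(2/5))^8*((4/5)-N)^1 + (9917249/1024000)*(N-(2/5))^9 := by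
    simp only [L1r, L2r, Ar, Br, Cr]
    ring
  rw [e]
  exact key (N - (2/5)) ((4/5) - N) (by linarith) (by linarith)

lemma c_I0_2 (N : ℝ) (h0 : (4/5) ≤ N) (h1 : N ≤ (6/5)) : 0 ≤ Cr N := by
  have key : ∀ u v : ℝ, 0 ≤ u → 0 ≤ v → 0 ≤ (2953/32000)*v^5 + (2793/6400)*u^1*v^4 + (1513/1600)*u^2*v^3 + (693/640)*u^3*v^2 + (249/400)*u^4*v^1 + (2251/16000)*u^5 := by
    intro u v hu hv
    positivity
  have e : Cr N = (2953/32000)*((6/5)-N)^5 + (2793/6400)*(N-(4/5))^1*((6/5)-N)^4 + (1513/1600)*(N-(4/5))^2*((6/5)-N)^3 + (693/640)*(N-(4/5))^3*((6/5)-N)^2 + (249/400)*(N-(4/5))^4*((6/5)-N)^1 + (2251/16000)*(N-(4/5))^5 := by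
    simp only [L1r, L2r, Ar, Br, Cr]
    ring
  rw [e]
  exact key (N - (4/5)) ((6/5) - N) (by linarith) (by linarith)

lemma c_I1_2 (N : ℝ) (h0 : (4/5) ≤ N) (h1 : N ≤ (6/5)) : 0 ≤ Cr N + 3 / 16 * N ^ 2 * Br N := by
  have key : ∀ u v : ℝ, 0 ≤ u → 0 ≤ v → 0 ≤ (96281/4000)*v^7 + (9792253/64000)*u^1*v^6 + (206634303/512000)*u^2*v^5 + (29297737/51200)*u^3*v^4 + (48238501/102400)*u^4*v^3 + (115366547/512000)*u^5*v^2 + (29734351/512000)*u^6*v^1 + (3198557/512000)*u^7 := by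
    intro u v hu hv
    positivity
  have e : Cr N + 3 / 16 * N ^ 2 * Br N = (96281/4000)*((6/5)-N)^7 + (9792253/64000)*(N-(4/5))^1*((6/5)-N)^6 + (206634303/512000)*(N-(4/5))^2*((6/5)-N)^5 + (29297737/51200)*(N-(4/5))^3*((6/5)-N)^4 + (48238501/102400)*(N-(4/5))^4*((6/5)-N)^3 + (115366547/512000)*(N-(4/5))^5*((6/5)-N)^2 + (29734351/512000)*(N-(4/5))^6*((6/5)-N)^1 + (3198557/512000)*(N-(4/5))^7 := by
    simp only [L1r, L2r, Ar, Br, Cr]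
    ring
  rw [e]
  exact key (N - (4/5)) ((6/5) - N) (by linarith) (by linarith)

lemma c_I2_2 (N : ℝ) (h0 : (4/5) ≤ N) (h1 : N ≤ (6/5)) : 0 ≤ Cr N + 3 / 8 * N ^ 2 * Br N + 9 / 64 * (N ^ 4 * Ar N - N - 2 * N ^ 2 - 3 * N ^ 3) := by
  have key : ∀ u v : ℝ, 0 ≤ u → 0 ≤ v → 0 ≤ (9917249/1024000)*v^9 + (197630653/2048000)*u^1*v^8 + (425054749/1024000)*u^2*v^7 + (514163787/512000)*u^3*v^6 + (1532923169/1024000)*u^4*v^5 + (1455708101/1024000)*u^5*v^4 + (1764100147/2048000)*u^6*v^3 + (331588851/1024000)*u^7*v^2 + (142913327/2048000)*u^8*v^1 + (6931681/1024000)*u^9 := by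
    intro u v hu hv
    positivity
  have e : Cr N + 3 / 8 * N ^ 2 * Br N + 9 / 64 * (N ^ 4 * Ar N - N - 2 * N ^ 2 - 3 * N ^ 3) = (9917249/1024000)*((6/5)-N)^9 + (197630653/2048000)*(N-(4/5))^1*((6/5)-N)^8 + (425054749/1024000)*(N-(4/5))^2*((6/5)-N)^7 + (514163787/512000)*(N-(4/5))^3*((6/5)-N)^6 + (1532923169/1024000)*(N-(4/5))^4*((6/5)-N)^5 + (1455708101/1024000)*(N-(4/5))^5*((6/5)-N)^4 + (1764100147/2048000)*(N-(4/5))^6*((6/5)-N)^3 + (331588851/1024000)*(N-(4/5))^7*((6/5)-N)^2 + (142913327/2048000)*(N-(4/5))^8*((6/5)-N)^1 + (6931681/1024000)*(N-(4/5))^9 := by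
    simp only [L1r, L2r, Ar, Br, Cr]
    ring
  rw [e]
  exact key (N - (4/5)) ((6/5) - N) (by linarith) (by linarith)

lemma c_I0_3 (N : ℝ) (h0 : (6/5) ≤ N) (h1 : N ≤ (3/2)) : 0 ≤ Cr N := by
  have key : ∀ u v : ℝ, 0 ≤ u → 0 ≤ v → 0 ≤ (18008/30375)*v^5 + (19562/6075)*u^1*v^4 + (16891/2430)*u^2*v^3 + (14417/1944)*u^3*v^2 + (60725/15552)*u^4*v^1 + (12625/15552)*u^5 := by
    intro u v hu hv
    positivity
  have e : Cr N = (18008/30375)*((3/2)-N)^5 + (19562/6075)*(N-(6/5))^1*((3/2)-N)^4 + (16891/2430)*(N-(6/5))^2*((3/2)-N)^3 + (14417/1944)*(N-(6/5))^3*((3/2)-N)^2 + (60725/15552)*(N-(6/5))^4*((3/2)-N)^1 + (12625/15552)*(N-(6/5))^5 := by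
    simp only [L1r, L2r, Ar, Br, Cr]
    ring
  rw [e]
  exact key (N - (6/5)) ((3/2) - N) (by linarith) (by linarith)

lemma c_I1_3 (N : ℝ) (h0 : (6/5) ≤ N) (h1 : N ≤ (3/2)) : 0 ≤ Cr N + 3 / 16 * N ^ 2 * Br N := by
  have key : ∀ u v : ℝ, 0 ≤ u → 0 ≤ v → 0 ≤ (12794228/273375)*v^7 + (13505248/54675)*u^1*v^6 + (3887239/7290)*u^2*v^5 + (5325395/8748)*u^3*v^4 + (56111195/139968)*u^4*v^3 + (29852575/186624)*u^5*v^2 + (22796875/559872)*u^6*v^1 + (52838125/8957952)*u^7 := by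
    intro u v hu hv
    positivity
  have e : Cr N + 3 / 16 * N ^ 2 * Br N = (12794228/273375)*((3/2)-N)^7 + (13505248/54675)*(N-(6/5))^1*((3/2)-N)^6 + (3887239/7290)*(N-(6/5))^2*((3/2)-N)^5 + (5325395/8748)*(N-(6/5))^3*((3/2)-N)^4 + (56111195/139968)*(N-(6/5))^4*((3/2)-N)^3 + (29852575/186624)*(N-(6/5))^5*((3/2)-N)^2 + (22796875/559872)*(N-(6/5))^6*((3/2)-N)^1 + (52838125/8957952)*(N-(6/5))^7 := by
    simp only [L1r, L2r, Ar, Br, Cr]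
    ring
  rw [e]
  exact key (N - (6/5)) ((3/2) - N) (by linarith) (by linarith)

lemma c_I2_3 (N : ℝ) (h0 : (6/5) ≤ N) (h1 : N ≤ (3/2)) : 0 ≤ Cr N + 3 / 8 * N ^ 2 * Br N + 9 / 64 * (N ^ 4 * Ar N - N - 2 * N ^ 2 - 3 * N ^ 3) := by
  have key : ∀ u v : ℝ, 0 ≤ u → 0 ≤ v → 0 ≤ (221813792/2460375)*v^9 + (23714764/32805)*u^1*v^8 + (85521746/32805)*u^2*v^7 + (49804973/8748)*u^3*v^6 + (447751655/52488)*u^4*v^5 + (3875187275/419904)*u^5*v^4 + (5995017625/839808)*u^6*v^3 + (24868221875/6718464)*u^7*v^2 + (30432184375/26873856)*u^8*v^1 + (49081515625/322486272)*u^9 := by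
    intro u v hu hv
    positivity
  have e : Cr N + 3 / 8 * N ^ 2 * Br N + 9 / 64 * (N ^ 4 * Ar N - N - 2 * N ^ 2 - 3 * N ^ 3) = (221813792/2460375)*((3/2)-N)^9 + (23714764/32805)*(N-(6/5))^1*((3/2)-N)^8 + (85521746/32805)*(N-(6/5))^2*((3/2)-N)^7 + (49804973/8748)*(N-(6/5))^3*((3/2)-N)^6 + (447751655/52488)*(N-(6/5))^4*((3/2)-N)^5 + (3875187275/419904)*(N-(6/5))^5*((3/2)-N)^4 + (5995017625/839808)*(N-(6/5))^6*((3/2)-N)^3 + (24868221875/6718464)*(N-(6/5))^7*((3/2)-N)^2 + (30432184375/26873856)*(N-(6/5))^8*((3/2)-N)^1 + (49081515625/322486272)*(N-(6/5))^9 := by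
    simp only [L1r, L2r, Ar, Br, Cr]
    ring
  rw [e]
  exact key (N - (6/5)) ((3/2) - N) (by linarith) (by linarith)

lemma c_I0_4 (N : ℝ) (h0 : (3/2) ≤ N) (h1 : N ≤ (9/5)) : 0 ≤ Cr N := by
  have key : ∀ u v : ℝ, 0 ≤ u → 0 ≤ v → 0 ≤ (12625/15552)*v^5 + (65525/15552)*u^1*v^4 + (16817/1944)*u^2*v^3 + (85321/9720)*u^3*v^2 + (107033/24300)*u^4*v^1 + (106373/121500)*u^5 := by
    intro u v hu hv
    positivity
  have e : Cr N = (12625/15552)*((9/5)-N)^5 + (65525/15552)*(N-(3/2))^1*((9/5)-N)^4 + (16817/1944)*(N-(3/2))^2*((9/5)-N)^3 + (85321/9720)*(N-(3/2))^3*((9/5)-N)^2 + (107033/24300)*(N-(3/2))^4*((9/5)-N)^1 + (106373/121500)*(N-(3/2))^5 := by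
    simp only [L1r, L2r, Ar, Br, Cr]
    ring
  rw [e]
  exact key (N - (3/2)) ((9/5) - N) (by linarith) (by linarith)

lemma c_I1_4 (N : ℝ) (h0 : (3/2) ≤ N) (h1 : N ≤ (9/5)) : 0 ≤ Cr N + 3 / 16 * N ^ 2 * Br N := by
  have key : ∀ u v : ℝ, 0 ≤ u → 0 ≤ v → 0 ≤ (52838125/8957952)*v^7 + (187491875/4478976)*u^1*v^6 + (124527175/746496)*u^2*v^5 + (455974315/1119744)*u^3*v^4 + (329410415/559872)*u^4*v^3 + (226921879/466560)*u^5*v^2 + (743061367/3499200)*u^6*v^1 + (332234989/8748000)*u^7 := by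
    intro u v hu hv
    positivity
  have e : Cr N + 3 / 16 * N ^ 2 * Br N = (52838125/8957952)*((9/5)-N)^7 + (187491875/4478976)*(N-(3/2))^1*((9/5)-N)^6 + (124527175/746496)*(N-(3/2))^2*((9/5)-N)^5 + (455974315/1119744)*(N-(3/2))^3*((9/5)-N)^4 + (329410415/559872)*(N-(3/2))^4*((9/5)-N)^3 + (226921879/466560)*(N-(3/2))^5*((9/5)-N)^2 + (743061367/3499200)*(N-(3/2))^6*((9/5)-N)^1 + (332234989/8748000)*(N-(3/2))^7 := by
    simp only [L1r, L2r, Ar, Br, Cr]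
    ring
  rw [e]
  exact key (N - (3/2)) ((9/5) - N) (by linarith) (by linarith)

lemma c_I2_4 (N : ℝ) (h0 : (3/2) ≤ N) (h1 : N ≤ (9/5)) : 0 ≤ Cr N + 3 / 8 * N ^ 2 * Br N + 9 / 64 * (N ^ 4 * Ar N - N - 2 * N ^ 2 - 3 * N ^ 3) := by
  have key : ∀ u v : ℝ, 0 ≤ u → 0 ≤ v → 0 ≤ (49081515625/322486272)*v^9 + (86380178125/53747712)*u^1*v^8 + (25192015625/3359232)*u^2*v^7 + (1252176125/62208)*u^3*v^6 + (114215474075/3359232)*u^4*v^5 + (62511776165/1679616)*u^5*v^4 + (2749456571/104976)*u^6*v^3 + (2966845697/262440)*u^7*v^2 + (1121175727/419904)*u^8*v^1 + (20044284631/78732000)*u^9 := by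
    intro u v hu hv
    positivity
  have e : Cr N + 3 / 8 * N ^ 2 * Br N + 9 / 64 * (N ^ 4 * Ar N - N - 2 * N ^ 2 - 3 * N ^ 3) = (49081515625/322486272)*((9/5)-N)^9 + (86380178125/53747712)*(N-(3/2))^1*((9/5)-N)^8 + (25192015625/3359232)*(N-(3/2))^2*((9/5)-N)^7 + (1252176125/62208)*(N-(3/2))^3*((9/5)-N)^6 + (114215474075/3359232)*(N-(3/2))^4*((9/5)-N)^5 + (62511776165/1679616)*(N-(3/2))^5*((9/5)-N)^4 + (2749456571/104976)*(N-(3/2))^6*((9/5)-N)^3 + (2966845697/262440)*(N-(3/2))^7*((9/5)-N)^2 + (1121175727/419904)*(N-(3/2))^8*((9/5)-N)^1 + (20044284631/78732000)*(N-(3/2))^9 := by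
    simp only [L1r, L2r, Ar, Br, Cr]
    ring
  rw [e]
  exact key (N - (3/2)) ((9/5) - N) (by linarith) (by linarith)

lemma c_II0_0 (N : ℝ) (h0 : (9/5) ≤ N) (h1 : N ≤ (11/5)) : 0 ≤ Cr N := by
  have key : ∀ u v : ℝ, 0 ≤ u → 0 ≤ v → 0 ≤ (106373/512000)*v^5 + (105493/102400)*u^1*v^4 + (102761/51200)*u^2*v^3 + (19693/10240)*u^3*v^2 + (93229/102400)*u^4*v^1 + (87757/512000)*u^5 := by
    intro u v hu hv
    positivity
  have e : Cr N = (106373/512000)*((11/5)-N)^5 + (105493/102400)*(N-(9/5))^1*((11/5)-N)^4 + (102761/51200)*(N-(9/5))^2*((11/5)-N)^3 + (19693/10240)*(N-(9/5))^3*((11/5)-N)^2 + (93229/102400)*(N-(9/5))^4*((11/5)-N)^1 + (87757/512000)*(N-(9/5))^5 := by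
    simp only [L1r, L2r, Ar, Br, Cr]
    ring
  rw [e]
  exact key (N - (9/5)) ((11/5) - N) (by linarith) (by linarith)

lemma c_II1_0 (N : ℝ) (h0 : (9/5) ≤ N) (h1 : N ≤ (11/5)) : 0 ≤ Cr N + (4 - N) ^ 2 / 8 * Br N := by
  have key : ∀ u v : ℝ, 0 ≤ u → 0 ≤ v → 0 ≤ (165608983/32768000)*v^7 + (1370523799/32768000)*u^1*v^6 + (4610968163/32768000)*u^2*v^5 + (1637955959/6553600)*u^3*v^4 + (1672433761/6553600)*u^4*v^3 + (4947887557/32768000)*u^5*v^2 + (1581352801/32768000)*u^6*v^1 + (211710097/32768000)*u^7 := by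
    intro u v hu hv
    positivity
  have e : Cr N + (4 - N) ^ 2 / 8 * Br N = (165608983/32768000)*((11/5)-N)^7 + (1370523799/32768000)*(N-(9/5))^1*((11/5)-N)^6 + (4610968163/32768000)*(N-(9/5))^2*((11/5)-N)^5 + (1637955959/6553600)*(N-(9/5))^3*((11/5)-N)^4 + (1672433761/6553600)*(N-(9/5))^4*((11/5)-N)^3 + (4947887557/32768000)*(N-(9/5))^5*((11/5)-N)^2 + (1581352801/32768000)*(N-(9/5))^6*((11/5)-N)^1 + (211710097/32768000)*(N-(9/5))^7 := by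
    simp only [L1r, L2r, Ar, Br, Cr]
    ring
  rw [e]
  exact key (N - (9/5)) ((11/5) - N) (by linarith) (by linarith)

lemma c_II2_0 (N : ℝ) (h0 : (9/5) ≤ N) (h1 : N ≤ (11/5)) : 0 ≤ N ^ 3 * Cr N + N ^ 3 * (4 - N) ^ 2 / 4 * Br N + N ^ 3 * (4 - N) ^ 4 / 16 * Ar N - (4 - N) ^ 4 * (1 + 2 * N + 3 * N ^ 2) / 16 := by
  have key : ∀ u v : ℝ, 0 ≤ u → 0 ≤ v → 0 ≤ (3672722742091/2097152000)*v^12 + (10811832589747/524288000)*u^1*v^11 + (116424732162963/1048576000)*u^2*v^10 + (37831356730819/104857600)*u^3*v^9 + (329640358819569/419430400)*u^4*v^8 + (316175134464291/262144000)*u^5*v^7 + (699927196873781/524288000)*u^6*v^6 + (281465090770411/262144000)*u^7*v^5 + (261647454799329/419430400)*u^8*v^4 + (26880511680859/104857600)*u^9*v^3 + (74654072394803/1048576000)*u^10*v^2 + (6348378337947/524288000)*u^11*v^1 + (2021798730811/2097152000)*u^12 := by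
    intro u v hu hv
    positivity
  have e : N ^ 3 * Cr N + N ^ 3 * (4 - N) ^ 2 / 4 * Br N + N ^ 3 * (4 - N) ^ 4 / 16 * Ar N - (4 - N) ^ 4 * (1 + 2 * N + 3 * N ^ 2) / 16 = (3672722742091/2097152000)*((11/5)-N)^12 + (10811832589747/524288000)*(N-(9/5))^1*((11/5)-N)^11 + (116424732162963/1048576000)*(N-(9/5))^2*((11/5)-N)^10 + (37831356730819/104857600)*(N-(9/5))^3*((11/5)-N)^9 + (329640358819569/419430400)*(N-(9/5))^4*((11/5)-N)^8 + (316175134464291/262144000)*(N-(9/5))^5*((11/5)-N)^7 + (699927196873781/524288000)*(N-(9/5))^6*((11/5)-N)^6 + (281465090770411/262144000)*(N-(9/5))^7*((11/5)-N)^5 + (261647454799329/419430400)*(N-(9/5))^8*((11/5)-N)^4 + (26880511680859/104857600)*(N-(9/5))^9*((11/5)-N)^3 + (74654072394803/1048576000)*(N-(9/5))^10*((11/5)-N)^2 + (6348378337947/524288000)*(N-(9/5))^11*((11/5)-N)^1 + (2021798730811/2097152000)*(N-(9/5))^12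 := by
    simp only [L1r, L2r, Ar, Br, Cr]
    ring
  rw [e]
  exact key (N - (9/5)) ((11/5) - N) (by linarith) (by linarith)

lemma c_II0_1 (N : ℝ) (h0 : (11/5) ≤ N) (h1 : N ≤ (13/5)) : 0 ≤ Cr N := by
  have key : ∀ u v : ℝ, 0 ≤ u → 0 ≤ v → 0 ≤ (87757/512000)*v^5 + (16457/20480)*u^1*v^4 + (76577/51200)*u^2*v^3 + (71337/51200)*u^3*v^2 + (67349/102400)*u^4*v^1 + (65221/512000)*u^5 := by
    intro u v hu hv
    positivity
  have e : Cr N = (87757/512000)*((13/5)-N)^5 + (16457/20480)*(N-(11/5))^1*((13/5)-N)^4 + (76577/51200)*(N-(11/5))^2*((13/5)-N)^3 + (71337/51200)*(N-(11/5))^3*((13/5)-N)^2 + (67349/102400)*(N-(11/5))^4*((13/5)-N)^1 + (65221/512000)*(N-(11/5))^5 := by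
    simp only [L1r, L2r, Ar, Br, Cr]
    ring
  rw [e]
  exact key (N - (11/5)) ((13/5) - N) (by linarith) (by linarith)

lemma c_II1_1 (N : ℝ) (h0 : (11/5) ≤ N) (h1 : N ≤ (13/5)) : 0 ≤ Cr N + (4 - N) ^ 2 / 8 * Br N := by
  have key : ∀ u v : ℝ, 0 ≤ u → 0 ≤ v → 0 ≤ (211710097/32768000)*v^7 + (1382588557/32768000)*u^1*v^6 + (3755302093/32768000)*u^2*v^5 + (1102873173/6553600)*u^3*v^4 + (949827559/6553600)*u^4*v^3 + (2411176791/32768000)*u^5*v^2 + (671997151/32768000)*u^6*v^1 + (79818419/32768000)*u^7 := by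
    intro u v hu hv
    positivity
  have e : Cr N + (4 - N) ^ 2 / 8 * Br N = (211710097/32768000)*((13/5)-N)^7 + (1382588557/32768000)*(N-(11/5))^1*((13/5)-N)^6 + (3755302093/32768000)*(N-(11/5))^2*((13/5)-N)^5 + (1102873173/6553600)*(N-(11/5))^3*((13/5)-N)^4 + (949827559/6553600)*(N-(11/5))^4*((13/5)-N)^3 + (2411176791/32768000)*(N-(11/5))^5*((13/5)-N)^2 + (671997151/32768000)*(N-(11/5))^6*((13/5)-N)^1 + (79818419/32768000)*(N-(11/5))^7 := by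
    simp only [L1r, L2r, Ar, Br, Cr]
    ring
  rw [e]
  exact key (N - (11/5)) ((13/5) - N) (by linarith) (by linarith)

lemma c_II2_1 (N : ℝ) (h0 : (11/5) ≤ N) (h1 : N ≤ (13/5)) : 0 ≤ N ^ 3 * Cr N + N ^ 3 * (4 - N) ^ 2 / 4 * Br N + N ^ 3 * (4 - N) ^ 4 / 16 * Ar N - (4 - N) ^ 4 * (1 + 2 * N + 3 * N ^ 2) / 16 := by
  have key : ∀ u v : ℝ, 0 ≤ u → 0 ≤ v → 0 ≤ (2021798730811/2097152000)*v^12 + (5782414046919/524288000)*u^1*v^11 + (62202857992187/1048576000)*u^2*v^10 + (21017274550447/104857600)*u^3*v^9 + (199985490935889/419430400)*u^4*v^8 + (220342193895527/262144000)*u^5*v^7 + (585717790892509/524288000)*u^6*v^6 + (292247010898023/262144000)*u^7*v^5 + (343599410772689/419430400)*u^8*v^4 + (44891582038703/104857600)*u^9*v^3 + (157300290996987/1048576000)*u^10*v^2 + (16520249669831/524288000)*u^11*v^1 + (6277628532411/2097152000)*u^12 := by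
    intro u v hu hv
    positivity
  have e : N ^ 3 * Cr N + N ^ 3 * (4 - N) ^ 2 / 4 * Br N + N ^ 3 * (4 - N) ^ 4 / 16 * Ar N - (4 - N) ^ 4 * (1 + 2 * N + 3 * N ^ 2) / 16 = (2021798730811/2097152000)*((13/5)-N)^12 + (5782414046919/524288000)*(N-(11/5))^1*((13/5)-N)^11 + (62202857992187/1048576000)*(N-(11/5))^2*((13/5)-N)^10 + (21017274550447/104857600)*(N-(11/5))^3*((13/5)-N)^9 + (199985490935889/419430400)*(N-(11/5))^4*((13/5)-N)^8 + (220342193895527/262144000)*(N-(11/5))^5*((13/5)-N)^7 + (585717790892509/524288000)*(N-(11/5))^6*((13/5)-N)^6 + (292247010898023/262144000)*(N-(11/5))^7*((13/5)-N)^5 + (343599410772689/419430400)*(N-(11/5))^8*((13/5)-N)^4 + (44891582038703/104857600)*(N-(11/5))^9*((13/5)-N)^3 + (157300290996987/1048576000)*(N-(11/5))^10*((13/5)-N)^2 + (16520249669831/524288000)*(N-(11/5))^11*((13/5)-N)^1 + (6277628532411/2097152000)*(N-(11/5))^12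 := by
    simp only [L1r, L2r, Ar, Br, Cr]
    ring
  rw [e]
  exact key (N - (11/5)) ((13/5) - N) (by linarith) (by linarith)

lemma c_II0_2 (N : ℝ) (h0 : (13/5) ≤ N) (h1 : N ≤ 3) : 0 ≤ Cr N := by
  have key : ∀ u v : ℝ, 0 ≤ u → 0 ≤ v → 0 ≤ (65221/512000)*v^5 + (63093/102400)*u^1*v^4 + (2513/2048)*u^2*v^3 + (2601/2048)*u^3*v^2 + (2805/4096)*u^4*v^1 + (625/4096)*u^5 := by
    intro u v hu hv
    positivity
  have e : Cr N = (65221/512000)*(3-N)^5 + (63093/102400)*(N-(13/5))^1*(3-N)^4 + (2513/2048)*(N-(13/5))^2*(3-N)^3 + (2601/2048)*(N-(13/5))^3*(3-N)^2 + (2805/4096)*(N-(13/5))^4*(3-N)^1 + (625/4096)*(N-(13/5))^5 := by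
    simp only [L1r, L2r, Ar, Br, Cr]
    ring
  rw [e]
  exact key (N - (13/5)) (3 - N) (by linarith) (by linarith)

lemma c_II1_2 (N : ℝ) (h0 : (13/5) ≤ N) (h1 : N ≤ 3) : 0 ≤ Cr N + (4 - N) ^ 2 / 8 * Br N := by
  have key : ∀ u v : ℝ, 0 ≤ u → 0 ≤ v → 0 ≤ (79818419/32768000)*v^7 + (89092143/6553600)*u^1*v^6 + (42078327/1310720)*u^2*v^5 + (11135667/262144)*u^3*v^4 + (9176845/262144)*u^4*v^3 + (4835125/262144)*u^5*v^2 + (1525625/262144)*u^6*v^1 + (220625/262144)*u^7 := by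
    intro u v hu hv
    positivity
  have e : Cr N + (4 - N) ^ 2 / 8 * Br N = (79818419/32768000)*(3-N)^7 + (89092143/6553600)*(N-(13/5))^1*(3-N)^6 + (42078327/1310720)*(N-(13/5))^2*(3-N)^5 + (11135667/262144)*(N-(13/5))^3*(3-N)^4 + (9176845/262144)*(N-(13/5))^4*(3-N)^3 + (4835125/262144)*(N-(13/5))^5*(3-N)^2 + (1525625/262144)*(N-(13/5))^6*(3-N)^1 + (220625/262144)*(N-(13/5))^7 := by
    simp only [L1r, L2r, Ar, Br, Cr]
    ring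
  rw [e]
  exact key (N - (13/5)) (3 - N) (by linarith) (by linarith)

lemma c_II2_2 (N : ℝ) (h0 : (13/5) ≤ N) (h1 : N ≤ 3) : 0 ≤ N ^ 3 * Cr N + N ^ 3 * (4 - N) ^ 2 / 4 * Br N + N ^ 3 * (4 - N) ^ 4 / 16 * Ar N - (4 - N) ^ 4 * (1 + 2 * N + 3 * N ^ 2) / 16 := by
  have key : ∀ u v : ℝ, 0 ≤ u → 0 ≤ v → 0 ≤ (6277628532411/2097152000)*v^12 + (4229104304927/104857600)*u^1*v^11 + (10362250872107/41943040)*u^2*v^10 + (3809973013395/4194304)*u^3*v^9 + (37416255990665/16777216)*u^4*v^8 + (8071323715975/2097152)*u^5*v^7 + (20068650585625/4194304)*u^6*v^6 + (9052811769375/2097152)*u^7*v^5 + (47060539865625/16777216)*u^8*v^4 + (5371604546875/4194304)*u^9*v^3 + (3273138359375/8388608)*u^10*v^2 + (298980859375/4194304)*u^11*v^1 + (99177734375/16777216)*u^12 := by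
    intro u v hu hv
    positivity
  have e : N ^ 3 * Cr N + N ^ 3 * (4 - N) ^ 2 / 4 * Br N + N ^ 3 * (4 - N) ^ 4 / 16 * Ar N - (4 - N) ^ 4 * (1 + 2 * N + 3 * N ^ 2) / 16 = (6277628532411/2097152000)*(3-N)^12 + (4229104304927/104857600)*(N-(13/5))^1*(3-N)^11 + (10362250872107/41943040)*(N-(13/5))^2*(3-N)^10 + (3809973013395/4194304)*(N-(13/5))^3*(3-N)^9 + (37416255990665/16777216)*(N-(13/5))^4*(3-N)^8 + (8071323715975/2097152)*(N-(13/5))^5*(3-N)^7 + (20068650585625/4194304)*(N-(13/5))^6*(3-N)^6 + (9052811769375/2097152)*(N-(13/5))^7*(3-N)^5 + (47060539865625/16777216)*(N-(13/5))^8*(3-N)^4 + (5371604546875/4194304)*(N-(13/5))^9*(3-N)^3 + (3273138359375/8388608)*(N-(13/5))^10*(3-N)^2 + (298980859375/4194304)*(N-(13/5))^11*(3-N)^1 + (99177734375/16777216)*(N-(13/5))^12 := by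
    simp only [L1r, L2r, Ar, Br, Cr]
    ring
  rw [e]
  exact key (N - (13/5)) (3 - N) (by linarith) (by linarith)

lemma c_II0_3 (N : ℝ) (h0 : 3 ≤ N) (h1 : N ≤ 4) : 0 ≤ Cr N := by
  have key : ∀ u v : ℝ, 0 ≤ u → 0 ≤ v → 0 ≤ (1/640)*v^5 + (157/16000)*u^1*v^4 + (109/4000)*u^2*v^3 + (77/2000)*u^3*v^2 + (1/40)*u^4*v^1 + (1/200)*u^5 := by
    intro u v hu hv
    positivity
  have e : Cr N = (1/640)*(4-N)^5 + (157/16000)*(N-3)^1*(4-N)^4 + (109/4000)*(N-3)^2*(4-N)^3 + (77/2000)*(N-3)^3*(4-N)^2 + (1/40)*(N-3)^4*(4-N)^1 + (1/200)*(N-3)^5 := by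
    simp only [L1r, L2r, Ar, Br, Cr]
    ring
  rw [e]
  exact key (N - 3) (4 - N) (by linarith) (by linarith)

lemma c_II1_3 (N : ℝ) (h0 : 3 ≤ N) (h1 : N ≤ 4) : 0 ≤ Cr N + (4 - N) ^ 2 / 8 * Br N := by
  have key : ∀ u v : ℝ, 0 ≤ u → 0 ≤ v → 0 ≤ (353/256000)*v^7 + (1273/128000)*u^1*v^6 + (43/1000)*u^2*v^5 + (3139/32000)*u^3*v^4 + (353/3200)*u^4*v^3 + (113/1600)*u^5*v^2 + (7/200)*u^6*v^1 + (1/200)*u^7 := by
    intro u v hu hv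
    positivity
  have e : Cr N + (4 - N) ^ 2 / 8 * Br N = (353/256000)*(4-N)^7 + (1273/128000)*(N-3)^1*(4-N)^6 + (43/1000)*(N-3)^2*(4-N)^5 + (3139/32000)*(N-3)^3*(4-N)^4 + (353/3200)*(N-3)^4*(4-N)^3 + (113/1600)*(N-3)^5*(4-N)^2 + (7/200)*(N-3)^6*(4-N)^1 + (1/200)*(N-3)^7 := by
    simp only [L1r, L2r, Ar, Br, Cr]
    ring
  rw [e]
  exact key (N - 3) (4 - N) (by linarith) (by linarith)

lemma c_II2_3 (N : ℝ) (h0 : 3 ≤ N) (h1 : N ≤ 4) : 0 ≤ N ^ 3 * Cr N + N ^ 3 * (4 - N) ^ 2 / 4 * Br N + N ^ 3 * (4 - N) ^ 4 / 16 * Ar N - (4 - N) ^ 4 * (1 + 2 * N + 3 * N ^ 2) / 16 := by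
  have key : ∀ u v : ℝ, 0 ≤ u → 0 ≤ v → 0 ≤ (50779/512000)*v^12 + (37621/32000)*u^1*v^11 + (15339/2560)*u^2*v^10 + (278131/16000)*u^3*v^9 + (105321/3200)*u^4*v^8 + (46911/1000)*u^5*v^7 + (471857/8000)*u^6*v^6 + (267847/4000)*u^7*v^5 + (23883/400)*u^8*v^4 + (36871/1000)*u^9*v^3 + (3719/250)*u^10*v^2 + (18/5)*u^11*v^1 + (8/25)*u^12 := by
    intro u v hu hv
    positivity
  have e : N ^ 3 * Cr N + N ^ 3 * (4 - N) ^ 2 / 4 * Br N + N ^ 3 * (4 - N) ^ 4 / 16 * Ar N - (4 - N) ^ 4 * (1 + 2 * N + 3 * N ^ 2) / 16 = (50779/512000)*(4-N)^12 + (37621/32000)*(N-3)^1*(4-N)^11 + (15339/2560)*(N-3)^2*(4-N)^10 + (278131/16000)*(N-3)^3*(4-N)^9 + (105321/3200)*(N-3)^4*(4-N)^8 + (46911/1000)*(N-3)^5*(4-N)^7 + (471857/8000)*(N-3)^6*(4-N)^6 + (267847/4000)*(N-3)^7*(4-N)^5 + (23883/400)*(N-3)^8*(4-N)^4 + (36871/1000)*(N-3)^9*(4-N)^3 + (3719/250)*(N-3)^10*(4-N)^2 + (18/5)*(N-3)^11*(4-N)^1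 + (8/25)*(N-3)^12 := by
    simp only [L1r, L2r, Ar, Br, Cr]
    ring
  rw [e]
  exact key (N - 3) (4 - N) (by linarith) (by linarith)

theorem b_L1 (N : ℝ) (h0 : 0 ≤ N) (h1 : N ≤ 4) : 0 ≤ 1 - N * L1r N := by
  rcases le_total N (2/5) with h2 | h2
  · exact c_L1_0 N (by linarith) h2
  rcases le_total N (4/5) with h3 | h3
  · exact c_L1_1 N (by linarith) h3
  rcases le_total N (6/5) with h4 | h4
  · exact c_L1_2 N (by linarith) h4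
  rcases le_total N (8/5) with h5 | h5
  · exact c_L1_3 N (by linarith) h5
  rcases le_total N 2 with h6 | h6
  · exact c_L1_4 N (by linarith) h6
  rcases le_total N (12/5) with h7 | h7
  · exact c_L1_5 N (by linarith) h7
  rcases le_total N 3 with h8 | h8
  · exact c_L1_6 N (by linarith) h8
  exact c_L1_7 N (by linarith) h1

theorem b_L2 (N : ℝ) (h0 : 0 ≤ N) (h1 : N ≤ 4) : 0 ≤ 1 + 2 * N - N ^ 2 * L2r N := by
  rcases le_total N (2/5) with h2 | h2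
  · exact c_L2_0 N (by linarith) h2
  rcases le_total N (4/5) with h3 | h3
  · exact c_L2_1 N (by linarith) h3
  rcases le_total N (6/5) with h4 | h4
  · exact c_L2_2 N (by linarith) h4
  rcases le_total N (8/5) with h5 | h5
  · exact c_L2_3 N (by linarith) h5
  rcases le_total N 2 with h6 | h6
  · exact c_L2_4 N (by linarith) h6
  rcases le_total N (12/5) with h7 | h7
  · exact c_L2_5 N (by linarith) h7
  rcases le_total N 3 with h8 | h8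
  · exact c_L2_6 N (by linarith) h8
  exact c_L2_7 N (by linarith) h1

theorem b_I0 (N : ℝ) (h0 : 0 ≤ N) (h1 : N ≤ (9/5)) : 0 ≤ Cr N := by
  rcases le_total N (2/5) with h2 | h2
  · exact c_I0_0 N (by linarith) h2
  rcases le_total N (4/5) with h3 | h3
  · exact c_I0_1 N (by linarith) h3
  rcases le_total N (6/5) with h4 | h4
  · exact c_I0_2 N (by linarith) h4
  rcases le_total N (3/2) with h5 | h5
  · exact c_I0_3 N (by linarith) h5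
  exact c_I0_4 N (by linarith) h1

theorem b_I1 (N : ℝ) (h0 : 0 ≤ N) (h1 : N ≤ (9/5)) : 0 ≤ Cr N + 3 / 16 * N ^ 2 * Br N := by
  rcases le_total N (2/5) with h2 | h2
  · exact c_I1_0 N (by linarith) h2
  rcases le_total N (4/5) with h3 | h3
  · exact c_I1_1 N (by linarith) h3
  rcases le_total N (6/5) with h4 | h4
  · exact c_I1_2 N (by linarith) h4
  rcases le_total N (3/2) with h5 | h5
  · exact c_I1_3 N (by linarith) h5
  exact c_I1_4 N (by linarith) h1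

theorem b_I2 (N : ℝ) (h0 : 0 ≤ N) (h1 : N ≤ (9/5)) : 0 ≤ Cr N + 3 / 8 * N ^ 2 * Br N + 9 / 64 * (N ^ 4 * Ar N - N - 2 * N ^ 2 - 3 * N ^ 3) := by
  rcases le_total N (2/5) with h2 | h2
  · exact c_I2_0 N (by linarith) h2
  rcases le_total N (4/5) with h3 | h3
  · exact c_I2_1 N (by linarith) h3
  rcases le_total N (6/5) with h4 | h4
  · exact c_I2_2 N (by linarith) h4
  rcases le_total N (3/2) with h5 | h5
  · exact c_I2_3 N (by linarith) h5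
  exact c_I2_4 N (by linarith) h1

theorem b_II0 (N : ℝ) (h0 : (9/5) ≤ N) (h1 : N ≤ 4) : 0 ≤ Cr N := by
  rcases le_total N (11/5) with h2 | h2
  · exact c_II0_0 N (by linarith) h2
  rcases le_total N (13/5) with h3 | h3
  · exact c_II0_1 N (by linarith) h3
  rcases le_total N 3 with h4 | h4
  · exact c_II0_2 N (by linarith) h4
  exact c_II0_3 N (by linarith) h1

theorem b_II1 (N : ℝ) (h0 : (9/5) ≤ N) (h1 : N ≤ 4) : 0 ≤ Cr N + (4 - N) ^ 2 / 8 * Br N := by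
  rcases le_total N (11/5) with h2 | h2
  · exact c_II1_0 N (by linarith) h2
  rcases le_total N (13/5) with h3 | h3
  · exact c_II1_1 N (by linarith) h3
  rcases le_total N 3 with h4 | h4
  · exact c_II1_2 N (by linarith) h4
  exact c_II1_3 N (by linarith) h1

theorem b_II2 (N : ℝ) (h0 : (9/5) ≤ N) (h1 : N ≤ 4) : 0 ≤ N ^ 3 * Cr N + N ^ 3 * (4 - N) ^ 2 / 4 * Br N + N ^ 3 * (4 - N) ^ 4 / 16 * Ar N - (4 - N) ^ 4 * (1 + 2 * N + 3 * N ^ 2) / 16 := by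
  rcases le_total N (11/5) with h2 | h2
  · exact c_II2_0 N (by linarith) h2
  rcases le_total N (13/5) with h3 | h3
  · exact c_II2_1 N (by linarith) h3
  rcases le_total N 3 with h4 | h4
  · exact c_II2_2 N (by linarith) h4
  exact c_II2_3 N (by linarith) h1

end

end Vale.Agent.Lib.P154R
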