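import Vale.Agent.Lib.P154R.Kron4

/-!
# The row check for a sum of products of homogeneous polynomials
-/

open MvPolynomial Finset

namespace Vale.Agent.Lib.P154R

open Ex

/-! ### Unpacking into signed digits -/

/-- The value of a list of digits. -/
def packL (W : ℕ) : List ℤ → ℤ
  | [] => 0
  | x :: l => x + (2 : ℤ) ^ W * packL W l

lemma packL_eq (W : ℕ) : ∀ (l : List ℤ), packL W l = ∑ j ∈ range l.length, l.getD j 0 * (2 : ℤ) ^ (W * j)
  | [] => by simp [packL]
  | x :: l => by
    rw [packL, packL_eq W l, List.length_cons, Finset.sum_range_succ', Finset.mul_sum]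
    simp only [List.getD_cons_zero, List.getD_cons_succ, Nat.mul_zero, pow_zero, mul_one]
    rw [add_comm]
    congr 1
    apply Finset.sum_congr rfl
    intro k _
    rw [Nat.mul_add, pow_add, mul_one]
    ring

/-- Digits in base `2 ^ W`, from the lowest, by halving, followed by a given list. -/
noncomputable def unpN (W : ℕ) (k : ℕ) : ℕ → List ℕ → List ℕ :=
  Nat.rec (fun X acc => X :: acc)
    (fun j ih X acc =>
      ih (Nat.land X ((1 : ℕ) <<< (W * 2 ^ j) - 1)) (ih (Nat.shiftRight X (W * 2 ^ j)) acc)) k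

lemma unpN_zero (W : ℕ) (X : ℕ) (acc : List ℕ) : unpN W 0 X acc = X :: acc := rfl

lemma unpN_succ (W j : ℕ) (X : ℕ) (acc : List ℕ) : unpN W (j + 1) X acc =
    unpN W j (Nat.land X ((1 : ℕ) <<< (W * 2 ^ j) - 1)) (unpN W j (Nat.shiftRight X (W * 2 ^ j)) acc) := rfl

lemma length_unpN (W : ℕ) : ∀ (k : ℕ) (X : ℕ) (acc : List ℕ),
    (unpN W k X acc).length = 2 ^ k + acc.length
  | 0, X, acc => by simp [unpN_zero]; omega
  | k + 1, X, acc => by
    rw [unpN_succ, length_unpN W k, length_unpN W k]
    ring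

/-- The value of a list of natural digits. -/
def packN (W : ℕ) : List ℕ → ℕ
  | [] => 0
  | x :: l => x + 2 ^ W * packN W l

lemma packN_unpN (W : ℕ) : ∀ (k : ℕ) (X : ℕ) (acc : List ℕ),
    packN W (unpN W k X acc) = X + 2 ^ (W * 2 ^ k) * packN W acc
  | 0, X, acc => by simp [unpN_zero, packN]
  | k + 1, X, acc => by
    rw [unpN_succ, packN_unpN W k, packN_unpN W k]
    have h1 : Nat.land X ((1 : ℕ) <<< (W * 2 ^ k) - 1) = X % 2 ^ (W * 2 ^ k) := by
      have e : Nat.land X ((1 : ℕ) <<< (W * 2 ^ k) - 1) = X &&& (2 ^ (W * 2 ^ k) - 1) := by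
        rw [Nat.one_shiftLeft]
        rfl
      rw [e, Nat.and_two_pow_sub_one_eq_mod]
    have h2 : Nat.shiftRight X (W * 2 ^ k) = X / 2 ^ (W * 2 ^ k) := Nat.shiftRight_eq_div_pow _ _
    rw [h1, h2]
    have h3 : 2 ^ (W * 2 ^ (k + 1)) = 2 ^ (W * 2 ^ k) * 2 ^ (W * 2 ^ k) := by
      rw [← pow_add]
      congr 1
      ring
    have h4 := Nat.mod_add_div X (2 ^ (W * 2 ^ k))
    rw [h3]
    nlinarith [h4]

/-- Signed digits from natural digits. -/
def sgn (h : ℕ) (x : ℕ) : ℤ := Int.subNatNat x h

lemma sgn_eq (h x : ℕ) : sgn h x = (x : ℤ) - h := by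
  simp [sgn, Int.subNatNat_eq_coe]

lemma packL_map (W h : ℕ) : ∀ l : List ℕ, packL W (l.map (sgn h)) =
    (packN W l : ℤ) - packL W (l.map (fun _ => (h : ℤ)))
  | [] => by simp [packL, packN]
  | x :: l => by
    simp only [List.map_cons, packL, packN, sgn_eq]
    rw [packL_map W h l]
    push_cast
    ring

lemma packL_const {W : ℕ} (hW : 0 < W) : ∀ l : List ℕ, packL W (l.map (fun _ => ((2 ^ (W - 1) : ℕ) : ℤ))) =
    (Vale.Agent.Lib.P154K.maskR W l.length : ℤ)
  | [] => by simp [packL, Vale.Agent.Lib.P154K.maskR]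
  | x :: l => by
    simp only [List.map_cons, packL, List.length_cons, Vale.Agent.Lib.P154K.maskR]
    rw [packL_const hW l]
    push_cast
    ring

/-! ### One row -/

/-- The combination of the Kronecker values of a row. -/
def dotRow : List ℤ → List ℤ → ℤ
  | r :: rs, f :: fs => Int.add (Int.mul r f) (dotRow rs fs)
  | _, _ => 0

/-- The bound of the coefficients of the combination of a row. -/
def majRow : List ℤ → List ℕ → ℕ
  | r :: rs, m :: ms => r.natAbs * m + majRow rs ms
  | _, _ => 0

/-- All digits of a row are small. -/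
def smallRow (lim : ℕ) : List ℤ → Bool
  | [] => true
  | r :: rs => Nat.blt r.natAbs lim && smallRow lim rs

/-- All digits of a row vanish. -/
def zeroRow : List ℤ → Bool
  | [] => true
  | r :: rs => (match r with
      | .ofNat x => Nat.beq x 0
      | .negSucc _ => false) && zeroRow rs

/-- The check of one row. -/
def rowOk (lim mask : ℕ) (Φ : List ℤ) (M : List ℕ) (r : List ℤ) : Bool :=
  zeroRow r || (smallRow lim r && Nat.blt (majRow r M) lim &&
    (match dotRow r Φ with
     | .ofNat N => Nat.beq (N &&& mask) 0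
     | .negSucc _ => false))

/-! ### The columns -/

/-- The polynomial of a row of coefficients. -/
noncomputable def rowP : List ℤ → List Ex → MvPolynomial (Fin 4) ℤ
  | r :: rs, e :: es => C r * e.poly + rowP rs es
  | _, _ => 0

lemma rowP_hom {n : ℕ} : ∀ (r : List ℤ) (Bs : List Ex), (∀ e ∈ Bs, e.deg = some n) → Hom (rowP r Bs) n
  | [], _, _ => by
    intro d hd
    simp [rowP] at hd
  | _ :: _, [], _ => by
    intro d hd
    simp [rowP] at hd
  | r :: rs, e :: es, h => by
    have h1 : Hom (C r * e.poly) n := by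
      intro d hd
      rw [coeff_C_mul] at hd
      exact deg_hom e n (h e (by simp)) d (right_ne_zero_of_mul hd)
    exact h1.add (rowP_hom rs es fun e' he' => h e' (by simp [he']))

lemma rowP_eval (w : Fin 4 → ℤ) : ∀ (r : List ℤ) (Bs : List Ex),
    eval₂ (RingHom.id ℤ) w (rowP r Bs) = dotRow r (Bs.map (kron w))
  | [], _ => by simp [rowP, dotRow]
  | _ :: _, [] => by simp [rowP, dotRow]
  | r :: rs, e :: es => by
    simp only [rowP, eval₂_add, eval₂_mul, eval₂_C, List.map_cons, dotRow, rowP_eval w rs es, ← kron_eq]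
    rfl

lemma rowP_coeff : ∀ (r : List ℤ) (Bs : List Ex) (d : Fin 4 →₀ ℕ),
    |coeff d (rowP r Bs)| ≤ (majRow r (Bs.map maj) : ℤ)
  | [], _, d => by simp [rowP, majRow]
  | _ :: _, [], d => by simp [rowP, majRow]
  | r :: rs, e :: es, d => by
    simp only [rowP, coeff_add, coeff_C_mul, List.map_cons, majRow]
    push_cast
    refine (abs_add_le _ _).trans (add_le_add ?_ (rowP_coeff rs es d))
    rw [abs_mul]
    have h1 : |r| = (r.natAbs : ℤ) := Int.abs_eq_natAbs r
    rw [h1]
    exact mul_le_mul_of_nonneg_left (Ex.abs_coeff_le e d) (by positivity)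

/-- The value of a row at a point. -/
noncomputable def rowV (β : Fin 4 → ℝ) : List ℤ → List Ex → ℝ
  | r :: rs, e :: es => (r : ℝ) * e.val β + rowV β rs es
  | _, _ => 0

lemma rowP_val (β : Fin 4 → ℝ) : ∀ (r : List ℤ) (Bs : List Ex),
    eval₂ (Int.castRingHom ℝ) β (rowP r Bs) = rowV β r Bs
  | [], _ => by simp [rowP, rowV]
  | _ :: _, [] => by simp [rowP, rowV]
  | r :: rs, e :: es => by
    simp only [rowP, eval₂_add, eval₂_mul, eval₂_C, rowV, rowP_val β rs es, ← Ex.val_eq]
    simp

lemma zeroRow_mem : ∀ (r : List ℤ), zeroRow r = true → ∀ x ∈ r, x = 0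
  | [], _, x, hx => by simp at hx
  | y :: ys, h, x, hx => by
    simp only [zeroRow, Bool.and_eq_true] at h
    rcases List.mem_cons.1 hx with rfl | hx
    · cases x with
      | ofNat x =>
        have := Nat.eq_of_beq_eq_true h.1
        simp [this]
      | negSucc x => simp at h
    · exact zeroRow_mem ys h.2 x hx

lemma rowV_zero (β : Fin 4 → ℝ) : ∀ (r : List ℤ) (Bs : List Ex), zeroRow r = true → rowV β r Bs = 0
  | [], _, _ => by simp [rowV]
  | _ :: _, [], _ => by simp [rowV]
  | r :: rs, e :: es, h => by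
    have h1 := zeroRow_mem _ h r (by simp)
    simp only [zeroRow, Bool.and_eq_true] at h
    simp only [rowV, rowV_zero β rs es h.2, h1]
    simp

/-- The row check gives a nonnegative value at nonnegative points. -/
theorem rowOk_sound {W n K : ℕ} (hW : 0 < W) (hK : (n + 1) ^ 3 ≤ K) {r : List ℤ} {Bs : List Ex}
    (hd : ∀ e ∈ Bs, e.deg = some n)
    (h : rowOk ((1 : ℕ) <<< (W - 1)) (maskOf W K) (Bs.map (kron (kPt W (n + 1)))) (Bs.map maj) r = true)
    (β : Fin 4 → ℝ) (hβ : ∀ i, 0 ≤ β i) : 0 ≤ rowV β r Bs := by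
  simp only [rowOk, Bool.or_eq_true, Bool.and_eq_true] at h
  rcases h with h0 | h
  · rw [rowV_zero β r Bs h0]
  obtain ⟨⟨_, h2⟩, h3⟩ := h
  have hL : majRow r (Bs.map maj) < 2 ^ (W - 1) := by simpa [Nat.one_shiftLeft, Nat.blt_eq] using h2
  have hb : ∀ d, |coeff d (rowP r Bs)| < (2 : ℤ) ^ (W - 1) := fun d =>
    lt_of_le_of_lt (rowP_coeff r Bs d) (by exact_mod_cast hL)
  have hH := rowP_hom (n := n) r Bs hd
  rw [← rowP_val, eval₂_eq']
  refine Finset.sum_nonneg fun d _ => mul_nonneg ?_ (Finset.prod_nonneg fun i _ => pow_nonneg (hβ i) _)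
  simp only [eq_intCast]
  split at h3
  · rename_i N hN
    have hm : N &&& maskOf W K = 0 := by simpa using h3
    have hV : eval₂ (RingHom.id ℤ) (kPt W (n + 1)) (rowP r Bs) = (N : ℤ) := by
      rw [rowP_eval, hN]
      rfl
    exact_mod_cast coeff_nonneg_of_mask hW hH hK hb hV hm d
  · simp at h3

/-- The digits are small when the rows are. -/
lemma smallRow_sound {lim : ℕ} : ∀ (r : List ℤ), smallRow lim r = true → ∀ x ∈ r, x.natAbs < lim
  | [], _, x, hx => by simp at hx
  | y :: ys, h, x, hx => by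
    simp only [smallRow, Bool.and_eq_true] at h
    rcases List.mem_cons.1 hx with rfl | hx
    · simpa [Nat.blt_eq] using h.1
    · exact smallRow_sound ys h.2 x hx

/-- The digits of `A` in a list. -/
noncomputable def digsOf (W k n : ℕ) (A : Ex) : List ℤ :=
  match Int.add (A.kron (kPt W (n + 1))) (Int.ofNat (maskOf W (2 ^ k))) with
  | .ofNat X => (unpN W k X []).map (sgn ((1 : ℕ) <<< (W - 1)))
  | .negSucc _ => []

/-- The digits are defined. -/
def digsDef (W k n : ℕ) (A : Ex) : Bool :=
  match Int.add (A.kron (kPt W (n + 1))) (Int.ofNat (maskOf W (2 ^ k))) with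
  | .ofNat _ => true
  | .negSucc _ => false

lemma digsOf_length {W k n : ℕ} {A : Ex} (h : digsDef W k n A = true) : (digsOf W k n A).length = 2 ^ k := by
  unfold digsDef at h
  unfold digsOf
  split
  · simp [length_unpN]
  · rename_i m hm
    rw [hm] at h
    simp at h

lemma packL_digs {W k n : ℕ} {A : Ex} (hW : 0 < W) (h : digsDef W k n A = true) :
    packL W (digsOf W k n A) = A.kron (kPt W (n + 1)) := by
  unfold digsDef at h
  unfold digsOf
  split
  · rename_i X hX
    have hS : (1 : ℕ) <<< (W - 1) = 2 ^ (W - 1) := Nat.one_shiftLeft _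
    rw [hS, packL_map, packN_unpN]
    rw [packL_const hW, length_unpN]
    simp only [packN, mul_zero, add_zero, List.length_nil]
    have hm := maskOf_eq W (2 ^ k) hW
    have e : (X : ℤ) = A.kron (kPt W (n + 1)) + (maskOf W (2 ^ k) : ℤ) := by
      have h5 : Int.add (A.kron (kPt W (n + 1))) (Int.ofNat (maskOf W (2 ^ k))) = Int.ofNat X := hX
      have h6 : A.kron (kPt W (n + 1)) + (maskOf W (2 ^ k) : ℤ) = (X : ℤ) := h5
      exact h6.symm
    rw [e, hm]
    ring
  · rename_i m hm
    rw [hm] at h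
    simp at h

/-- The coefficients of a homogeneous expression are the digits of the list. -/
theorem coeff_eq_digs {W k n : ℕ} (hW : 0 < W) (hK : (n + 1) ^ 3 ≤ 2 ^ k) {A : Ex} (hdeg : A.deg = some n)
    (hmaj : A.maj < 2 ^ (W - 1)) (hD : digsDef W k n A = true)
    (hs : ∀ i, i < 2 ^ k → ((digsOf W k n A).getD i 0).natAbs < 2 ^ (W - 1))
    (d : Fin 4 →₀ ℕ) (hd : td d = n) :
    coeff d A.poly = (digsOf W k n A).getD (idx (n + 1) d) 0 := by
  have hH := Ex.deg_hom A n hdeg
  have hb : ∀ d, |coeff d A.poly| < (2 : ℤ) ^ (W - 1) := fun d =>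
    lt_of_le_of_lt (Ex.abs_coeff_le A d) (by exact_mod_cast hmaj)
  have h1 := eval_dg W hH hK
  have h2 := packL_digs hW hD
  rw [packL_eq, digsOf_length hD, Ex.kron_eq] at h2
  rw [← h2] at h1
  have hi := idx_lt hd
  have := digits_unique hW (2 ^ k) (dg A.poly (n + 1)) (fun j => (digsOf W k n A).getD j 0) h1.symm
    (dg_abs_lt (by positivity) hH hb) (fun j => by
      by_cases hj : j < 2 ^ k
      · have := hs j hj
        rw [Int.abs_eq_natAbs]
        exact_mod_cast this
      · have : (digsOf W k n A).getD j 0 = 0 := by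
          rw [List.getD_eq_default]
          rw [digsOf_length hD]
          omega
        rw [this, abs_zero]
        positivity) (idx (n + 1) d) (hi.trans_le hK)
  rw [← dg_idx hH d hd]
  exact this

/-- The main statement: the sum of products of two lists of homogeneous expressions. -/
noncomputable def sumV (α β : Fin 4 → ℝ) : List (Ex × Ex) → ℝ
  | [] => 0
  | C :: Cs => C.1.val α * C.2.val β + sumV α β Cs

/-- The left and right columns. -/
def colsA (Cs : List (Ex × Ex)) : List Ex := Cs.map (fun C => C.1)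

/-- The right columns. -/
def colsB (Cs : List (Ex × Ex)) : List Ex := Cs.map (fun C => C.2)

/-- The digit lists. -/
noncomputable def colsD (W k n : ℕ) (Cs : List (Ex × Ex)) : List (List ℤ) := Cs.map (fun C => digsOf W k n C.1)

/-- The conditions on the columns. -/
def colsHead (W k n : ℕ) (Cs : List (Ex × Ex)) : Bool :=
  Nat.blt 0 W && Nat.ble ((n + 1) ^ 3) (2 ^ k) &&
  Cs.all (fun C =>
    (match C.1.deg with
     | some x => Nat.beq x n
     | none => false) &&
    (match C.2.deg with
     | some x => Nat.beq x n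
     | none => false) &&
    Nat.blt C.1.maj ((1 : ℕ) <<< (W - 1)) && digsDef W k n C.1)

/-- Adding a column to the rows. -/
noncomputable def addCol : List ℤ → List (List ℤ) → List (List ℤ) :=
  fun xs => List.rec (fun _ => []) (fun x _ ih rs =>
    List.casesOn (motive := fun _ => List (List ℤ)) rs [] (fun r rs' => (x :: r) :: ih rs')) xs

lemma addCol_nil (rs : List (List ℤ)) : addCol [] rs = [] := rfl
lemma addCol_cons_nil (x : ℤ) (xs : List ℤ) : addCol (x :: xs) [] = [] := rfl
lemma addCol_cons (x : ℤ) (xs : List ℤ) (r : List ℤ) (rs : List (List ℤ)) :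
    addCol (x :: xs) (r :: rs) = (x :: r) :: addCol xs rs := rfl

lemma addCol_getD : ∀ (xs : List ℤ) (rs : List (List ℤ)), xs.length = rs.length →
    (addCol xs rs).length = xs.length ∧ ∀ i, i < xs.length → (addCol xs rs).getD i [] = xs.getD i 0 :: rs.getD i []
  | [], rs, _ => by simp [addCol_nil]
  | x :: xs, [], h => by simp at h
  | x :: xs, r :: rs, h => by
    have h' : xs.length = rs.length := by simpa using h
    obtain ⟨h1, h2⟩ := addCol_getD xs rs h'
    rw [addCol_cons]
    refine ⟨by simp [h1], ?_⟩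
    intro i hi
    cases i with
    | zero => simp
    | succ i =>
      simp only [List.getD_cons_succ]
      exact h2 i (by simpa using hi)

/-- The rows of a list of columns of length `K`. -/
noncomputable def transp (K : ℕ) (Ds : List (List ℤ)) : List (List ℤ) :=
  Ds.foldr addCol (List.replicate K [])

lemma transp_getD {K : ℕ} : ∀ (Ds : List (List ℤ)), (∀ l ∈ Ds, l.length = K) →
    (transp K Ds).length = K ∧ ∀ i, i < K → (transp K Ds).getD i [] = Ds.map (fun l => l.getD i 0)
  | [], _ => by
    refine ⟨by simp [transp], ?_⟩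
    intro i hi
    simp [transp, List.getD_eq_getElem?_getD, hi]
  | l :: Ds, h => by
    obtain ⟨h1, h2⟩ := transp_getD Ds (fun l' hl' => h l' (by simp [hl']))
    have hl : l.length = K := h l (by simp)
    have e : transp K (l :: Ds) = addCol l (transp K Ds) := rfl
    obtain ⟨h3, h4⟩ := addCol_getD l (transp K Ds) (by rw [hl, h1])
    rw [e]
    refine ⟨by rw [h3, hl], ?_⟩
    intro i hi
    rw [h4 i (by omega), h2 i hi]
    simp

/-- The rows of a list of pairs. -/
noncomputable def colsT (W k n : ℕ) (Cs : List (Ex × Ex)) : List (List ℤ) := transp (2 ^ k) (colsD W k n Cs)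

/-- The checks of a range of rows. -/
noncomputable def colsRows (W k n : ℕ) (Cs : List (Ex × Ex)) (s m : ℕ) : Bool :=
  ((colsT W k n Cs).drop s |>.take m).all
    (rowOk ((1 : ℕ) <<< (W - 1)) (maskOf W (2 ^ k)) ((colsB Cs).map (kron (kPt W (n + 1))))
      ((colsB Cs).map maj))

lemma colsRows_sound {W k n : ℕ} {Cs : List (Ex × Ex)} {s m : ℕ} (h : colsRows W k n Cs s m = true) (i : ℕ)
    (h1 : s ≤ i) (h2 : i < s + m) (h3 : i < (colsT W k n Cs).length) :
    rowOk ((1 : ℕ) <<< (W - 1)) (maskOf W (2 ^ k)) ((colsB Cs).map (kron (kPt W (n + 1))))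
      ((colsB Cs).map maj) ((colsT W k n Cs).getD i []) = true := by
  unfold colsRows at h
  rw [List.all_eq_true] at h
  apply h
  have hi : i - s < (((colsT W k n Cs).drop s).take m).length := by
    simp only [List.length_take, List.length_drop]
    omega
  have : ((colsT W k n Cs).drop s |>.take m)[i - s]'hi = (colsT W k n Cs).getD i [] := by
    rw [List.getElem_take, List.getElem_drop]
    rw [List.getD_eq_getElem _ _ h3]
    congr 1
    omega
  rw [← this]
  exact List.getElem_mem _

/-- The sum over the columns as a polynomial in the first argument. -/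
noncomputable def colsQ (β : Fin 4 → ℝ) : List (Ex × Ex) → MvPolynomial (Fin 4) ℝ
  | [] => 0
  | C :: Cs => MvPolynomial.C (C.2.val β) * (C.1.poly.map (Int.castRingHom ℝ)) + colsQ β Cs

lemma colsQ_eval (α β : Fin 4 → ℝ) : ∀ Cs : List (Ex × Ex), eval α (colsQ β Cs) = sumV α β Cs
  | [] => by simp [colsQ, sumV]
  | C :: Cs => by
    simp only [colsQ, sumV, map_add, map_mul, eval_C, colsQ_eval α β Cs]
    rw [Ex.val_eq α C.1, eval_map]
    ring

lemma colsQ_coeff (β : Fin 4 → ℝ) (d : Fin 4 →₀ ℕ) : ∀ Cs : List (Ex × Ex),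
    coeff d (colsQ β Cs) = rowV β (Cs.map (fun C => coeff d C.1.poly)) (colsB Cs)
  | [] => by simp [colsQ, colsB, rowV]
  | C :: Cs => by
    simp only [colsQ, coeff_add, coeff_C_mul, coeff_map, List.map_cons, colsB, rowV]
    rw [colsQ_coeff β d Cs]
    simp only [colsB, eq_intCast]
    ring

/-- **The sum of products is nonnegative**, from the row checks at all positions. -/
theorem cols_sound_maps {W k n : ℕ} {Cs : List (Ex × Ex)} (hh : colsHead W k n Cs = true)
    (hr : ∀ i, i < 2 ^ k → rowOk ((1 : ℕ) <<< (W - 1)) (maskOf W (2 ^ k))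
      ((colsB Cs).map (kron (kPt W (n + 1)))) ((colsB Cs).map maj)
      ((colsD W k n Cs).map (fun l => l.getD i 0)) = true)
    (α β : Fin 4 → ℝ) (hα : ∀ i, 0 ≤ α i) (hβ : ∀ i, 0 ≤ β i) : 0 ≤ sumV α β Cs := by
  simp only [colsHead, Bool.and_eq_true, List.all_eq_true] at hh
  obtain ⟨⟨h1, h2⟩, h3⟩ := hh
  have hW : 0 < W := by simpa [Nat.blt_eq] using h1
  have hK : (n + 1) ^ 3 ≤ 2 ^ k := by simpa using h2
  have hdA : ∀ C ∈ Cs, C.1.deg = some n := by
    intro C hC
    have := (h3 C hC).1.1.1
    split at this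
    · rename_i x hx
      rw [hx, Nat.eq_of_beq_eq_true this]
    · simp at this
  have hdD : ∀ C ∈ Cs, digsDef W k n C.1 = true := fun C hC => (h3 C hC).2
  have hlenD : ∀ l ∈ colsD W k n Cs, l.length = 2 ^ k := by
    intro l hl
    obtain ⟨C, hC, rfl⟩ := List.mem_map.1 hl
    exact digsOf_length (hdD C hC)
  have hdB : ∀ e ∈ colsB Cs, e.deg = some n := by
    intro e he
    obtain ⟨C, hC, rfl⟩ := List.mem_map.1 he
    have := (h3 C hC).1.1.2
    split at this
    · rename_i x hx
      rw [hx, Nat.eq_of_beq_eq_true this]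
    · simp at this
  have hmaj : ∀ C ∈ Cs, C.1.maj < 2 ^ (W - 1) := by
    intro C hC
    have := (h3 C hC).1.2
    simpa [Nat.one_shiftLeft, Nat.blt_eq] using this
  have hsm : ∀ C ∈ Cs, ∀ i, i < 2 ^ k → ((digsOf W k n C.1).getD i 0).natAbs < 2 ^ (W - 1) := by
    intro C hC i hi
    have := hr i hi
    simp only [rowOk, Bool.or_eq_true, Bool.and_eq_true] at this
    have hmem : (digsOf W k n C.1).getD i 0 ∈ (colsD W k n Cs).map (fun l => l.getD i 0) := by
      simp only [colsD, List.map_map, List.mem_map]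
      exact ⟨C, hC, rfl⟩
    rcases this with h0 | h0
    · rw [zeroRow_mem _ h0 _ hmem]
      simp
    · have h5 := smallRow_sound _ h0.1.1 _ hmem
      simpa [Nat.one_shiftLeft] using h5
  rw [← colsQ_eval, eval_eq']
  refine Finset.sum_nonneg fun d _ => mul_nonneg ?_ (Finset.prod_nonneg fun i _ => pow_nonneg (hα i) _)
  rw [colsQ_coeff]
  by_cases hd : td d = n
  · have hi : idx (n + 1) d < 2 ^ k := (idx_lt hd).trans_le hK
    have e : Cs.map (fun C => coeff d C.1.poly) = (colsD W k n Cs).map (fun l => l.getD (idx (n + 1) d) 0) := by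
      simp only [colsD, List.map_map]
      apply List.map_congr_left
      intro C hC
      exact coeff_eq_digs hW hK (hdA C hC) (hmaj C hC) (hdD C hC) (hsm C hC) d hd
    rw [e]
    exact rowOk_sound hW hK hdB (hr _ hi) β hβ
  · have e : ∀ (Cs' : List (Ex × Ex)), (∀ C ∈ Cs', C.1.deg = some n) →
        rowV β (Cs'.map (fun C => coeff d C.1.poly)) (colsB Cs') = 0 := by
      intro Cs' h
      induction Cs' with
      | nil => simp [rowV, colsB]
      | cons C Cs' ih =>
        simp only [List.map_cons, colsB, rowV]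
        have h0 : coeff d C.1.poly = 0 := by
          by_contra hne
          exact hd (Ex.deg_hom C.1 n (h C (by simp)) d hne)
        rw [h0]
        have := ih (fun C' hC' => h C' (by simp [hC']))
        simp only [colsB] at this
        rw [this]
        simp
    rw [e Cs hdA]

/-- **The sum of products is nonnegative.** -/
theorem cols_sound {W k n : ℕ} {Cs : List (Ex × Ex)} (hh : colsHead W k n Cs = true)
    (hr0 : ∀ i, i < 2 ^ k → i < (colsT W k n Cs).length → rowOk ((1 : ℕ) <<< (W - 1)) (maskOf W (2 ^ k))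
      ((colsB Cs).map (kron (kPt W (n + 1)))) ((colsB Cs).map maj)
      ((colsT W k n Cs).getD i []) = true)
    (α β : Fin 4 → ℝ) (hα : ∀ i, 0 ≤ α i) (hβ : ∀ i, 0 ≤ β i) : 0 ≤ sumV α β Cs := by
  refine cols_sound_maps hh (fun i hi => ?_) α β hα hβ
  simp only [colsHead, Bool.and_eq_true, List.all_eq_true] at hh
  have h3 := hh.2
  have hdD : ∀ C ∈ Cs, digsDef W k n C.1 = true := fun C hC => (h3 C hC).2
  have hlenD : ∀ l ∈ colsD W k n Cs, l.length = 2 ^ k := by
    intro l hl
    obtain ⟨C, hC, rfl⟩ := List.mem_map.1 hl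
    exact digsOf_length (hdD C hC)
  obtain ⟨hT1, hT2⟩ := transp_getD (colsD W k n Cs) hlenD
  rw [← hT2 i hi]
  exact hr0 i hi (by rw [show colsT W k n Cs = transp (2 ^ k) (colsD W k n Cs) from rfl, hT1]; exact hi)

end Vale.Agent.Lib.P154R
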