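import Vale.Agent.Lib.P154R.Forms

/-!
# The symmetric functions on the simplex of four colours and the chart of the sorted simplex

`muV k x` is the sum over the permutations of the monomial with exponents `k`; `rhoF`, `tauF`, `kapF`
are the power sums of the centred point.  `exists_chart` sorts a nonnegative point into the chart of
`Forms`, and the `val` lemmas compute the forms of `Forms` at such a chart point.
-/



namespace Vale.Agent.Lib.P154R

open Ex

/-- The sum over the permutations of the monomial with exponents `k`. -/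
noncomputable def muV (k : Fin 4 → ℕ) (x : Fin 4 → ℝ) : ℝ :=
  ∑ τ : Equiv.Perm (Fin 4), ∏ i, x (τ i) ^ k i

/-- `muV` does not see a permutation of the coordinates. -/
theorem muV_comp (k : Fin 4 → ℕ) (x : Fin 4 → ℝ) (π : Equiv.Perm (Fin 4)) :
    muV k (x ∘ π) = muV k x := by
  unfold muV
  exact Fintype.sum_equiv (Equiv.mulLeft π) _ _ (fun τ => by simp [Function.comp])

/-- The rank one identity: the average over the arrangements of `muV` of a product factors. -/
theorem muV_rank (k : Fin 4 → ℕ) (x x' : Fin 4 → ℝ) :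
    ∑ σ : Equiv.Perm (Fin 4), muV k (fun i => x i * x' (σ i)) = muV k x * muV k x' := by
  unfold muV
  rw [Finset.sum_comm, Finset.sum_mul_sum]
  refine Finset.sum_congr rfl fun τ _ => ?_
  refine Fintype.sum_equiv (Equiv.mulRight τ) _ _ (fun σ => ?_)
  rw [← Finset.prod_mul_distrib]
  refine Finset.prod_congr rfl fun i _ => ?_
  simp [mul_pow]

/-- `ρ`. -/
noncomputable def rhoF (c : Fin 4 → ℝ) : ℝ := 4 * ∑ i, c i ^ 2
/-- `τ`. -/
noncomputable def tauF (c : Fin 4 → ℝ) : ℝ := 16 * ∑ i, c i ^ 3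
/-- `κ`. -/
noncomputable def kapF (c : Fin 4 → ℝ) : ℝ := 64 * ∑ i, c i ^ 4

theorem rhoF_comp (c : Fin 4 → ℝ) (π : Equiv.Perm (Fin 4)) : rhoF (c ∘ π) = rhoF c := by
  unfold rhoF
  congr 1
  exact Equiv.sum_comp π fun i => c i ^ 2

theorem tauF_comp (c : Fin 4 → ℝ) (π : Equiv.Perm (Fin 4)) : tauF (c ∘ π) = tauF c := by
  unfold tauF
  congr 1
  exact Equiv.sum_comp π fun i => c i ^ 3

theorem kapF_comp (c : Fin 4 → ℝ) (π : Equiv.Perm (Fin 4)) : kapF (c ∘ π) = kapF c := by
  unfold kapF
  congr 1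
  exact Equiv.sum_comp π fun i => c i ^ 4

/-- Values of the chart coordinates. -/
theorem xE_val_zero (r : Fin 4 → ℝ) : (xE 0).val r = r 0 + r 1 + r 2 + r 3 := by
  simp [xE, v0, v1, v2, v3, val]

theorem xE_val_one (r : Fin 4 → ℝ) : (xE 1).val r = r 0 + r 1 + r 2 := by
  simp [xE, v0, v1, v2, val]

theorem xE_val_two (r : Fin 4 → ℝ) : (xE 2).val r = r 0 + r 1 := by
  simp [xE, v0, v1, val]

theorem xE_val_three (r : Fin 4 → ℝ) : (xE 3).val r = r 0 := by
  simp [xE, v0, val]

/-- The total mass is the sum of the coordinates. -/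
theorem sE_val (r : Fin 4 → ℝ) : sE.val r = ∑ i, (xE i).val r := by
  simp only [Fin.sum_univ_four, xE_val_zero, xE_val_one, xE_val_two, xE_val_three]
  simp [sE, v0, v1, v2, v3, val]
  ring

/-- The total mass, explicitly. -/
theorem sE_val' (r : Fin 4 → ℝ) : sE.val r = 4 * r 0 + 3 * r 1 + 2 * r 2 + r 3 := by
  simp [sE, v0, v1, v2, v3, val]

/-- `uE i = 4 xE i - sE`. -/
theorem uE_val (r : Fin 4 → ℝ) (i : Fin 4) : (uE i).val r = 4 * (xE i).val r - sE.val r := by
  rw [sE_val']
  fin_cases i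
  · simp only [Fin.zero_eta, xE_val_zero]
    simp [uE, v1, v2, v3, val]
    ring
  · simp only [Fin.mk_one, xE_val_one]
    simp [uE, v1, v2, v3, val]
    ring
  · show (uE 2).val r = 4 * (xE 2).val r - _
    rw [xE_val_two]
    simp [uE, v1, v2, v3, val]
    ring
  · show (uE 3).val r = 4 * (xE 3).val r - _
    rw [xE_val_three]
    simp [uE, v1, v2, v3, val]
    ring

/-- The power sums of `u`. -/
theorem pwE_val (r : Fin 4 → ℝ) (e : ℕ) : (pwE e).val r = ∑ i, ((uE i).val r) ^ e := by
  simp only [pwE, val, Fin.sum_univ_four]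

/-- Sorting a point into the chart of the sorted simplex. -/
theorem exists_chart (x : Fin 4 → ℝ) (hx : ∀ i, 0 ≤ x i) :
    ∃ (π : Equiv.Perm (Fin 4)) (r : Fin 4 → ℝ), (∀ i, 0 ≤ r i) ∧ ∀ i, (xE i).val r = x (π i) := by
  let π : Equiv.Perm (Fin 4) := Fin.revPerm.trans (Tuple.sort x)
  have hmono : Monotone (x ∘ Tuple.sort x) := Tuple.monotone_sort x
  have hanti : ∀ i j : Fin 4, i ≤ j → x (π j) ≤ x (π i) := by
    intro i j hij
    have : Fin.rev j ≤ Fin.rev i := Fin.rev_le_rev.2 hij
    exact hmono this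
  refine ⟨π, ![x (π 3), x (π 2) - x (π 3), x (π 1) - x (π 2), x (π 0) - x (π 1)], ?_, ?_⟩
  · intro i
    fin_cases i
    · simpa using hx _
    · simpa using hanti 2 3 (by decide)
    · simpa using hanti 1 2 (by decide)
    · simpa using hanti 0 1 (by decide)
  · intro i
    fin_cases i
    · show (xE 0).val _ = x (π 0)
      rw [xE_val_zero]
      simp
    · show (xE 1).val _ = x (π 1)
      rw [xE_val_one]
      simp
    · show (xE 2).val _ = x (π 2)
      rw [xE_val_two]
      simp
    · show (xE 3).val _ = x (π 3)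
      rw [xE_val_three]
      simp

/-- The value of a finite sum of expressions. -/
theorem sumE_val (r : Fin 4 → ℝ) (l : List Ex) : (sumE l).val r = (l.map fun e => e.val r).sum := by
  induction l with
  | nil => simp [sumE, val]
  | cons e es ih =>
    cases es with
    | nil => simp [sumE]
    | cons f fs =>
      simp only [sumE, val] at ih ⊢
      rw [ih]
      simp

section Chart

variable {x c r : Fin 4 → ℝ} {π : Equiv.Perm (Fin 4)}

/-- The total mass at a chart point of a point of the simplex. -/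
theorem sE_val_chart (hr : ∀ i, (xE i).val r = x (π i)) (hs : ∑ i, x i = 1) : sE.val r = 1 := by
  rw [sE_val]
  simp only [hr]
  rw [Equiv.sum_comp π x, hs]

private lemma uE_val_chart (hr : ∀ i, (xE i).val r = x (π i)) (hc : ∀ i, x i = 1 / 4 + c i)
    (hs : ∑ i, x i = 1) (i : Fin 4) : (uE i).val r = 4 * c (π i) := by
  rw [uE_val, hr, sE_val_chart hr hs, hc]
  ring

/-- `rE = 4 ρ` at a chart point. -/
theorem rE_val (hr : ∀ i, (xE i).val r = x (π i)) (hc : ∀ i, x i = 1 / 4 + c i)
    (hs : ∑ i, x i = 1) : rE.val r = 4 * rhoF c := by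
  unfold rE rhoF
  rw [pwE_val]
  simp only [uE_val_chart hr hc hs]
  have : ∑ i, (4 * c (π i)) ^ 2 = 16 * ∑ i, c (π i) ^ 2 := by
    rw [Finset.mul_sum]
    exact Finset.sum_congr rfl fun i _ => by ring
  rw [this, Equiv.sum_comp π fun i => c i ^ 2]
  ring

/-- `tE = 4 τ` at a chart point. -/
theorem tE_val (hr : ∀ i, (xE i).val r = x (π i)) (hc : ∀ i, x i = 1 / 4 + c i)
    (hs : ∑ i, x i = 1) : tE.val r = 4 * tauF c := by
  unfold tE tauF
  rw [pwE_val]
  simp only [uE_val_chart hr hc hs]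
  have : ∑ i, (4 * c (π i)) ^ 3 = 64 * ∑ i, c (π i) ^ 3 := by
    rw [Finset.mul_sum]
    exact Finset.sum_congr rfl fun i _ => by ring
  rw [this, Equiv.sum_comp π fun i => c i ^ 3]
  ring

/-- `kE = 4 κ` at a chart point. -/
theorem kE_val (hr : ∀ i, (xE i).val r = x (π i)) (hc : ∀ i, x i = 1 / 4 + c i)
    (hs : ∑ i, x i = 1) : kE.val r = 4 * kapF c := by
  unfold kE kapF
  rw [pwE_val]
  simp only [uE_val_chart hr hc hs]
  have : ∑ i, (4 * c (π i)) ^ 4 = 256 * ∑ i, c (π i) ^ 4 := by
    rw [Finset.mul_sum]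
    exact Finset.sum_congr rfl fun i _ => by ring
  rw [this, Equiv.sum_comp π fun i => c i ^ 4]
  ring

/-- The monomials at a chart point (for every `n`; the elevation has value one). -/
theorem mnEl_val (hr : ∀ i, (xE i).val r = x (π i)) (hc : ∀ i, x i = 1 / 4 + c i)
    (hs : ∑ i, x i = 1) (n i j k : ℕ) :
    (mnEl n i j k).val r = (4 * rhoF c) ^ i * (4 * tauF c) ^ j * (4 * kapF c) ^ k := by
  simp only [mnEl, mnE, val]
  rw [rE_val hr hc hs, tE_val hr hc hs, kE_val hr hc hs, sE_val_chart hr hs]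
  simp

/-- The value of `prE`. -/
theorem prE_val (r : Fin 4 → ℝ) (k : Fin 4 → ℕ) (τ : Fin 4 → Fin 4) :
    (prE k τ).val r = ∏ i, ((xE (τ i)).val r) ^ k i := by
  simp only [prE, val, Fin.prod_univ_four]

/-- The symmetric sums at a chart point. -/
theorem muE_val (hr : ∀ i, (xE i).val r = x (π i)) (k : Fin 4 → ℕ) :
    (muE k).val r = muV k x := by
  unfold muE
  rw [sumE_val, List.map_map]
  have h : ((fun e : Ex => e.val r) ∘ prE k) = fun τ : Fin 4 → Fin 4 => ∏ i, (x (π (τ i))) ^ k i := by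
    funext τ
    simp only [Function.comp, prE_val, hr]
  rw [h, ← Vale.Agent.Lib.P154Q.sum_perm_four (fun τ : Fin 4 → Fin 4 => ∏ i, (x (π (τ i))) ^ k i)]
  have := muV_comp k x π
  rw [← this]
  rfl

/-- The elevated symmetric sums at a chart point (for every `n`; the elevation has value one). -/
theorem muEl_val (hr : ∀ i, (xE i).val r = x (π i)) (hs : ∑ i, x i = 1) (n : ℕ) (k : Fin 4 → ℕ) :
    (muEl n k).val r = muV k x := by
  simp only [muEl, val]
  rw [muE_val hr, sE_val_chart hr hs]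
  simp

end Chart

end Vale.Agent.Lib.P154R
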