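import Vale.Agent.Lib.P154Q.Alive

/-!
# Nonreconstruction from a merge inequality with two invariants

`QData2I` collects the pointwise inequalities.  Each of the two functions `χ₁`, `χ₂` has nonnegative expectation
on every fixed tree, by its own inequality.  So the merge inequality may be weakened by Lagrange terms
in both of them.  The recursion for the invariants comes from the one invariant framework of `P154Q`.
-/

open Finset Filter Topology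

namespace Vale.Agent.Lib.P154R

open Vale.Agent.Lib.P154GW Vale.Agent.Lib.P154Q

noncomputable section

set_option linter.unusedSectionVars false

variable {q : ℕ} [NeZero q]

/-- The pointwise data of the argument.  Here `B` is a set containing the scaled simplex `lam • InSx 1`. -/
structure QData2I (lam : ℝ) (B : V q → Prop) (ψ Y χ₁ χ₂ G₁ H₁ G₂ H₂ v₁ w₁ v₂ w₂ : V q → ℝ)
    (f₁ f₂ t : ℝ) (m : ℕ) : Prop where
  /-- The merge inequality with Lagrange terms. -/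
  merge : ∀ a b, InSx 1 a → B b →
    KK ψ a b ≤ ψ a + Y b - G₁ b * χ₁ a - H₁ a * χ₁ b - G₂ b * χ₂ a - H₂ a * χ₂ b
      - t * (p2 a * p2 b ^ m)
  /-- The first invariant. -/
  inv₁ : ∀ a b, InSx 1 a → B b → v₁ b * χ₁ a + w₁ a * χ₁ b ≤ KK χ₁ a b
  /-- The second invariant. -/
  inv₂ : ∀ a b, InSx 1 a → B b → v₂ b * χ₂ a + w₂ a * χ₂ b ≤ KK χ₂ a b
  G₁0 : ∀ b, B b → 0 ≤ G₁ b
  H₁0 : ∀ a, InSx 1 a → 0 ≤ H₁ a
  G₂0 : ∀ b, B b → 0 ≤ G₂ b
  H₂0 : ∀ a, InSx 1 a → 0 ≤ H₂ a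
  v₁0 : ∀ b, B b → 0 ≤ v₁ b
  w₁0 : ∀ a, InSx 1 a → 0 ≤ w₁ a
  v₂0 : ∀ b, B b → 0 ≤ v₂ b
  w₂0 : ∀ a, InSx 1 a → 0 ≤ w₂ a
  t0 : 0 ≤ t
  f₁0 : 0 ≤ f₁
  f₂0 : 0 ≤ f₂
  /-- The scaled simplex is in `B`. -/
  scaleB : ∀ c, InSx 1 c → B (lam • c)
  /-- The channel has nonnegative entries. -/
  hch : ∀ i j, 0 ≤ chan q lam i j
  /-- The invariants on the scaled simplex. -/
  chi₁_scale : ∀ c, InSx 1 c → f₁ * χ₁ c ≤ χ₁ (lam • c)
  chi₂_scale : ∀ c, InSx 1 c → f₂ * χ₂ c ≤ χ₂ (lam • c)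
  chi₁_zero : 0 ≤ χ₁ 0
  chi₂_zero : 0 ≤ χ₂ 0
  chi₁_vertex : ∀ τ : Fin q, 0 ≤ χ₁ (vertex τ)
  chi₂_vertex : ∀ τ : Fin q, 0 ≤ χ₂ (vertex τ)
  /-- The value of the potential on the scaled simplex. -/
  Y_scale : ∀ c, InSx 1 c → Y (lam • c) ≤ lam ^ 2 * ψ c
  psi_le_Y : ∀ b, B b → ψ b ≤ Y b
  psi_zero : ψ 0 ≤ 0

variable {lam : ℝ} {B : V q → Prop} {ψ Y χ₁ χ₂ G₁ H₁ G₂ H₂ v₁ w₁ v₂ w₂ : V q → ℝ} {f₁ f₂ t : ℝ} {m : ℕ}

lemma KK_zero (a b : V q) : KK (fun _ : V q => (0 : ℝ)) a b = 0 := by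
  simp [KK]

/-- The first invariant alone, in the one invariant framework. -/
lemma QData2I.toQ₁ (hD : QData2I lam B ψ Y χ₁ χ₂ G₁ H₁ G₂ H₂ v₁ w₁ v₂ w₂ f₁ f₂ t m) :
    QData lam B (fun _ => 0) (fun _ => 0) χ₁ (fun _ => 0) (fun _ => 0) v₁ w₁ f₁ 0 m where
  merge a b _ _ := by simp [KK_zero]
  inv := hD.inv₁
  G0 _ _ := le_rfl
  H0 _ _ := le_rfl
  v0 := hD.v₁0
  w0 := hD.w₁0
  t0 := le_rfl
  f0 := hD.f₁0
  scaleB := hD.scaleB
  hch := hD.hch
  chi_scale := hD.chi₁_scale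
  chi_zero := hD.chi₁_zero
  chi_vertex := hD.chi₁_vertex
  Y_scale c _ := by simp
  psi_le_Y _ _ := le_rfl
  psi_zero := le_rfl

/-- The second invariant alone, in the one invariant framework. -/
lemma QData2I.toQ₂ (hD : QData2I lam B ψ Y χ₁ χ₂ G₁ H₁ G₂ H₂ v₁ w₁ v₂ w₂ f₁ f₂ t m) :
    QData lam B (fun _ => 0) (fun _ => 0) χ₂ (fun _ => 0) (fun _ => 0) v₂ w₂ f₂ 0 m where
  merge a b _ _ := by simp [KK_zero]
  inv := hD.inv₂
  G0 _ _ := le_rfl
  H0 _ _ := le_rfl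
  v0 := hD.v₂0
  w0 := hD.w₂0
  t0 := le_rfl
  f0 := hD.f₂0
  scaleB := hD.scaleB
  hch := hD.hch
  chi_scale := hD.chi₂_scale
  chi_zero := hD.chi₂_zero
  chi_vertex := hD.chi₂_vertex
  Y_scale c _ := by simp
  psi_le_Y _ _ := le_rfl
  psi_zero := le_rfl

section families

variable {A Ω : Type} [Fintype A] [Fintype Ω]

/-- One step of the recursion for the potential. -/
lemma psi_step2I (hD : QData2I lam B ψ Y χ₁ χ₂ G₁ H₁ G₂ H₂ v₁ w₁ v₂ w₂ f₁ f₂ t m)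
    {x : A → V q} {y : Ω → V q} (hy : Fam y)
    (hx : ∀ η, NN (x η)) (hxd : ∀ η, 0 < MM (x η) → InSx 1 (cen (x η)))
    (hyd : ∀ ξ, 0 < MM (y ξ) → B (cen (y ξ)))
    (hpx₁ : 0 ≤ ∑ η, GG χ₁ (x η)) (hpy₁ : 0 ≤ ∑ ξ, GG χ₁ (y ξ))
    (hpx₂ : 0 ≤ ∑ η, GG χ₂ (x η)) (hpy₂ : 0 ≤ ∑ ξ, GG χ₂ (y ξ)) (hmx : ∑ η, MM (x η) = 1) :
    ∑ η, ∑ ξ, GG ψ (mrg (x η) (y ξ)) ≤ ∑ η, GG ψ (x η) + ∑ ξ, GG Y (y ξ)
      - t * ((∑ η, GG p2 (x η)) * ∑ ξ, GG (fun c => p2 c ^ m) (y ξ)) := by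
  rw [fam_KK hy hx]
  have key := sum_le_of_pt hx hy.nn hxd hyd (u := KK ψ)
    (u' := fun a b => ψ a + Y b - G₁ b * χ₁ a - H₁ a * χ₁ b - G₂ b * χ₂ a - H₂ a * χ₂ b
      - t * (p2 a * p2 b ^ m)) hD.merge
  have e1 : ∑ η, GG ψ (x η) = ∑ η, ∑ ξ, MM (x η) * MM (y ξ) * (ψ (cen (x η)) * 1) := by
    apply Finset.sum_congr rfl
    intro η _
    have : ∑ ξ, MM (x η) * MM (y ξ) * (ψ (cen (x η)) * 1)
        = GG ψ (x η) * ∑ ξ, MM (y ξ) := by
      rw [Finset.mul_sum]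
      apply Finset.sum_congr rfl
      intro ξ _
      simp only [GG]
      ring
    rw [this, hy.mass, mul_one]
  have e2 : ∑ ξ, GG Y (y ξ) = ∑ η, ∑ ξ, MM (x η) * MM (y ξ) * (1 * Y (cen (y ξ))) := by
    rw [Finset.sum_comm]
    apply Finset.sum_congr rfl
    intro ξ _
    have : ∑ η, MM (x η) * MM (y ξ) * (1 * Y (cen (y ξ)))
        = (∑ η, MM (x η)) * GG Y (y ξ) := by
      rw [Finset.sum_mul]
      apply Finset.sum_congr rfl
      intro η _
      simp only [GG]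
      ring
    rw [this, hmx, one_mul]
  have hG₁ := sum_product x y χ₁ G₁
  have hH₁ := sum_product x y H₁ χ₁
  have hG₂ := sum_product x y χ₂ G₂
  have hH₂ := sum_product x y H₂ χ₂
  have hT := sum_product x y p2 (fun c => p2 c ^ m)
  have hexp : ∑ η, ∑ ξ, MM (x η) * MM (y ξ) * (ψ (cen (x η)) + Y (cen (y ξ))
        - G₁ (cen (y ξ)) * χ₁ (cen (x η)) - H₁ (cen (x η)) * χ₁ (cen (y ξ))
        - G₂ (cen (y ξ)) * χ₂ (cen (x η)) - H₂ (cen (x η)) * χ₂ (cen (y ξ))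
        - t * (p2 (cen (x η)) * p2 (cen (y ξ)) ^ m))
      = ∑ η, GG ψ (x η) + ∑ ξ, GG Y (y ξ)
        - (∑ η, GG χ₁ (x η)) * (∑ ξ, GG G₁ (y ξ))
        - (∑ η, GG H₁ (x η)) * (∑ ξ, GG χ₁ (y ξ))
        - (∑ η, GG χ₂ (x η)) * (∑ ξ, GG G₂ (y ξ))
        - (∑ η, GG H₂ (x η)) * (∑ ξ, GG χ₂ (y ξ))
        - t * ((∑ η, GG p2 (x η)) * ∑ ξ, GG (fun c => p2 c ^ m) (y ξ)) := by
    rw [e1, e2, ← hG₁, ← hH₁, ← hG₂, ← hH₂, ← hT, Finset.mul_sum, ← Finset.sum_add_distrib,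
      ← Finset.sum_sub_distrib, ← Finset.sum_sub_distrib, ← Finset.sum_sub_distrib,
      ← Finset.sum_sub_distrib, ← Finset.sum_sub_distrib]
    apply Finset.sum_congr rfl
    intro η _
    rw [Finset.mul_sum, ← Finset.sum_add_distrib, ← Finset.sum_sub_distrib,
      ← Finset.sum_sub_distrib, ← Finset.sum_sub_distrib, ← Finset.sum_sub_distrib,
      ← Finset.sum_sub_distrib]
    apply Finset.sum_congr rfl
    intro ξ _
    ring
  refine (le_trans key (le_of_eq hexp)).trans ?_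
  have hGn₁ : 0 ≤ ∑ ξ, GG G₁ (y ξ) :=
    Finset.sum_nonneg fun ξ _ => GG_nonneg_on (hy.nn ξ) (hyd ξ) hD.G₁0
  have hHn₁ : 0 ≤ ∑ η, GG H₁ (x η) :=
    Finset.sum_nonneg fun η _ => GG_nonneg_on (hx η) (hxd η) hD.H₁0
  have hGn₂ : 0 ≤ ∑ ξ, GG G₂ (y ξ) :=
    Finset.sum_nonneg fun ξ _ => GG_nonneg_on (hy.nn ξ) (hyd ξ) hD.G₂0
  have hHn₂ : 0 ≤ ∑ η, GG H₂ (x η) :=
    Finset.sum_nonneg fun η _ => GG_nonneg_on (hx η) (hxd η) hD.H₂0
  have h1 := mul_nonneg hpx₁ hGn₁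
  have h2 := mul_nonneg hHn₁ hpy₁
  have h3 := mul_nonneg hpx₂ hGn₂
  have h4 := mul_nonneg hHn₂ hpy₂
  linarith

end families

/-- The recursion along the children of a vertex. -/
theorem merge_all2I (hD : QData2I lam B ψ Y χ₁ χ₂ G₁ H₁ G₂ H₂ v₁ w₁ v₂ w₂ f₁ f₂ t m) :
    ∀ (k : ℕ) (Ω : Fin k → Type) [∀ c, Fintype (Ω c)] (y : ∀ c, Ω c → V q),
      (∀ c, Fam (y c)) → (∀ c ξ, 0 < MM (y c ξ) → B (cen (y c ξ))) →
      (∀ c, 0 ≤ ∑ ξ, GG χ₁ (y c ξ)) → (∀ c, 0 ≤ ∑ ξ, GG χ₂ (y c ξ)) →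
        ∑ ω : (∀ c, Ω c), GG ψ (mergeAll y ω) ≤ ∑ c, ∑ ξ, GG Y (y c ξ) := by
  intro k
  induction k with
  | zero =>
    intro Ω _ y _ _ _ _
    simp only [Finset.univ_eq_empty, Finset.sum_empty, Fintype.sum_unique, mergeAll_zero, GG_uni]
    exact hD.psi_zero
  | succ k ih =>
    intro Ω _ y hy hyd hyp₁ hyp₂
    rw [sum_snoc]
    have e : ∀ (η : ∀ c : Fin k, Ω c.castSucc) (a : Ω (Fin.last k)),
        mergeAll y (Fin.snoc (α := Ω) η a)
          = mrg (mergeAll (Ω := fun c : Fin k => Ω c.castSucc) (fun c => y c.castSucc) η)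
              (y (Fin.last k) a) := by
      intro η a
      rw [mergeAll_succ]
      simp only [Fin.snoc_castSucc, Fin.snoc_last]
    simp only [e]
    have hnn : ∀ (c : Fin k) ξ, NN (y c.castSucc ξ) := fun c ξ => (hy c.castSucc).nn ξ
    have ih2 := ih (fun c : Fin k => Ω c.castSucc) (fun c : Fin k => y c.castSucc)
      (fun c : Fin k => hy c.castSucc) (fun (c : Fin k) => hyd c.castSucc)
      (fun (c : Fin k) => hyp₁ c.castSucc) (fun (c : Fin k) => hyp₂ c.castSucc)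
    have ih₁ := (merge_all hD.toQ₁ k (fun c : Fin k => Ω c.castSucc) (fun c : Fin k => y c.castSucc)
      (fun c : Fin k => hy c.castSucc) (fun (c : Fin k) => hyd c.castSucc)
      (fun (c : Fin k) => hyp₁ c.castSucc)).1
    have ih₂ := (merge_all hD.toQ₂ k (fun c : Fin k => Ω c.castSucc) (fun c : Fin k => y c.castSucc)
      (fun c : Fin k => hy c.castSucc) (fun (c : Fin k) => hyd c.castSucc)
      (fun (c : Fin k) => hyp₂ c.castSucc)).1
    have hmass := mergeAll_mass (Ω := fun c : Fin k => Ω c.castSucc) (y := fun c : Fin k => y c.castSucc)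
      (fun c : Fin k => hy c.castSucc)
    have hxd := fun η (h : 0 < MM (mergeAll (Ω := fun c : Fin k => Ω c.castSucc)
        (fun c : Fin k => y c.castSucc) η)) => cen_inSx (mergeAll_nn hnn η) h
    have key := psi_step2I hD (hy (Fin.last k)) (fun η => mergeAll_nn hnn η) hxd (hyd (Fin.last k)) ih₁
      (hyp₁ (Fin.last k)) ih₂ (hyp₂ (Fin.last k)) hmass
    have hm : 0 ≤ t * ((∑ η : (∀ c : Fin k, Ω c.castSucc),
        GG p2 (mergeAll (Ω := fun c : Fin k => Ω c.castSucc) (fun c => y c.castSucc) η)) *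
        ∑ ξ, GG (fun c => p2 c ^ m) (y (Fin.last k) ξ)) := by
      apply mul_nonneg hD.t0
      apply mul_nonneg
      · exact Finset.sum_nonneg fun η _ => GG_p2_nonneg (mergeAll_nn hnn η)
      · exact Finset.sum_nonneg fun ξ _ => GG_p2m_nonneg ((hy (Fin.last k)).nn ξ) m
    rw [Fin.sum_univ_castSucc]
    linarith

/-- The merge inequality for at least two children, with margin. -/
theorem merge_margin2I (hD : QData2I lam B ψ Y χ₁ χ₂ G₁ H₁ G₂ H₂ v₁ w₁ v₂ w₂ f₁ f₂ t m) :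
    ∀ (k : ℕ) (Ω : Fin (k + 2) → Type) [∀ c, Fintype (Ω c)] (y : ∀ c, Ω c → V q),
      (∀ c, Fam (y c)) → (∀ c ξ, 0 < MM (y c ξ) → B (cen (y c ξ))) →
      (∀ c, 0 ≤ ∑ ξ, GG χ₁ (y c ξ)) → (∀ c, 0 ≤ ∑ ξ, GG χ₂ (y c ξ)) →
        ∑ ω : (∀ c, Ω c), GG ψ (mergeAll y ω) ≤ ∑ c, ∑ ξ, GG Y (y c ξ)
          - t * ((∑ ξ, GG p2 (y (i0 k) ξ)) * ∑ ξ, GG (fun c => p2 c ^ m) (y (i1 k) ξ)) := by
  intro k
  induction k with
  | zero =>
    intro Ω _ y hy hyd hyp₁ hyp₂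
    have e : ∑ ω : (∀ c, Ω c), GG ψ (mergeAll y ω)
        = ∑ a, ∑ b, GG ψ (mrg (y 0 a) (y 1 b)) := by
      rw [← Equiv.sum_comp (piFinTwoEquiv Ω).symm, Fintype.sum_prod_type]
      apply Finset.sum_congr rfl
      intro a _
      apply Finset.sum_congr rfl
      intro b _
      congr 1
      funext i
      have hq : (q : ℝ) ≠ 0 := q_ne
      simp only [mergeAll, mrg, Fin.prod_univ_two, piFinTwoEquiv]
      simp
      field_simp
    rw [e]
    have key := psi_step2I hD (hy 1) (hy 0).nn (fun η h => cen_inSx ((hy 0).nn η) h) (hyd 1)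
      (hyp₁ 0) (hyp₁ 1) (hyp₂ 0) (hyp₂ 1) (hy 0).mass
    have h2 : ∑ ξ, GG ψ (y 0 ξ) ≤ ∑ ξ, GG Y (y 0 ξ) := by
      apply Finset.sum_le_sum
      intro ξ _
      rcases (MM_nonneg ((hy 0).nn ξ)).eq_or_lt with h0 | h1
      · simp [GG, ← h0]
      · exact mul_le_mul_of_nonneg_left (hD.psi_le_Y _ (hyd 0 ξ h1)) h1.le
    rw [Fin.sum_univ_two]
    have e0 : i0 0 = 0 := rfl
    have e1 : i1 0 = 1 := rfl
    rw [e0, e1]
    linarith
  | succ k ih =>
    intro Ω _ y hy hyd hyp₁ hyp₂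
    rw [sum_snoc]
    have e : ∀ (η : ∀ c : Fin (k + 2), Ω c.castSucc) (a : Ω (Fin.last (k + 2))),
        mergeAll y (Fin.snoc (α := Ω) η a)
          = mrg (mergeAll (Ω := fun c : Fin (k + 2) => Ω c.castSucc) (fun c => y c.castSucc) η)
              (y (Fin.last (k + 2)) a) := by
      intro η a
      rw [mergeAll_succ]
      simp only [Fin.snoc_castSucc, Fin.snoc_last]
    simp only [e]
    have hnn : ∀ (c : Fin (k + 2)) ξ, NN (y c.castSucc ξ) := fun c ξ => (hy c.castSucc).nn ξ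
    have ih2 := ih (fun c : Fin (k + 2) => Ω c.castSucc) (fun c : Fin (k + 2) => y c.castSucc)
      (fun c : Fin (k + 2) => hy c.castSucc) (fun (c : Fin (k + 2)) => hyd c.castSucc)
      (fun (c : Fin (k + 2)) => hyp₁ c.castSucc) (fun (c : Fin (k + 2)) => hyp₂ c.castSucc)
    have ih₁ := (merge_all hD.toQ₁ (k + 2) (fun c : Fin (k + 2) => Ω c.castSucc)
      (fun c : Fin (k + 2) => y c.castSucc)
      (fun c : Fin (k + 2) => hy c.castSucc) (fun (c : Fin (k + 2)) => hyd c.castSucc)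
      (fun (c : Fin (k + 2)) => hyp₁ c.castSucc)).1
    have ih₂ := (merge_all hD.toQ₂ (k + 2) (fun c : Fin (k + 2) => Ω c.castSucc)
      (fun c : Fin (k + 2) => y c.castSucc)
      (fun c : Fin (k + 2) => hy c.castSucc) (fun (c : Fin (k + 2)) => hyd c.castSucc)
      (fun (c : Fin (k + 2)) => hyp₂ c.castSucc)).1
    have hmass := mergeAll_mass (Ω := fun c : Fin (k + 2) => Ω c.castSucc)
      (y := fun c : Fin (k + 2) => y c.castSucc) (fun c : Fin (k + 2) => hy c.castSucc)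
    have hxd := fun η (h : 0 < MM (mergeAll (Ω := fun c : Fin (k + 2) => Ω c.castSucc)
        (fun c : Fin (k + 2) => y c.castSucc) η)) => cen_inSx (mergeAll_nn hnn η) h
    have key := psi_step2I hD (hy (Fin.last (k + 2))) (fun η => mergeAll_nn hnn η) hxd
      (hyd (Fin.last (k + 2))) ih₁ (hyp₁ (Fin.last (k + 2))) ih₂ (hyp₂ (Fin.last (k + 2))) hmass
    have hm : 0 ≤ t * ((∑ η : (∀ c : Fin (k + 2), Ω c.castSucc),
        GG p2 (mergeAll (Ω := fun c : Fin (k + 2) => Ω c.castSucc) (fun c => y c.castSucc) η)) *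
        ∑ ξ, GG (fun c => p2 c ^ m) (y (Fin.last (k + 2)) ξ)) := by
      apply mul_nonneg hD.t0
      apply mul_nonneg
      · exact Finset.sum_nonneg fun η _ => GG_p2_nonneg (mergeAll_nn hnn η)
      · exact Finset.sum_nonneg fun ξ _ => GG_p2m_nonneg ((hy (Fin.last (k + 2))).nn ξ) m
    rw [Fin.sum_univ_castSucc]
    have e0 : (i0 k).castSucc = i0 (k + 1) := rfl
    have e1 : (i1 k).castSucc = i1 (k + 1) := rfl
    have ih3 : ∑ η : (∀ c : Fin (k + 2), Ω c.castSucc),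
        GG ψ (mergeAll (Ω := fun c : Fin (k + 2) => Ω c.castSucc) (fun c => y c.castSucc) η)
        ≤ ∑ c : Fin (k + 2), ∑ ξ, GG Y (y c.castSucc ξ)
          - t * ((∑ ξ, GG p2 (y (i0 (k + 1)) ξ)) * ∑ ξ, GG (fun c => p2 c ^ m) (y (i1 (k + 1)) ξ)) := ih2
    linarith

section tree

/-- The recursion on a fixed tree. -/
lemma Sp_succ_le2I (hD : QData2I lam B ψ Y χ₁ χ₂ G₁ H₁ G₂ H₂ v₁ w₁ v₂ w₂ f₁ f₂ t m)
    (n k : ℕ) (T : Fin k → Tr n) :
    Sp (q := q) lam ψ (n + 1) ⟨k, T⟩ ≤ lam ^ 2 * ∑ c, Sp (q := q) lam ψ n (T c) := by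
  rw [Sp_succ]
  refine (merge_all2I hD k (fun c => Leaves q n (T c))
    (fun c => yT lam n (T c)) (fun c => yT_fam hD.hch n (T c))
    (fun c ξ h => child_dom hD.toQ₁ n (T c) ξ h)
    (fun c => child_chi hD.toQ₁ n (T c)) (fun c => child_chi hD.toQ₂ n (T c))).trans ?_
  rw [Finset.mul_sum]
  exact Finset.sum_le_sum fun c _ => sum_yT_le hD.hch hD.Y_scale n (T c)

/-- The recursion on a fixed tree with at least two children. -/
lemma Sp_margin2I (hD : QData2I lam B ψ Y χ₁ χ₂ G₁ H₁ G₂ H₂ v₁ w₁ v₂ w₂ f₁ f₂ t m)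
    (n k : ℕ) (T : Fin (k + 2) → Tr n) :
    Sp (q := q) lam ψ (n + 1) ⟨k + 2, T⟩ ≤ lam ^ 2 * ∑ c, Sp (q := q) lam ψ n (T c)
      - t * lam ^ (2 + 2 * m) *
        (Sp (q := q) lam p2 n (T (i0 k)) * Sp (q := q) lam (fun c => p2 c ^ m) n (T (i1 k))) := by
  rw [Sp_succ]
  have key := merge_margin2I hD k (fun c => Leaves q n (T c))
    (fun c => yT lam n (T c)) (fun c => yT_fam hD.hch n (T c))
    (fun c ξ h => child_dom hD.toQ₁ n (T c) ξ h)
    (fun c => child_chi hD.toQ₁ n (T c)) (fun c => child_chi hD.toQ₂ n (T c))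
  have h2 : ∑ c, ∑ ξ, GG Y (yT (q := q) lam n (T c) ξ) ≤ lam ^ 2 * ∑ c, Sp (q := q) lam ψ n (T c) := by
    rw [Finset.mul_sum]
    exact Finset.sum_le_sum fun c _ => sum_yT_le hD.hch hD.Y_scale n (T c)
  have h3 := child_p2' hD.hch n (T (i0 k))
  have h4 := child_p2 hD.hch m n (T (i1 k))
  have hS1 : 0 ≤ Sp (q := q) lam p2 n (T (i0 k)) := Sp_nonneg hD.hch (fun c _ => p2_nonneg c) n _
  have hS2 : 0 ≤ Sp (q := q) lam (fun c => p2 c ^ m) n (T (i1 k)) :=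
    Sp_nonneg hD.hch (fun c _ => pow_nonneg (p2_nonneg c) m) n _
  have h5 : (lam ^ 2 * Sp (q := q) lam p2 n (T (i0 k))) * (lam ^ (2 * m) * Sp (q := q) lam (fun c => p2 c ^ m) n (T (i1 k)))
      ≤ (∑ ξ, GG p2 (yT (q := q) lam n (T (i0 k)) ξ)) * ∑ ξ, GG (fun c => p2 c ^ m) (yT (q := q) lam n (T (i1 k)) ξ) := by
    apply mul_le_mul h3 h4
    · have : 0 ≤ lam ^ (2 * m) := by
        rw [pow_mul]; positivity
      exact mul_nonneg this hS2
    · exact Finset.sum_nonneg fun ξ _ => GG_p2_nonneg (yT_nn hD.hch n _ ξ)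
  have h6 := mul_le_mul_of_nonneg_left h5 hD.t0
  have e : t * ((lam ^ 2 * Sp (q := q) lam p2 n (T (i0 k))) * (lam ^ (2 * m) * Sp (q := q) lam (fun c => p2 c ^ m) n (T (i1 k))))
      = t * lam ^ (2 + 2 * m) * (Sp (q := q) lam p2 n (T (i0 k)) * Sp (q := q) lam (fun c => p2 c ^ m) n (T (i1 k))) := by
    rw [pow_add]
    ring
  rw [e] at h6
  linarith

end tree

section final

variable {π : ℕ → ℝ} {C K d : ℝ}

/-- **Nonreconstruction on Galton-Watson trees**, for `q` colours, from the recursions on fixed trees. -/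
theorem tendsto_of_rec (hπ0 : ∀ k, 0 ≤ π k) (hπ : HasSum π 1)
    (hmean : HasSum (fun k : ℕ => (k : ℝ) * π k) d) (k₀ : ℕ) (hπ2 : 0 < π (k₀ + 2))
    (hch : ∀ i j, 0 ≤ chan q lam i j) (ht : 0 < t) {ψ : V q → ℝ}
    (hS1 : ∀ (n k : ℕ) (T : Fin k → Tr n),
      Sp (q := q) lam ψ (n + 1) ⟨k, T⟩ ≤ lam ^ 2 * ∑ c, Sp (q := q) lam ψ n (T c))
    (hS2 : ∀ (n : ℕ) (T : Fin (k₀ + 2) → Tr n),
      Sp (q := q) lam ψ (n + 1) ⟨k₀ + 2, T⟩ ≤ lam ^ 2 * ∑ c, Sp (q := q) lam ψ n (T c)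
        - t * lam ^ (2 + 2 * (m + 1)) *
          (Sp (q := q) lam p2 n (T (i0 k₀)) * Sp (q := q) lam (fun c => p2 c ^ (m + 1)) n (T (i1 k₀))))
    (hψ0 : ∀ c, InSx 1 c → 0 ≤ ψ c) (hge : ∀ c, InSx 1 c → p2 c ≤ K * ψ c)
    (hbd : ∀ c, InSx 1 c → ψ c ≤ C) (hd : d * lam ^ 2 ≤ 1) :
    Tendsto (advantage π q lam) atTop (𝓝 0) := by
  have hp20 : ∀ c : V q, InSx 1 c → 0 ≤ p2 c := fun c _ => p2_nonneg c
  have hp2bd : ∀ c : V q, InSx 1 c → p2 c ≤ q := fun c hc => p2_le hc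
  have hq : (0 : ℝ) < q := q_pos
  set E : ℕ → ℝ := fun n => ∑' T, treeProb π n T * Sp (q := q) lam ψ n T with hE
  set A : ℕ → ℝ := fun n => ∑' T, treeProb π n T * Sp (q := q) lam p2 n T with hA
  set A' : ℕ → ℝ := fun n => ∑' T, treeProb π n T * Sp (q := q) lam (fun c => p2 c ^ (m + 1)) n T with hA'
  have hE0 : ∀ n, 0 ≤ E n := fun n =>
    tsum_nonneg fun T => mul_nonneg (treeProb_nonneg hπ0 n T) (Sp_nonneg hch hψ0 n T)
  have hA0 : ∀ n, 0 ≤ A n := fun n =>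
    tsum_nonneg fun T => mul_nonneg (treeProb_nonneg hπ0 n T) (Sp_nonneg hch hp20 n T)
  have hAA' : ∀ n, A n ^ (m + 1) ≤ A' n := fun n => pow_le_mean hπ0 hπ hch n m
  have hrec : ∀ n, E (n + 1) ≤ d * lam ^ 2 * E n
      - π (k₀ + 2) * (t * lam ^ (2 + 2 * (m + 1))) * (A n * A' n) := fun n =>
    level_rec_of hπ0 hπ hmean hch hψ0 hbd hp20 hp2bd
      (fun c _ => pow_nonneg (p2_nonneg c) (m + 1))
      (fun c hc => pow_le_pow_left₀ (p2_nonneg c) (p2_le hc) (m + 1)) k₀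
      hS1 hS2 n
  have hlim2 : Tendsto A atTop (𝓝 0) := by
    rcases eq_or_ne lam 0 with hl0 | hlne
    · -- the trivial channel
      have hK : ∀ n, A n ≤ max K 0 * E n := by
        intro n
        have hK0 : 0 ≤ max K 0 := le_max_right _ _
        have h1 := (summable_terms hπ0 hπ hch hp20 hp2bd n).hasSum
        have h2 := ((summable_terms hπ0 hπ hch hψ0 hbd n).hasSum).mul_left (max K 0)
        refine hasSum_le (fun T => ?_) h1 h2
        have h3 : Sp (q := q) lam p2 n T ≤ max K 0 * Sp (q := q) lam ψ n T := by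
          unfold Sp
          rw [Finset.mul_sum]
          apply Finset.sum_le_sum
          intro ω _
          rcases (MM_nonneg (xT_nn hch n T ω)).eq_or_lt with h | h
          · simp [GG, ← h]
          · simp only [GG]
            have hc := cen_inSx (xT_nn hch n T ω) h
            have h4 : p2 (cen (xT (q := q) lam n T ω)) ≤ max K 0 * ψ (cen (xT (q := q) lam n T ω)) :=
              (hge _ hc).trans (mul_le_mul_of_nonneg_right (le_max_left _ _) (hψ0 _ hc))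
            have := mul_le_mul_of_nonneg_left h4 h.le
            calc _ ≤ _ := this
              _ = _ := by ring
        have := mul_le_mul_of_nonneg_left h3 (treeProb_nonneg hπ0 n T)
        calc _ ≤ _ := this
          _ = _ := by ring
      have hz : ∀ n, A (n + 1) = 0 := by
        intro n
        have h3 := hrec n
        rw [hl0] at h3
        have e : (0 : ℝ) ^ (2 + 2 * (m + 1)) = 0 := by simp
        rw [e] at h3
        simp only [mul_zero, ne_eq, OfNat.ofNat_ne_zero, not_false_eq_true, zero_pow, zero_mul, sub_zero] at h3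
        have h4 := hE0 (n + 1)
        have h5 : E (n + 1) = 0 := le_antisymm h3 h4
        have h6 := hK (n + 1)
        rw [h5, mul_zero] at h6
        exact le_antisymm h6 (hA0 _)
      rw [← tendsto_add_atTop_iff_nat 1]
      simp only [hz]
      exact tendsto_const_nhds
    · have hl2 : 0 < lam ^ 2 := by positivity
      have hlp : 0 < lam ^ (2 + 2 * (m + 1)) := by
        rw [pow_add, pow_mul]
        positivity
      have hc : 0 < π (k₀ + 2) * (t * lam ^ (2 + 2 * (m + 1))) := by positivity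
      set c := π (k₀ + 2) * (t * lam ^ (2 + 2 * (m + 1))) with hcdef
      have hstep : ∀ n, c * A n ^ (m + 2) ≤ E n - E (n + 1) := by
        intro n
        have h3 := hrec n
        have h4 := mul_le_mul_of_nonneg_right hd (hE0 n)
        have h5 := mul_le_mul_of_nonneg_left (hAA' n) (hA0 n)
        have h6 := mul_le_mul_of_nonneg_left h5 hc.le
        have e : A n * A n ^ (m + 1) = A n ^ (m + 2) := by ring
        rw [e] at h6
        linarith
      have hanti : Antitone E := by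
        apply antitone_nat_of_succ_le
        intro n
        have h3 := hstep n
        have h5 : 0 ≤ c * A n ^ (m + 2) := mul_nonneg hc.le (pow_nonneg (hA0 n) _)
        linarith
      have hbdd : BddBelow (Set.range E) := ⟨0, by rintro _ ⟨n, rfl⟩; exact hE0 n⟩
      have hlim := tendsto_atTop_ciInf hanti hbdd
      have hdiff : Tendsto (fun n => E n - E (n + 1)) atTop (𝓝 0) := by
        have := hlim.sub (hlim.comp (tendsto_add_atTop_nat 1))
        simpa using this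
      have hsq : Tendsto (fun n => A n ^ (m + 2)) atTop (𝓝 0) := by
        have h3 : Tendsto (fun n => c⁻¹ * (E n - E (n + 1))) atTop (𝓝 0) := by
          have := hdiff.const_mul (c⁻¹)
          rwa [mul_zero] at this
        refine squeeze_zero (fun n => pow_nonneg (hA0 n) _) (fun n => ?_) h3
        rw [le_inv_mul_iff₀ hc]
        exact hstep n
      have h3 := hsq.rpow_const (p := ((m + 2 : ℕ) : ℝ)⁻¹) (Or.inr (by positivity))
      have hp : (((m + 2 : ℕ) : ℝ)⁻¹) ≠ 0 := by positivity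
      rw [Real.zero_rpow hp] at h3
      have e : (fun n => (A n ^ (m + 2)) ^ (((m + 2 : ℕ) : ℝ)⁻¹)) = A := by
        funext n
        exact Real.pow_rpow_inv_natCast (hA0 n) (by omega)
      rwa [e] at h3
  have hlim3 : Tendsto (fun n => Real.sqrt ((q : ℝ) / 4 * A n)) atTop (𝓝 0) := by
    simpa using (hlim2.const_mul ((q : ℝ) / 4)).sqrt
  refine squeeze_zero (fun n => ?_) (fun n => ?_) hlim3
  · exact tsum_nonneg fun T => mul_nonneg (treeProb_nonneg hπ0 n T) (advTree_nonneg hch n T)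
  · exact Real.le_sqrt_of_sq_le (advantage_bounds hπ0 hπ hch n).2

/-- **Nonreconstruction on Galton-Watson trees**, for `q` colours, from the pointwise data. -/
theorem tendsto_advantage2I (hπ0 : ∀ k, 0 ≤ π k) (hπ : HasSum π 1)
    (hmean : HasSum (fun k : ℕ => (k : ℝ) * π k) d) (k₀ : ℕ) (hπ2 : 0 < π (k₀ + 2))
    (hD : QData2I lam B ψ Y χ₁ χ₂ G₁ H₁ G₂ H₂ v₁ w₁ v₂ w₂ f₁ f₂ t (m + 1)) (ht : 0 < t)
    (hψ0 : ∀ c, InSx 1 c → 0 ≤ ψ c) (hge : ∀ c, InSx 1 c → p2 c ≤ K * ψ c)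
    (hbd : ∀ c, InSx 1 c → ψ c ≤ C) (hd : d * lam ^ 2 ≤ 1) :
    Tendsto (advantage π q lam) atTop (𝓝 0) :=
  tendsto_of_rec hπ0 hπ hmean k₀ hπ2 hD.hch ht (Sp_succ_le2I hD) (fun n T => Sp_margin2I hD n k₀ T)
    hψ0 hge hbd hd

end final

end

end Vale.Agent.Lib.P154R
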